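import Vale.Agent.P240.R2.H986.StarCount
import Vale.Agent.P240.R2.H715.CardU

/-!
P240, module S4, special unitary form (helper986): `|U| = |SU| |N1|`, the count for `S = SU`.
-/

set_option autoImplicit false
set_option linter.all false

namespace Vale.Agent.P240.R2.H986.St

open Matrix Vale.Agent.P240.R2.H687 Vale.Agent.P240.R2.AS

universe u

section SU

variable (K : Type u) [Field K] [StarRing K] (n : ℕ)

/-- the determinant of a unitary matrix -/
def detU : unitaryGroup (Fin n) K →* unitary K where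
  toFun g := ⟨(g : Matrix (Fin n) (Fin n) K).det, Matrix.det_of_mem_unitary g.2⟩
  map_one' := by
    apply Subtype.ext
    simp
  map_mul' a b := by
    apply Subtype.ext
    simp

/-- the special unitary group, as a subgroup of the unitary group -/
def SUg : Subgroup (unitaryGroup (Fin n) K) := (detU K n).ker

variable {K n}

lemma mem_SUg {g : unitaryGroup (Fin n) K} :
    g ∈ SUg K n ↔ (g : Matrix (Fin n) (Fin n) K).det = 1 := by
  unfold SUg
  rw [MonoidHom.mem_ker]
  constructor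
  · intro h
    exact congrArg Subtype.val h
  · intro h
    exact Subtype.ext h

lemma detU_surjective (hn : 0 < n) : Function.Surjective (detU K n) := by
  intro c
  have hc : (c : K) * star (c : K) = 1 := (Unitary.mem_iff.1 c.2).2
  let d : Fin n → K := Function.update (fun _ => 1) ⟨0, hn⟩ (c : K)
  have hd : ∀ i, d i * star (d i) = 1 := by
    intro i
    by_cases hi : i = ⟨0, hn⟩
    · subst hi
      simp only [d, Function.update_self]
      exact hc
    · simp only [d, Function.update_of_ne hi]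
      simp
  have hu : Matrix.diagonal d ∈ unitaryGroup (Fin n) K := by
    rw [mem_unitaryGroup_iff, star_eq_conjTranspose, diagonal_conjTranspose, diagonal_mul_diagonal]
    rw [← diagonal_one]
    congr 1
    funext i
    exact hd i
  refine ⟨⟨Matrix.diagonal d, hu⟩, Subtype.ext ?_⟩
  show (Matrix.diagonal d).det = (c : K)
  rw [det_diagonal]
  simp only [d]
  rw [Finset.prod_update_of_mem (Finset.mem_univ _)]
  simp

/-- `|U| = |unitary K| |SU|` -/
theorem card_U_SU [Finite K] (hn : 0 < n) :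
    Nat.card (unitaryGroup (Fin n) K) = Nat.card (unitary K) * Nat.card (SUg K n) := by
  rw [Subgroup.card_eq_card_quotient_mul_card_subgroup (SUg K n)]
  congr 1
  exact Nat.card_congr (QuotientGroup.quotientKerEquivOfSurjective (detU K n)
    (detU_surjective hn)).toEquiv

lemma card_unitary_N1 : Nat.card (unitary K) = Nat.card (H715.N1 K) := by
  refine Nat.card_congr ?_
  refine Equiv.subtypeEquivRight fun x => ?_
  rw [Unitary.mem_iff]
  constructor
  · exact fun h => h.1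
  · intro h
    exact ⟨h, by rw [mul_comm]; exact h⟩

lemma comap_SUg : (SUg K n).comap (uMap n (toK K) (toK_star K)) = SUg (F0 K) n := by
  ext g
  rw [Subgroup.mem_comap, mem_SUg, mem_SUg, uMap_coe]
  have h : ((g : Matrix (Fin n) (Fin n) (F0 K)).map (toK K)).det =
      toK K (g : Matrix (Fin n) (Fin n) (F0 K)).det := by
    have h3 : (g : Matrix (Fin n) (Fin n) (F0 K)).map (toK K) =
      (toK K).mapMatrix (g : Matrix (Fin n) (Fin n) (F0 K)) := rfl
    rw [h3, ← RingHom.map_det]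
  rw [h]
  constructor
  · intro h1
    exact (toK K).injective (h1.trans (map_one _).symm)
  · intro h1
    rw [h1, map_one]

end SU

/-- general count with integer factors: `m U ≤ P (Z U₀)` and `Z 3 4^n ≤ r m A^n` give
`F₁ < r (P t)` -/
theorem count_gen' {n A Z U U₀ F₁ F₀ P t m r : ℕ} (hA : 0 < A) (hm : 0 < m) (hU : U = F₁ * A ^ n)
    (hU₀ : U₀ = F₀ * 2 ^ n) (hP : m * U ≤ P * (Z * U₀)) (h0 : 0 < U) (ht : F₀ < 3 * 2 ^ n * t)
    (hZ : Z * (3 * 4 ^ n) ≤ r * (m * A ^ n)) : F₁ < r * (P * t) := by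
  have hPZ : 0 < P * Z := by
    rcases Nat.eq_zero_or_pos (P * Z) with h | h
    · rw [← mul_assoc, h, zero_mul] at hP
      have : 0 < m * U := Nat.mul_pos hm h0
      omega
    · exact h
  have hAn : 0 < m * A ^ n := Nat.mul_pos hm (Nat.pow_pos hA)
  refine lt_of_mul_lt_mul_right (a := m * A ^ n) ?_ (Nat.zero_le _)
  have e4 : (4 : ℕ) ^ n = 2 ^ n * 2 ^ n := by rw [← mul_pow]; norm_num
  calc F₁ * (m * A ^ n) = m * U := by rw [hU]; ring
    _ ≤ P * (Z * (F₀ * 2 ^ n)) := by rw [← hU₀]; exact hP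
    _ = (P * Z) * (F₀ * 2 ^ n) := by ring
    _ < (P * Z) * ((3 * 2 ^ n * t) * 2 ^ n) :=
        Nat.mul_lt_mul_of_pos_left (Nat.mul_lt_mul_of_pos_right ht (Nat.pow_pos (by norm_num))) hPZ
    _ = (P * t) * (Z * (3 * 4 ^ n)) := by rw [e4]; ring
    _ ≤ (P * t) * (r * (m * A ^ n)) := Nat.mul_le_mul_left _ hZ
    _ = r * (P * t) * (m * A ^ n) := by ring

/-- **the count for `p = 2`, `φ = star`, the special unitary group**; `r = 1` for the plain
obstruction space, `r = 2` with the reversal -/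
theorem star_count_S {K : Type u} [Field K] [Fintype K] [StarRing K] {q n r : ℕ} (hq : 2 ≤ q)
    (hK : Nat.card K = q ^ 2) (h2 : (2 : F0 K) ≠ 0)
    (hs : ∀ x : K, star x = x ^ q) (hn : 0 < n)
    {Γ : Type*} [Group Γ] (e : unitaryGroup (Fin n) K →* Γ)
    (he : ∀ g, e g = 1 → ∃ c : K, (g : Matrix (Fin n) (Fin n) K) = c • (1 : Matrix (Fin n) (Fin n) K))
    (x : Γ) (hx : ∀ g, x * e g * x⁻¹ = e (uMap n (starRingEnd K) star_comm g))
    (ht : (Fr (F0 K) n).card < 3 * 2 ^ n * t (Fr (F0 K) n))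
    (hnum : (q + 1) * Nat.gcd n (q + 1) * (3 * 4 ^ n) ≤ r * (2 * (q + 1) ^ n)) :
    (Fr K n).card < r * (Nat.card (conjs e (SUg K n) x) * t (Fr (F0 K) n)) := by
  have : Finite (Matrix (Fin n) (Fin n) K) := inferInstanceAs (Finite (Fin n → Fin n → K))
  have : Finite (unitaryGroup (Fin n) K) := Subtype.finite
  have h1 := card_conjs_star_S hn hs (SUg K n) (fun g hg => mem_SUg.1 hg) e he x hx
  rw [comap_SUg] at h1
  have hU := H715.card_unitary_pow (K := K) hq hK hs n
  have hU₀ := H715.card_unitary_trivial (K := F0 K) h2 (star_F0 K) n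
  have e1 := card_U_SU (K := K) hn
  have e2 := card_U_SU (K := F0 K) hn
  rw [card_unitary_N1, H715.card_N1_of_pow hq hK hs] at e1
  rw [card_unitary_N1, H715.card_N1_of_trivial h2 (star_F0 K)] at e2
  refine count_gen' (A := q + 1) (m := 2) (Z := (q + 1) * Nat.gcd n (q + 1)) (by omega)
    (by norm_num) hU hU₀ ?_ Nat.card_pos ht hnum
  rw [e1, e2]
  calc 2 * ((q + 1) * Nat.card (SUg K n))
      ≤ 2 * ((q + 1) * (Nat.card (conjs e (SUg K n) x) *
        (Nat.gcd n (q + 1) * Nat.card (SUg (F0 K) n)))) :=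
        Nat.mul_le_mul_left _ (Nat.mul_le_mul_left _ h1)
    _ = _ := by ring

/-- `2 ≠ 0` in the fixed field when `q` is odd -/
lemma two_ne {K : Type u} [Field K] [Fintype K] [StarRing K] {q : ℕ} (hq : Odd q)
    (hK : Nat.card K = q ^ 2) (hs : ∀ x : K, star x = x ^ q) : (2 : F0 K) ≠ 0 := by
  intro h2
  have h3 : Nat.card (F0 K) = q := card_F0 hK hs
  have h4 : ((q : ℕ) : F0 K) = 0 := by
    rw [← h3, Nat.card_eq_fintype_card]
    exact Nat.cast_card_eq_zero (F0 K)
  obtain ⟨r, hr⟩ := hq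
  rw [hr] at h4
  push_cast at h4
  rw [h2, zero_mul, zero_add] at h4
  exact one_ne_zero h4

/-- the count for the whole unitary group, all group orders inserted; `r = 1`: `q ≥ 11` -/
theorem star_count_U {K : Type u} [Field K] [Fintype K] [StarRing K] {q n r : ℕ} (hq : Odd q)
    (hK : Nat.card K = q ^ 2) (hs : ∀ x : K, star x = x ^ q) (hodd : Odd n)
    {Γ : Type*} [Group Γ] (e : unitaryGroup (Fin n) K →* Γ)
    (he : ∀ g, e g = 1 → ∃ c : K, (g : Matrix (Fin n) (Fin n) K) = c • (1 : Matrix (Fin n) (Fin n) K))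
    (x : Γ) (hx : ∀ g, x * e g * x⁻¹ = e (uMap n (starRingEnd K) star_comm g))
    (ht : (Fr (F0 K) n).card < 3 * 2 ^ n * t (Fr (F0 K) n))
    (hnum : 3 * 4 ^ n ≤ r * (2 * (q + 1) ^ (n - 1))) :
    (Fr K n).card < r * (Nat.card (conjs e ⊤ x) * t (Fr (F0 K) n)) := by
  have : Finite (Matrix (Fin n) (Fin n) K) := inferInstanceAs (Finite (Fin n → Fin n → K))
  have : Finite (unitaryGroup (Fin n) K) := Subtype.finite
  have hq2 : 2 ≤ q := by
    have hq1 : 1 < q := by
      rw [Nat.card_eq_fintype_card] at hK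
      exact H472.one_lt hK
    omega
  have h1 := card_conjs_star hq hodd hs e he x hx
  have hU := H715.card_unitary_pow (K := K) hq2 hK hs n
  have hU₀ := H715.card_unitary_trivial (K := F0 K) (two_ne hq hK hs) (star_F0 K) n
  refine count_gen' (A := q + 1) (m := 1) (Z := (q + 1) / 2) (by omega) one_pos hU hU₀
    (by rw [one_mul]; exact h1) Nat.card_pos ht ?_
  obtain ⟨s, hs'⟩ := hq
  have h6 : (q + 1) / 2 = s + 1 := by omega
  have hn := hodd.pos
  have h8 : (q + 1) ^ n = (q + 1) ^ (n - 1) * (2 * (s + 1)) := by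
    rw [show 2 * (s + 1) = q + 1 by omega, ← pow_succ]
    congr 1
    omega
  rw [h6, h8, one_mul]
  calc (s + 1) * (3 * 4 ^ n) ≤ (s + 1) * (r * (2 * (q + 1) ^ (n - 1))) :=
        Nat.mul_le_mul_left _ hnum
    _ = r * ((q + 1) ^ (n - 1) * (2 * (s + 1))) := by ring

lemma num_S5 {n q : ℕ} (hn : 5 ≤ n) (hq : 11 ≤ q) : n * (3 * 4 ^ n) ≤ 2 * (q + 1) ^ (n - 1) := by
  obtain ⟨m, rfl⟩ : ∃ m, n = m + 5 := ⟨n - 5, by omega⟩
  have e : m + 5 - 1 = m + 4 := by omega
  rw [e]
  induction m with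
  | zero =>
    have h1 : 12 ^ 4 ≤ (q + 1) ^ 4 := Nat.pow_le_pow_left (by omega) 4
    norm_num at h1 ⊢
    omega
  | succ m ih =>
    have h1 := ih (by omega) (by omega)
    calc (m + 1 + 5) * (3 * 4 ^ (m + 1 + 5)) = ((m + 6) * 4) * (3 * 4 ^ (m + 5)) := by ring
      _ ≤ ((m + 5) * 12) * (3 * 4 ^ (m + 5)) := Nat.mul_le_mul_right _ (by omega)
      _ = ((m + 5) * (3 * 4 ^ (m + 5))) * 12 := by ring
      _ ≤ (2 * (q + 1) ^ (m + 4)) * (q + 1) := Nat.mul_le_mul h1 (by omega)
      _ = 2 * (q + 1) ^ (m + 1 + 4) := by ring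

/-- **the count for `S = SU_n(K)`**: `n ≥ 5` and `q ≥ 11`, or `n = 3` and `q ≥ 13` -/
theorem star_count_SU {K : Type u} [Field K] [Fintype K] [StarRing K] {q n : ℕ} (hq : Odd q)
    (hK : Nat.card K = q ^ 2) (hs : ∀ x : K, star x = x ^ q)
    (hnq : (5 ≤ n ∧ 11 ≤ q) ∨ (n = 3 ∧ 13 ≤ q))
    {Γ : Type*} [Group Γ] (e : unitaryGroup (Fin n) K →* Γ)
    (he : ∀ g, e g = 1 → ∃ c : K, (g : Matrix (Fin n) (Fin n) K) = c • (1 : Matrix (Fin n) (Fin n) K))
    (x : Γ) (hx : ∀ g, x * e g * x⁻¹ = e (uMap n (starRingEnd K) star_comm g))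
    (ht : (Fr (F0 K) n).card < 3 * 2 ^ n * t (Fr (F0 K) n)) :
    (Fr K n).card < Nat.card (conjs e (SUg K n) x) * t (Fr (F0 K) n) := by
  have hn : 0 < n := by rcases hnq with h | h <;> omega
  have hq2 : 2 ≤ q := by rcases hnq with h | h <;> omega
  have h := star_count_S (r := 1) hq2 hK (two_ne hq hK hs) hs hn e he x hx ht ?_
  · rwa [one_mul] at h
  · rcases hnq with ⟨h5, h11⟩ | ⟨rfl, h13⟩
    · have h1 : Nat.gcd n (q + 1) ≤ n := Nat.gcd_le_left _ hn
      have h2 := num_S5 h5 h11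
      have h3 : (q + 1) ^ n = (q + 1) ^ (n - 1) * (q + 1) := by
        rw [← pow_succ]
        congr 1
        omega
      calc (q + 1) * Nat.gcd n (q + 1) * (3 * 4 ^ n) ≤ (q + 1) * n * (3 * 4 ^ n) :=
            Nat.mul_le_mul_right _ (Nat.mul_le_mul_left _ h1)
        _ = (q + 1) * (n * (3 * 4 ^ n)) := by ring
        _ ≤ (q + 1) * (2 * (q + 1) ^ (n - 1)) := Nat.mul_le_mul_left _ h2
        _ = 1 * (2 * (q + 1) ^ n) := by rw [h3]; ring
    · have h1 : Nat.gcd 3 (q + 1) = 1 ∨ Nat.gcd 3 (q + 1) = 3 :=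
        (Nat.dvd_prime Nat.prime_three).1 (Nat.gcd_dvd_left 3 (q + 1))
      rcases h1 with h1 | h1
      · rw [h1]
        have h2 : 14 * 14 ≤ (q + 1) * (q + 1) := Nat.mul_le_mul (by omega) (by omega)
        have h3 : (q + 1) * 192 ≤ (q + 1) * (2 * ((q + 1) * (q + 1))) :=
          Nat.mul_le_mul_left _ (by omega)
        calc (q + 1) * 1 * (3 * 4 ^ 3) = (q + 1) * 192 := by ring
          _ ≤ _ := h3
          _ = 1 * (2 * (q + 1) ^ 3) := by ring
      · have h4 : 3 ∣ q + 1 := by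
          rw [← h1]
          exact Nat.gcd_dvd_right _ _
        obtain ⟨s, hs'⟩ := hq
        have h5 : 17 ≤ q := by omega
        rw [h1]
        have h2 : 18 * 18 ≤ (q + 1) * (q + 1) := Nat.mul_le_mul (by omega) (by omega)
        have h3 : (q + 1) * 576 ≤ (q + 1) * (2 * ((q + 1) * (q + 1))) :=
          Nat.mul_le_mul_left _ (by omega)
        calc (q + 1) * 3 * (3 * 4 ^ 3) = (q + 1) * 576 := by ring
          _ ≤ _ := h3
          _ = 1 * (2 * (q + 1) ^ 3) := by ring

end Vale.Agent.P240.R2.H986.St
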