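import Vale.Agent.P240.R2.H986.A5n

/-!
Hilbert 90 for unitary groups over finite fields, final form (P240, module A5).
-/

set_option autoImplicit false

namespace Vale.Agent.P240.R2.H986.A5

open Matrix Finset
open Vale.Agent.P240.R2.AS

universe u

section fin

variable {K : Type u} [Field K] [StarRing K]

/-- `star` composed with a power of an automorphism -/
def spw (σ : RingAut K) (i : ℕ) : K →* K where
  toFun a := star ((σ ^ i : RingAut K) a)
  map_one' := by rw [map_one, star_one]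
  map_mul' a b := by rw [map_mul, star_mul, mul_comm]

lemma spw_apply (σ : RingAut K) (i : ℕ) (a : K) : spw σ i a = star ((σ ^ i : RingAut K) a) := rfl

/-- `star` as a ring automorphism -/
def stA : RingAut K := starRingAut

lemma stA_apply (a : K) : (stA : RingAut K) a = star a := rfl

lemma stA_sq : (stA : RingAut K) ^ 2 = 1 := by
  apply RingEquiv.ext
  intro x
  rw [pow_two]
  show star (star x) = x
  exact star_star x

omit [StarRing K] in
lemma sum_pow_fixed {σ : RingAut K} {p : ℕ} (hσ : σ ^ p = 1) (a : K) :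
    σ (∑ i ∈ range p, (σ ^ i : RingAut K) a) = ∑ i ∈ range p, (σ ^ i : RingAut K) a := by
  rw [map_sum]
  have h1 : ∑ i ∈ range p, σ ((σ ^ i : RingAut K) a) = ∑ i ∈ range p, (σ ^ (i + 1) : RingAut K) a := by
    apply Finset.sum_congr rfl
    intro i _
    rw [pow_succ']
    rfl
  rw [h1]
  have h2 := Finset.sum_range_succ (fun i => (σ ^ i : RingAut K) a) p
  rw [Finset.sum_range_succ'] at h2
  rw [hσ, pow_zero] at h2
  exact add_right_cancel h2

omit [StarRing K] in
lemma prod_pow_fixed {σ : RingAut K} {p : ℕ} (hσ : σ ^ p = 1) (a : K) (ha : a ≠ 0) :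
    σ (∏ i ∈ range p, (σ ^ i : RingAut K) a) = ∏ i ∈ range p, (σ ^ i : RingAut K) a := by
  rw [map_prod]
  have h1 : ∏ i ∈ range p, σ ((σ ^ i : RingAut K) a) = ∏ i ∈ range p, (σ ^ (i + 1) : RingAut K) a := by
    apply Finset.prod_congr rfl
    intro i _
    rw [pow_succ']
    rfl
  rw [h1]
  have h2 := Finset.prod_range_succ (fun i => (σ ^ i : RingAut K) a) p
  rw [Finset.prod_range_succ'] at h2
  rw [hσ, pow_zero] at h2
  exact mul_right_cancel₀ (by simpa using ha) h2

/-- a fixed element of `σ` moved by `star` -/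
lemma exists_theta {σ : RingAut K} {p : ℕ} (hp : orderOf σ = p) (hodd : Odd p)
    {a : K} (ha : star a ≠ a) : ∃ θ : K, σ θ = θ ∧ star θ ≠ θ := by
  classical
  by_contra hcon
  push Not at hcon
  have hp0 : 0 < p := hodd.pos
  have hσ : σ ^ p = 1 := by rw [← hp]; exact pow_orderOf_eq_one σ
  let φ : Fin p ⊕ Fin p → (K →* K) := Sum.elim (fun i => pw σ (i : ℕ)) (fun i => spw σ (i : ℕ))
  have hcross : ∀ i j : Fin p, pw σ (i : ℕ) ≠ spw σ (j : ℕ) := by
    intro i j hij
    -- `star` is a power of `σ`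
    have h1 : (stA : RingAut K) = σ ^ (i : ℕ) * (σ ^ (j : ℕ))⁻¹ := by
      apply RingEquiv.ext
      intro x
      have h2 := DFunLike.congr_fun hij (((σ ^ (j : ℕ))⁻¹ : RingAut K) x)
      rw [pw_apply, spw_apply] at h2
      have h3 : (σ ^ (j : ℕ) : RingAut K) (((σ ^ (j : ℕ))⁻¹ : RingAut K) x) = x := by
        have : ((σ ^ (j : ℕ)) * (σ ^ (j : ℕ))⁻¹ : RingAut K) x = x := by
          rw [mul_inv_cancel]; rfl
        exact this
      rw [h3] at h2
      rw [stA_apply, ← h2]
      rfl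
    have h4 : (stA : RingAut K) ^ p = 1 := by
      rw [h1]
      have hc : Commute (σ ^ (i : ℕ)) (σ ^ (j : ℕ))⁻¹ :=
        ((Commute.refl σ).pow_pow _ _).inv_right
      rw [hc.mul_pow, inv_pow, ← pow_mul, ← pow_mul, mul_comm (i : ℕ), mul_comm (j : ℕ), pow_mul,
        pow_mul, hσ, one_pow, one_pow, inv_one, mul_one]
    obtain ⟨m, hm⟩ := hodd
    have h5 : (stA : RingAut K) = 1 := by
      have h6 := h4
      rw [hm, pow_succ, pow_mul, stA_sq, one_pow, one_mul] at h6
      exact h6
    apply ha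
    have h7 := congrArg (fun s : RingAut K => s a) h5
    exact h7
  have hφ : Function.Injective φ := by
    rintro (i | i) (j | j) hij
    · exact congrArg Sum.inl (pw_inj σ hp hij)
    · exact absurd hij (hcross i j)
    · exact absurd hij.symm (hcross j i)
    · congr 1
      apply pw_inj σ hp
      ext x
      have h1 := DFunLike.congr_fun hij x
      exact star_injective h1
  have h := dedekind φ hφ (Sum.elim (fun _ => 1) (fun _ => -1)) (by
    intro a
    rw [Fintype.sum_sum_type]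
    simp only [φ, Sum.elim_inl, Sum.elim_inr, mul_one, mul_neg, Finset.sum_neg_distrib]
    have h1 := hcon _ (sum_pow_fixed hσ a)
    rw [star_sum] at h1
    rw [Finset.sum_range, Finset.sum_range] at h1
    rw [show ∑ i : Fin p, (spw σ (i : ℕ)) a = ∑ i : Fin p, (pw σ (i : ℕ)) a from h1]
    ring)
  have := h (Sum.inl ⟨0, hp0⟩)
  simp at this

/-- norms from the fixed field of `σ` -/
lemma exists_norm_fixed [Fintype K] {q : ℕ} (hK : Nat.card K = q ^ 2) (hs : ∀ x : K, star x = x ^ q)
    {σ : SA K} {p : ℕ} (hp : orderOf σ.1 = p) (hodd : Odd p) {c : K} (hc : c ≠ 0) (hcs : star c = c)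
    (hcσ : σ.1 c = c) : ∃ a, σ.1 a = a ∧ a * star a = c := by
  have hσ : σ.1 ^ p = 1 := by rw [← hp]; exact pow_orderOf_eq_one σ.1
  obtain ⟨b, hb⟩ := H387.exists_norm (by rw [← Nat.card_eq_fintype_card, hK]) hc (by rw [← hs, hcs])
  have hb' : b * star b = c := by rw [hs, ← pow_succ', hb]
  have hb0 : b ≠ 0 := by
    rintro rfl
    apply hc
    rw [← hb', zero_mul]
  obtain ⟨m, hm⟩ := hodd
  set b' := ∏ i ∈ range p, (σ.1 ^ i : RingAut K) b with hbdef
  have h1 : σ.1 b' = b' := prod_pow_fixed hσ b hb0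
  have hpow : ∀ i : ℕ, (σ.1 ^ i : RingAut K) c = c := by
    intro i
    induction i with
    | zero => rfl
    | succ i ih =>
      rw [pow_succ]
      show (σ.1 ^ i : RingAut K) (σ.1 c) = c
      rw [hcσ, ih]
  have hstar : ∀ i : ℕ, ∀ x : K, star ((σ.1 ^ i : RingAut K) x) = (σ.1 ^ i : RingAut K) (star x) := by
    intro i x
    exact (SA_star (σ ^ i) x).symm
  have h2 : b' * star b' = c ^ p := by
    rw [hbdef, star_prod, ← Finset.prod_mul_distrib]
    rw [Finset.prod_congr rfl (g := fun _ => c)]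
    · rw [Finset.prod_const, Finset.card_range]
    · intro i _
      rw [hstar, ← map_mul, hb', hpow]
  refine ⟨b' * (c ^ m)⁻¹, ?_, ?_⟩
  · rw [map_mul, h1, map_inv₀, map_pow, hcσ]
  · rw [star_mul, star_inv₀, star_pow, hcs]
    have h3 : b' * (c ^ m)⁻¹ * ((c ^ m)⁻¹ * star b') = (b' * star b') * (c ^ (2 * m))⁻¹ := by
      rw [two_mul, pow_add, mul_inv]
      ring
    rw [h3, h2, hm, pow_succ]
    field_simp

/-- an element of norm one (for `star`) whose norm (for `σ`) is given -/
lemma exists_scalar [Fintype K] {σ : SA K} {p : ℕ} (hp : orderOf σ.1 = p) (hodd : Odd p) {c : K}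
    (hcs : c * star c = 1) (hcσ : σ.1 c = c) :
    ∃ l : K, l * star l = 1 ∧ ∏ i ∈ range p, (σ.1 ^ i : RingAut K) l = c := by
  obtain ⟨b, hb⟩ := exists_norm_eq σ.1 hp hcσ
  have hc0 : c ≠ 0 := left_ne_zero_of_mul_eq_one hcs
  have hb0 : b ≠ 0 := by
    rintro rfl
    apply hc0
    rw [← hb]
    apply Finset.prod_eq_zero (mem_range.2 hodd.pos)
    simp
  obtain ⟨m, hm⟩ := hodd
  have hpow : ∀ i : ℕ, (σ.1 ^ i : RingAut K) c = c := by
    intro i
    induction i with
    | zero => rfl
    | succ i ih =>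
      rw [pow_succ]
      show (σ.1 ^ i : RingAut K) (σ.1 c) = c
      rw [hcσ, ih]
  have hstar : ∀ i : ℕ, ∀ x : K, star ((σ.1 ^ i : RingAut K) x) = (σ.1 ^ i : RingAut K) (star x) := by
    intro i x
    exact (SA_star (σ ^ i) x).symm
  have hsb : ∏ i ∈ range p, (σ.1 ^ i : RingAut K) (star b) = star c := by
    rw [← hb, star_prod]
    exact Finset.prod_congr rfl fun i _ => (hstar i b).symm
  have hsb0 : star b ≠ 0 := star_ne_zero.2 hb0
  have hsc0 : star c ≠ 0 := star_ne_zero.2 hc0
  refine ⟨c * ((b * (star b)⁻¹) ^ m)⁻¹, ?_, ?_⟩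
  · rw [star_mul, star_inv₀, star_pow, star_mul, star_inv₀, star_star]
    have : c * ((b * (star b)⁻¹) ^ m)⁻¹ * (((b⁻¹ * star b) ^ m)⁻¹ * star c)
        = (c * star c) * ((b * (star b)⁻¹ * (b⁻¹ * star b)) ^ m)⁻¹ := by
      rw [mul_pow (b * (star b)⁻¹), mul_inv]
      ring
    rw [this, hcs]
    have h2 : b * (star b)⁻¹ * (b⁻¹ * star b) = 1 := by field_simp
    rw [h2, one_pow, inv_one, mul_one]
  · simp only [map_mul, map_inv₀, map_pow, Finset.prod_mul_distrib, Finset.prod_inv_distrib,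
      Finset.prod_pow]
    rw [hb, hsb]
    rw [Finset.prod_congr rfl (fun i _ => hpow i), Finset.prod_const, Finset.card_range]
    have h3 : (star c)⁻¹ = c := by
      rw [inv_eq_iff_eq_inv]
      exact eq_inv_of_mul_eq_one_right hcs
    rw [h3, hm, pow_succ, pow_mul, ← pow_two]
    field_simp

end fin

section ng

variable {K : Type u} [Field K] [StarRing K] {n : ℕ}

/-- the partial norms -/
def ng (σ : SA K) (g : GU K n) : ℕ → GU K n
  | 0 => 1
  | k + 1 => g * mapGU σ (ng σ g k)

lemma ng_zero (σ : SA K) (g : GU K n) : ng σ g 0 = 1 := rfl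

lemma ng_succ (σ : SA K) (g : GU K n) (k : ℕ) : ng σ g (k + 1) = g * mapGU σ (ng σ g k) := rfl

lemma it_eq (σ : SA K) (g : GU K n) (k : ℕ) (v : Fin n → K) :
    it σ g k v = (ng σ g k).1 *ᵥ (fun i => (σ.1 ^ k : RingAut K) (v i)) := by
  induction k with
  | zero =>
    rw [it_zero, ng_zero]
    show v = (1 : Matrix (Fin n) (Fin n) K) *ᵥ _
    rw [one_mulVec]
    rfl
  | succ k ih =>
    rw [it_succ, ng_succ, ih]
    show g.1 *ᵥ _ = (g.1 * (mapGU σ (ng σ g k)).1) *ᵥ _
    rw [← mulVec_mulVec]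
    congr 1
    ext i
    show σ.1 (((ng σ g k).1 *ᵥ (fun i => (σ.1 ^ k : RingAut K) (v i))) i) =
      (((ng σ g k).1.map σ.1) *ᵥ _) i
    simp only [mulVec, dotProduct, map_sum, map_mul, Matrix.map_apply, pow_succ']
    rfl

/-- the norm and the powers in `PΓU` -/
lemma pow_eq (σ : SA K) (g : GU K n) (k : ℕ) :
    (SemidirectProduct.inl (QuotientGroup.mk g : PGU K n) * SemidirectProduct.inr σ : PGamU K n) ^ k =
      SemidirectProduct.inl (QuotientGroup.mk (ng σ g k)) * SemidirectProduct.inr (σ ^ k) := by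
  induction k with
  | zero => simp [ng_zero]
  | succ k ih =>
    rw [pow_succ', ih, ng_succ]
    apply SemidirectProduct.ext
    · simp only [SemidirectProduct.mul_left, SemidirectProduct.left_inl, SemidirectProduct.right_inl,
        SemidirectProduct.left_inr, map_one, mul_one, SemidirectProduct.mul_right,
        SemidirectProduct.right_inr, one_mul]
      rfl
    · simp [pow_succ']

end ng

/-- `star` is not the identity -/
lemma exists_star_ne {K : Type u} [Field K] [Fintype K] [StarRing K] {q : ℕ} (hq : 2 ≤ q)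
    (hK : Nat.card K = q ^ 2) (hs : ∀ x : K, star x = x ^ q) : ∃ a : K, star a ≠ a := by
  by_contra hcon
  push Not at hcon
  obtain ⟨g, hg⟩ := IsCyclic.exists_generator (α := Kˣ)
  have ho : orderOf g = q ^ 2 - 1 := by
    rw [orderOf_eq_card_of_forall_mem_zpowers hg, Nat.card_units, hK]
  have h1 : g ^ q = g := by
    apply Units.ext
    rw [Units.val_pow_eq_pow_val, ← hs, hcon]
  have h2 : g ^ (q - 1) = 1 := by
    have h3 : g ^ (q - 1) * g = 1 * g := by
      rw [← pow_succ, one_mul]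
      have : q - 1 + 1 = q := by omega
      rw [this, h1]
    exact mul_right_cancel h3
  have h3 := orderOf_dvd_of_pow_eq_one h2
  rw [ho] at h3
  have h4 := Nat.le_of_dvd (by omega) h3
  have h5 : q ^ 2 = q * q := by ring
  have h6 : 2 * q ≤ q * q := Nat.mul_le_mul_right q hq
  omega

/-- Hilbert 90 for unitary groups over finite fields -/
theorem h90_fin {K : Type u} [Field K] [Fintype K] [StarRing K] {q : ℕ} (hq : 2 ≤ q)
    (hK : Nat.card K = q ^ 2) (hs : ∀ x : K, star x = x ^ q) {p : ℕ} (hodd : Odd p) {σ : SA K}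
    (hp : orderOf σ.1 = p) {n : ℕ} {g : GU K n} (hN : ng σ g p = 1) :
    ∃ B : GU K n, g * mapGU σ B = B := by
  have hσ : σ.1 ^ p = 1 := by rw [← hp]; exact pow_orderOf_eq_one σ.1
  -- an element moved by `star`
  obtain ⟨a, ha⟩ := exists_star_ne hq hK hs
  obtain ⟨θ, hθ, hθ'⟩ := exists_theta hp hodd ha
  apply h90 hp hodd.pos _ hθ hθ' (fun c h0 h1 h2 => exists_norm_fixed hK hs hp hodd h0 h1 h2)
  intro v
  rw [it_eq, hN, hσ]
  show (1 : Matrix (Fin n) (Fin n) K) *ᵥ _ = _
  rw [one_mulVec]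
  rfl

end Vale.Agent.P240.R2.H986.A5
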