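import Vale.Agent.P240.R2.H986.EFin

/-!
P240, unitary groups in even dimension: the family `PSU_n(q)` for the prime `2` in the form `TopFac`.
-/

set_option autoImplicit false

namespace Vale.Agent.P240.R2.H986

open Vale.Agent.P240.R2.H487 (LocTopF TopFac)

universe u v

/-- `L` is isomorphic to `PSU_n(q)`, where `q ≥ 11` is odd, `n` is even and `n ≥ 6`, or `n = 4` and
`8 ∣ q + 1` -/
def PSUFacE (L : Type u) [Group L] : Prop :=
  ∃ (n q : ℕ) (K : Type) (_ : Field K) (_ : Fintype K) (_ : StarRing K), Even n ∧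
    (6 ≤ n ∨ (n = 4 ∧ 8 ∣ q + 1)) ∧ Odd q ∧ 11 ≤ q ∧ Nat.card K = q ^ 2 ∧
    (∀ x : K, star x = x ^ q) ∧ Nonempty (L ≃* AS.PSU K n)

theorem PSUFacE.topFac (𝕜 : Type v) [Field 𝕜] {L : Type u} [Group L] (h : PSUFacE L) :
    TopFac 𝕜 2 L := by
  obtain ⟨n, q, K, _, _, _, hn, hn4, hqo, hq, hK, hs, ⟨e⟩⟩ := h
  intro G _ _ M ⟨f⟩
  exact E.locTopF_PSU_even 𝕜 hn hn4 hqo hq hK hs (f.symm.trans e)

end Vale.Agent.P240.R2.H986
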