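import Vale.Agent.P240.R2.H986.ENum
import Vale.Agent.P240.R2.H387.Scnt

/-!
Normal forms of the semilinear involutions and counts, for `p = 2`.
-/

set_option autoImplicit false
set_option linter.all false

namespace Vale.Agent.P240.R2.H986.E

open Matrix Vale.Agent.P240.R2.AS Vale.Agent.P240.R2.H38 Vale.Agent.P240.R2.H487
open scoped Classical

universe u v w

noncomputable section

variable {K : Type u} [Field K] [Fintype K] [StarRing K] {n q : ℕ}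

/-- automorphisms of order two -/
lemma Fld.aut (h : Fld K q) {σ : K ≃+* K} (h2 : (σ : RingAut K) ^ 2 = 1) (h1 : σ ≠ RingEquiv.refl K) :
    ∀ x, σ x = star x := H401.aut_eq_star h.2.1 h.2.2 σ h2 h1

lemma map_of {σ : K ≃+* K} (hσ : ∀ x, σ x = star x) (A : Matrix (Fin n) (Fin n) K) :
    A.map σ = A.map star := by
  ext i j
  exact hσ _

/-- `m` odd: the count for all groups that contain `SU` -/
theorem scnt_odd_dim (h : Fld K q) (hq : 7 ≤ q) (hn : 3 ≤ n) (hno : Odd n) {S : Subgroup (GU K n)}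
    (hS : H38.SU K n ≤ S) {σ : K ≃+* K} (hσ : ∀ x, σ x = star x) : SCntN S σ := by
  refine SCntN.of_SU hS (fun a => by rw [hσ, hσ]) ?_
  exact (H387.scnt_two h.1 hq h.2.1 h.2.2 hn hno hσ).toN (by omega)

/-- the numerical inequality -/
lemma num_even (hn : 4 ≤ n) (hq : 11 ≤ q) :
    (q + 1) * Nat.gcd n (q + 1) * (3 * 4 ^ n) ≤ 2 * (2 * (q + 1) ^ n) := by
  have hg : n.gcd (q + 1) ≤ n := Nat.gcd_le_left _ (by omega)
  obtain ⟨m, rfl⟩ : ∃ m, n = m + 4 := ⟨n - 4, by omega⟩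
  obtain ⟨Q, rfl⟩ : ∃ Q, q = Q + 11 := ⟨q - 11, by omega⟩
  have key : ∀ m : ℕ, 3 * (m + 4) * 4 ^ (m + 4) ≤ 4 * 12 ^ (m + 3) := by
    intro m
    induction m with
    | zero => norm_num
    | succ m ih =>
      have e1 : 4 ^ (m + 1 + 4) = 4 * 4 ^ (m + 4) := by ring
      have e2 : 12 ^ (m + 1 + 3) = 12 * 12 ^ (m + 3) := by ring
      rw [e1, e2]
      calc 3 * (m + 1 + 4) * (4 * 4 ^ (m + 4)) = (3 * (m + 1 + 4) * 4) * 4 ^ (m + 4) := by ring
        _ ≤ (12 * (3 * (m + 4))) * 4 ^ (m + 4) := Nat.mul_le_mul_right _ (by omega)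
        _ = 12 * (3 * (m + 4) * 4 ^ (m + 4)) := by ring
        _ ≤ 12 * (4 * 12 ^ (m + 3)) := Nat.mul_le_mul_left _ ih
        _ = _ := by ring
  have k1 := key m
  have k2 : 12 ^ (m + 3) ≤ (Q + 11 + 1) ^ (m + 3) := Nat.pow_le_pow_left (by omega) _
  calc (Q + 11 + 1) * (m + 4).gcd (Q + 11 + 1) * (3 * 4 ^ (m + 4))
      ≤ (Q + 11 + 1) * (m + 4) * (3 * 4 ^ (m + 4)) :=
        Nat.mul_le_mul_right _ (Nat.mul_le_mul_left _ hg)
    _ = (Q + 11 + 1) * (3 * (m + 4) * 4 ^ (m + 4)) := by ring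
    _ ≤ (Q + 11 + 1) * (4 * 12 ^ (m + 3)) := Nat.mul_le_mul_left _ k1
    _ ≤ (Q + 11 + 1) * (4 * (Q + 11 + 1) ^ (m + 3)) :=
        Nat.mul_le_mul_left _ (Nat.mul_le_mul_left _ k2)
    _ = 2 * (2 * (Q + 11 + 1) ^ (m + 4)) := by ring

/-- the count for the trivial discriminant, any dimension `≥ 4` -/
theorem scnt_even_dim (h : Fld K q) (hq : 11 ≤ q) (hn : 4 ≤ n) {S : Subgroup (GU K n)}
    (hS : H38.SU K n ≤ S) {σ : K ≃+* K} (hσ : ∀ x, σ x = star x) (hσ2 : (σ : RingAut K) ^ 2 = 1)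
    (hσ1 : σ ≠ RingEquiv.refl K) : SCntN S σ := by
  have hB1 := H281.stmtB1 (H986.St.F0 K) (H986.St.star_F0 K)
    (by rw [H986.St.card_F0 h.2.1 h.2.2]; exact h.1) (by rw [H986.St.card_F0 h.2.1 h.2.2]; exact hq) n (by omega)
  refine SCntN.of_SU hS (fun a => by rw [hσ, hσ]) ?_
  exact (H38.scnt_two (by omega) h.1 h.2.1 h.2.2 hB1 (num_even hn hq) σ (fun a => by rw [hσ, hσ]) hσ2
    hσ1).toN (by omega)

/-- the matrix `Da` as a unitary matrix -/
lemma Da_mem {α : K} (hα : α * star α = 1) : Da n α ∈ Matrix.unitaryGroup (Fin n) K := by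
  rw [Matrix.mem_unitaryGroup_iff, Da, star_eq_conjTranspose, diagonal_conjTranspose,
    diagonal_mul_diagonal, ← diagonal_one]
  congr 1
  funext i
  rw [Pi.star_apply]
  split_ifs
  · exact hα
  · rw [star_one, one_mul]

/-- `q = 3 mod 4` -/
theorem lit_three (hEH : StmtEH.{u}) (hEC : StmtEC.{u}) (h : Fld K q) (hq4 : q % 4 = 3) (hq : 11 ≤ q)
    (hn : 4 ≤ n) (hne : Even n) {S : Subgroup (GU K n)} (hS : H38.SU K n ≤ S) {σ : K ≃+* K}
    (hσ2 : (σ : RingAut K) ^ 2 = 1) (hσ1 : σ ≠ RingEquiv.refl K) (a : Fin n → K)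
    (ha : ∀ i, a i * star (a i) = 1) :
    ∃ u d : GU K n, diagonal a * u.1.map σ = u.1 * d.1 ∧ (∃ e : Fin n → K, d.1 = diagonal e) ∧
      SCntd S d.1 σ := by
  have hσ := h.aut hσ2 hσ1
  have hσs : ∀ a, σ (star a) = star (σ a) := fun a => by rw [hσ, hσ]
  obtain ⟨α, hα⟩ := exists_NSq h.two_ne
  have hP : (∏ i, a i) * star (∏ i, a i) = 1 := by
    rw [star_prod, ← Finset.prod_mul_distrib]
    exact Finset.prod_eq_one fun i _ => ha i
  rcases hα.cases hP with ⟨x, hx, hx2⟩ | ⟨x, hx, hx2⟩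
  · obtain ⟨u, hu⟩ := (hEH K q h n (by omega) a ha).1 ⟨x, hx, hx2⟩
    refine ⟨u, 1, ?_, ⟨1, diagonal_one.symm⟩, ?_⟩
    · rw [map_of hσ, hu]
      exact (mul_one _).symm
    · exact SCntd_one.2 (scnt_even_dim h hq hn hS hσ hσ2 hσ1)
  · obtain ⟨u, hu⟩ := (hEH K q h n (by omega) a ha).2 α hα.1 ⟨x, hx, hx2⟩
    refine ⟨u, ⟨Da n α, Da_mem hα.1⟩, ?_, ⟨_, rfl⟩, ?_⟩
    · rw [map_of hσ, hu]
    · exact SCntd.of_SU (d := ⟨Da n α, Da_mem hα.1⟩) hS hσs (hEC K q h hq4 (by omega) n hn hne α hα σ hσ)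

/-- `q = 1 mod 4` -/
theorem lit_one (hEH : StmtEH.{u}) (h : Fld K q) (hq4 : q % 4 = 1) (hq : 11 ≤ q)
    (hn : 4 ≤ n) {S : Subgroup (GU K n)} (hS : H38.SU K n ≤ S) {σ : K ≃+* K}
    (hσ2 : (σ : RingAut K) ^ 2 = 1) (hσ1 : σ ≠ RingEquiv.refl K) (a : Fin n → K)
    (ha : ∀ i, a i * star (a i) = 1) :
    ∃ (k : ℕ) (u : GU K n), diagonal (fun i => a i * (if i.1 + 1 = n then (-1) ^ k else 1)) *
      u.1.map σ = u.1 ∧ SCntN S σ := by
  have hσ := h.aut hσ2 hσ1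
  have hα := NSq_neg h.two_ne h.2.2 hq4
  have hP : (∏ i, a i) * star (∏ i, a i) = 1 := by
    rw [star_prod, ← Finset.prod_mul_distrib]
    exact Finset.prod_eq_one fun i _ => ha i
  have hc := scnt_even_dim h hq hn hS hσ hσ2 hσ1
  have hprod : ∀ β : K, ∏ i : Fin n, (if i.1 + 1 = n then β else 1) = β := by
    intro β
    rw [Finset.prod_eq_single (⟨n - 1, by omega⟩ : Fin n)]
    · rw [if_pos (by show n - 1 + 1 = n; omega)]
    · intro i _ hi
      rw [if_neg]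
      intro h1
      apply hi
      apply Fin.ext
      show i.1 = n - 1
      omega
    · intro h1
      exact absurd (Finset.mem_univ _) h1
  rcases hα.cases hP with ⟨x, hx, hx2⟩ | ⟨x, hx, hx2⟩
  · obtain ⟨u, hu⟩ := (hEH K q h n (by omega) a ha).1 ⟨x, hx, hx2⟩
    refine ⟨0, u, ?_, hc⟩
    simp only [pow_zero, ite_self, mul_one]
    rw [map_of hσ, hu]
  · obtain ⟨u, hu⟩ := (hEH K q h n (by omega) (fun i => a i * (if i.1 + 1 = n then (-1) ^ 1 else 1)) (by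
      intro i
      split_ifs
      · rw [pow_one, star_mul', star_neg, star_one]
        linear_combination ha i
      · rw [mul_one]; exact ha i)).1 ⟨x, hx, by
      rw [Finset.prod_mul_distrib, hprod, hx2]; ring⟩
    exact ⟨1, u, by rw [map_of hσ, hu], hc⟩

end

end Vale.Agent.P240.R2.H986.E
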