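import Vale.Agent.P240.R2.H986.E7Fin
import Vale.Agent.P240.R2.H487.TF

/-!
P240, unitary groups in even dimension `n ≥ 6`, `q ≥ 7` odd, for the prime `2` in the form `TopFac`;
the count for the trivial discriminant is a hypothesis.
-/

set_option autoImplicit false

namespace Vale.Agent.P240.R2.H986

open Vale.Agent.P240.R2.H487 (LocTopF TopFac)

universe u v

/-- `L` is isomorphic to `PSU_n(q)`, where `q ≥ 7` is odd, `n` is even and `n ≥ 6`, or `n = 4` and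
`8 ∣ q + 1` -/
def PSUFacE7 (L : Type u) [Group L] : Prop :=
  ∃ (n q : ℕ) (K : Type) (_ : Field K) (_ : Fintype K) (_ : StarRing K), Even n ∧
    (6 ≤ n ∨ (n = 4 ∧ 8 ∣ q + 1)) ∧ Odd q ∧ 7 ≤ q ∧ Nat.card K = q ^ 2 ∧
    (∀ x : K, star x = x ^ q) ∧ Nonempty (L ≃* AS.PSU K n)

/-- with `E9` -/
theorem PSUFacE7.topFac_of (h7 : E.StmtE7.{0}) (h9 : E.StmtE9.{0}) (𝕜 : Type v) [Field 𝕜] {L : Type u}
    [Group L] (h : PSUFacE7 L) : TopFac 𝕜 2 L := by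
  obtain ⟨n, q, K, _, _, _, hn, hn4, hqo, hq, hK, hs, ⟨e⟩⟩ := h
  intro G _ _ M ⟨f⟩
  have hc : E.EvCnt K := by
    have hF : E.Fld K q := ⟨hqo, hK, hs⟩
    obtain ⟨k, hk⟩ := hqo
    have hq4 : q % 4 = 1 ∨ q % 4 = 3 := by omega
    rcases hq4 with h4 | h4
    · exact h9 K q hF h4 (by omega)
    · exact h7 K q hF h4 hq
  exact E.locTopF_PSU_even7 hc 𝕜 hn hn4 hqo hq hK hs (f.symm.trans e)

/-- without `q = 9` -/
theorem PSUFacE7.topFac_of' (h7 : E.StmtE7.{0}) (𝕜 : Type v) [Field 𝕜] {L : Type u}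
    [Group L] {n q : ℕ} {K : Type} [Field K] [Fintype K] [StarRing K] (hn : Even n)
    (hn4 : 6 ≤ n ∨ (n = 4 ∧ 8 ∣ q + 1)) (hqo : Odd q) (hq : q = 7 ∨ 11 ≤ q) (hK : Nat.card K = q ^ 2)
    (hs : ∀ x : K, star x = x ^ q) (e : L ≃* AS.PSU K n) : TopFac 𝕜 2 L := by
  intro G _ _ M ⟨f⟩
  have hF : E.Fld K q := ⟨hqo, hK, hs⟩
  have hc : E.EvCnt K := by
    rcases hq with hq | hq
    · exact h7 K q hF (by omega) (by omega)
    · exact E.evCnt_of_le hF hq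
  exact E.locTopF_PSU_even7 hc 𝕜 hn hn4 hqo (by omega) hK hs (f.symm.trans e)

end Vale.Agent.P240.R2.H986
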