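import Vale.Agent.P240.R2.H986.P2
import Vale.Agent.P240.R2.H613.B5

/-!
The final theorem for `p = 2`: `n` odd, `q ≥ 11` odd.
-/

set_option autoImplicit false

namespace Vale.Agent.P240.R2.H986.B7

universe u v

/-- **All groups `PSU_n(q) E`**, `E` an elementary abelian `2`-subgroup of `PΓU_n(q)`, `n ≥ 3` odd,
`q ≥ 11` odd, have the Quillen dimension property at `2`. -/
theorem final : StmtB8r.{u, v} := stmtB8r H613.stmtB5

end Vale.Agent.P240.R2.H986.B7
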