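import Vale.Agent.P240.R2.H986.EInst

/-!
The literal statements of `EInst.lean` with the count for the trivial discriminant as a hypothesis.
-/

set_option autoImplicit false
set_option linter.all false

namespace Vale.Agent.P240.R2.H986.E

open Matrix Vale.Agent.P240.R2.AS Vale.Agent.P240.R2.H38 Vale.Agent.P240.R2.H487
open scoped Classical

universe u v w

noncomputable section

/-- the count for the trivial discriminant, all even `n ≥ 4` -/
def EvCnt (K : Type u) [Field K] [Fintype K] [StarRing K] : Prop :=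
  ∀ (n : ℕ), 4 ≤ n → Even n → ∀ σ : K ≃+* K, (∀ x, σ x = star x) → (σ : RingAut K) ^ 2 = 1 →
    σ ≠ RingEquiv.refl K → SCntN (H38.SU K n) σ

/-- **E7** (the count for the trivial discriminant, `q ≥ 7`, `q = 3 mod 4`) -/
def StmtE7 : Prop := ∀ (K : Type u) [Field K] [Fintype K] [StarRing K] (q : ℕ), Fld K q →
  q % 4 = 3 → 7 ≤ q → EvCnt K

/-- **E9** (the count for the trivial discriminant, `q ≥ 9`, `q = 1 mod 4`) -/
def StmtE9 : Prop := ∀ (K : Type u) [Field K] [Fintype K] [StarRing K] (q : ℕ), Fld K q →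
  q % 4 = 1 → 9 ≤ q → EvCnt K

variable {K : Type u} [Field K] [Fintype K] [StarRing K] {n q : ℕ}

/-- `q ≥ 11` -/
theorem evCnt_of_le (h : Fld K q) (hq : 11 ≤ q) : EvCnt K :=
  fun _ hn _ _ hσ hσ2 hσ1 => scnt_even_dim h hq hn le_rfl hσ hσ2 hσ1

/-- all larger groups -/
theorem EvCnt.all (hc : EvCnt K) (h : Fld K q) (hn : 4 ≤ n) (hne : Even n) {S : Subgroup (GU K n)}
    (hS : H38.SU K n ≤ S) {σ : K ≃+* K} (hσ2 : (σ : RingAut K) ^ 2 = 1)
    (hσ1 : σ ≠ RingEquiv.refl K) : SCntN S σ := by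
  have hσ := h.aut hσ2 hσ1
  exact SCntN.of_SU hS (fun a => by rw [hσ, hσ]) (hc n hn hne σ hσ hσ2 hσ1)

/-- `q = 3 mod 4` -/
theorem lit_three7 (hEH : StmtEH.{u}) (hEC : StmtEC.{u}) (hc : EvCnt K) (h : Fld K q)
    (hq4 : q % 4 = 3) (hq : 7 ≤ q)
    (hn : 4 ≤ n) (hne : Even n) {S : Subgroup (GU K n)} (hS : H38.SU K n ≤ S) {σ : K ≃+* K}
    (hσ2 : (σ : RingAut K) ^ 2 = 1) (hσ1 : σ ≠ RingEquiv.refl K) (a : Fin n → K)
    (ha : ∀ i, a i * star (a i) = 1) :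
    ∃ u d : GU K n, diagonal a * u.1.map σ = u.1 * d.1 ∧ (∃ e : Fin n → K, d.1 = diagonal e) ∧
      SCntd S d.1 σ := by
  have hσ := h.aut hσ2 hσ1
  have hσs : ∀ a, σ (star a) = star (σ a) := fun a => by rw [hσ, hσ]
  obtain ⟨α, hα⟩ := exists_NSq h.two_ne
  have hP : (∏ i, a i) * star (∏ i, a i) = 1 := by
    rw [star_prod, ← Finset.prod_mul_distrib]
    exact Finset.prod_eq_one fun i _ => ha i
  rcases hα.cases hP with ⟨x, hx, hx2⟩ | ⟨x, hx, hx2⟩
  · obtain ⟨u, hu⟩ := (hEH K q h n (by omega) a ha).1 ⟨x, hx, hx2⟩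
    refine ⟨u, 1, ?_, ⟨1, diagonal_one.symm⟩, ?_⟩
    · rw [map_of hσ, hu]
      exact (mul_one _).symm
    · exact SCntd_one.2 (hc.all h hn hne hS hσ2 hσ1)
  · obtain ⟨u, hu⟩ := (hEH K q h n (by omega) a ha).2 α hα.1 ⟨x, hx, hx2⟩
    refine ⟨u, ⟨Da n α, Da_mem hα.1⟩, ?_, ⟨_, rfl⟩, ?_⟩
    · rw [map_of hσ, hu]
    · exact SCntd.of_SU (d := ⟨Da n α, Da_mem hα.1⟩) hS hσs (hEC K q h hq4 hq n hn hne α hα σ hσ)

/-- `q = 1 mod 4` -/
theorem lit_one7 (hEH : StmtEH.{u}) (hcn : EvCnt K) (h : Fld K q) (hq4 : q % 4 = 1)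
    (hn : 4 ≤ n) (hne : Even n) {S : Subgroup (GU K n)} (hS : H38.SU K n ≤ S) {σ : K ≃+* K}
    (hσ2 : (σ : RingAut K) ^ 2 = 1) (hσ1 : σ ≠ RingEquiv.refl K) (a : Fin n → K)
    (ha : ∀ i, a i * star (a i) = 1) :
    ∃ (k : ℕ) (u : GU K n), diagonal (fun i => a i * (if i.1 + 1 = n then (-1) ^ k else 1)) *
      u.1.map σ = u.1 ∧ SCntN S σ := by
  have hσ := h.aut hσ2 hσ1
  have hα := NSq_neg h.two_ne h.2.2 hq4
  have hP : (∏ i, a i) * star (∏ i, a i) = 1 := by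
    rw [star_prod, ← Finset.prod_mul_distrib]
    exact Finset.prod_eq_one fun i _ => ha i
  have hc := hcn.all h hn hne hS hσ2 hσ1
  have hprod : ∀ β : K, ∏ i : Fin n, (if i.1 + 1 = n then β else 1) = β := by
    intro β
    rw [Finset.prod_eq_single (⟨n - 1, by omega⟩ : Fin n)]
    · rw [if_pos (by show n - 1 + 1 = n; omega)]
    · intro i _ hi
      rw [if_neg]
      intro h1
      apply hi
      apply Fin.ext
      show i.1 = n - 1
      omega
    · intro h1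
      exact absurd (Finset.mem_univ _) h1
  rcases hα.cases hP with ⟨x, hx, hx2⟩ | ⟨x, hx, hx2⟩
  · obtain ⟨u, hu⟩ := (hEH K q h n (by omega) a ha).1 ⟨x, hx, hx2⟩
    refine ⟨0, u, ?_, hc⟩
    simp only [pow_zero, ite_self, mul_one]
    rw [map_of hσ, hu]
  · obtain ⟨u, hu⟩ := (hEH K q h n (by omega) (fun i => a i * (if i.1 + 1 = n then (-1) ^ 1 else 1)) (by
      intro i
      split_ifs
      · rw [pow_one, star_mul', star_neg, star_one]
        linear_combination ha i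
      · rw [mul_one]; exact ha i)).1 ⟨x, hx, by
      rw [Finset.prod_mul_distrib, hprod, hx2]; ring⟩
    exact ⟨1, u, by rw [map_of hσ, hu], hc⟩

end

end Vale.Agent.P240.R2.H986.E
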