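import Vale.Agent.P240.R2.H715.SpStmts
import Vale.Agent.P240.R2.H698.Graph

/-!
TY2: a cycle of rank `2` in `PGL_2(q₀) = C(σ)` inside `PSL_2(q)`, `q = q₀ ^ 2` (P240, symplectic line).
-/

set_option autoImplicit false

namespace Vale.Agent.P240.R2.H986.TY

open Matrix Subgroup Vale.Agent.P240.R2.AS Vale.Agent.P240.K
open Vale.Agent.P240.R2.H715 Vale.Agent.P240.R2.H698
open scoped Classical

universe u v w

section mats
variable {K : Type u} [Field K]

/-- elements of `SL_2` with square `-1` -/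
lemma sq_form {a : S2 K} (ha : a.1 * a.1 = -1) :
    ∃ x y z : K, a.1 = !![x, y; z, -x] ∧ x * x + y * z = -1 := by
  have hd := a.2
  rw [Matrix.det_fin_two] at hd
  have h00 := congrFun (congrFun ha 0) 0
  have h01 := congrFun (congrFun ha 0) 1
  have h10 := congrFun (congrFun ha 1) 0
  have h11 := congrFun (congrFun ha 1) 1
  simp only [Matrix.mul_apply, Fin.sum_univ_two, Matrix.neg_apply, Matrix.one_apply_eq, ne_eq,
    Fin.isValue, zero_ne_one, not_false_eq_true, Matrix.one_apply_ne, one_ne_zero, neg_zero] at h00 h01 h10 h11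
  have ht : a.1 0 0 + a.1 1 1 = 0 := by
    have h1 : (a.1 0 0 + a.1 1 1) ^ 2 = 0 := by linear_combination h00 + h11 + 2 * hd
    exact pow_eq_zero_iff (two_ne_zero) |>.1 h1
  refine ⟨a.1 0 0, a.1 0 1, a.1 1 0, ?_, h00⟩
  ext i j
  fin_cases i <;> fin_cases j <;> simp
  linear_combination ht

/-- involutions of `SL_2` are scalars -/
lemma sq_one {a : S2 K} (h2 : (2 : K) ≠ 0) (ha : a.1 * a.1 = 1) : a.1 = 1 ∨ a.1 = -1 := by
  have hd := a.2
  rw [Matrix.det_fin_two] at hd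
  have h00 := congrFun (congrFun ha 0) 0
  have h01 := congrFun (congrFun ha 0) 1
  have h10 := congrFun (congrFun ha 1) 0
  have h11 := congrFun (congrFun ha 1) 1
  simp only [Matrix.mul_apply, Fin.sum_univ_two, Matrix.one_apply_eq, ne_eq,
    Fin.isValue, zero_ne_one, not_false_eq_true, Matrix.one_apply_ne, one_ne_zero] at h00 h01 h10 h11
  have ht : (a.1 0 0 + a.1 1 1) ^ 2 = 4 := by linear_combination h00 + h11 + 2 * hd
  have ht0 : a.1 0 0 + a.1 1 1 ≠ 0 := by
    intro h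
    rw [h] at ht
    apply h2
    have : (2 : K) ^ 2 = 0 := by linear_combination -ht
    exact pow_eq_zero_iff (two_ne_zero) |>.1 this
  have e01 : a.1 0 1 = 0 := by
    have : a.1 0 1 * (a.1 0 0 + a.1 1 1) = 0 := by linear_combination h01
    exact (mul_eq_zero.1 this).resolve_right ht0
  have e10 : a.1 1 0 = 0 := by
    have : a.1 1 0 * (a.1 0 0 + a.1 1 1) = 0 := by linear_combination h10
    exact (mul_eq_zero.1 this).resolve_right ht0
  have e : a.1 0 0 = a.1 1 1 := by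
    have : (a.1 0 0 - a.1 1 1) * (a.1 0 0 + a.1 1 1) = 0 := by linear_combination h00 - h11
    exact sub_eq_zero.1 ((mul_eq_zero.1 this).resolve_right ht0)
  rw [e01, zero_mul, add_zero] at h00
  rcases mul_self_eq_one_iff.1 h00 with h | h
  · left
    ext i j
    fin_cases i <;> fin_cases j
    · simpa using h
    · simpa using e01
    · simpa using e10
    · simpa using e ▸ h
  · right
    ext i j
    fin_cases i <;> fin_cases j
    · simpa using h
    · simpa using e01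
    · simpa using e10
    · simpa using e ▸ h

/-- a partner -/
lemma exists_b0 (h2 : (2 : K) ≠ 0) {i : K} (hi : i * i = -1) (σ : K ≃+* K)
    (hσi : σ i = i ∨ σ i = -i) {a : S2 K} (ha : a.1 * a.1 = -1)
    (hσa : a.1.map σ = a.1 ∨ a.1.map σ = -a.1) :
    ∃ b : S2 K, b.1 * b.1 = -1 ∧ a.1 * b.1 = -(b.1 * a.1) ∧
      (b.1.map σ = b.1 ∨ b.1.map σ = -b.1) := by
  obtain ⟨x, y, z, h1, h3⟩ := sq_form ha
  have hi0 : i ≠ 0 := by
    rintro rfl
    rw [zero_mul] at hi
    exact one_ne_zero (neg_eq_zero.1 hi.symm)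
  have hii : i⁻¹ * i⁻¹ = -1 := by
    rw [← mul_inv, hi]
    norm_num
  have hσ2 : σ 2 = 2 := map_ofNat σ 2
  have hσi' : σ i⁻¹ = i⁻¹ ∨ σ i⁻¹ = -i⁻¹ := by
    rw [map_inv₀]
    rcases hσi with h | h <;> rw [h]
    · exact Or.inl rfl
    · right; rw [inv_neg]
  -- the entries of `a`
  have hent : (σ x = x ∧ σ y = y ∧ σ z = z) ∨ (σ x = -x ∧ σ y = -y ∧ σ z = -z) := by
    rcases hσa with h | h
    · left
      have e00 := congrFun (congrFun h 0) 0
      have e01 := congrFun (congrFun h 0) 1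
      have e10 := congrFun (congrFun h 1) 0
      rw [h1] at e00 e01 e10
      exact ⟨by simpa using e00, by simpa using e01, by simpa using e10⟩
    · right
      have e00 := congrFun (congrFun h 0) 0
      have e01 := congrFun (congrFun h 0) 1
      have e10 := congrFun (congrFun h 1) 0
      rw [h1] at e00 e01 e10
      exact ⟨by simpa using e00, by simpa using e01, by simpa using e10⟩
  by_cases hz : z ≠ 0
  · have hr : σ (x / z) = x / z := by
      rw [map_div₀]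
      rcases hent with ⟨e1, -, e3⟩ | ⟨e1, -, e3⟩ <;> rw [e1, e3]
      rw [neg_div_neg_eq]
    refine ⟨⟨i⁻¹ • !![-1, 2 * (x / z); 0, 1], ?_⟩, ?_, ?_, ?_⟩
    · rw [Matrix.det_smul, Fintype.card_fin, Matrix.det_fin_two_of]
      linear_combination (-1 : K) * hii
    · show (i⁻¹ • !![-1, 2 * (x / z); 0, 1]) * (i⁻¹ • !![-1, 2 * (x / z); 0, 1]) = (-1 : Matrix (Fin 2) (Fin 2) K)
      rw [smul_mul_smul_comm, hii]
      ext k l
      fin_cases k <;> fin_cases l <;> simp [Matrix.mul_apply, Fin.sum_univ_two]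
    · show a.1 * (i⁻¹ • !![-1, 2 * (x / z); 0, 1]) = -((i⁻¹ • !![-1, 2 * (x / z); 0, 1]) * a.1)
      rw [h1, Matrix.mul_smul, Matrix.smul_mul, ← smul_neg]
      congr 1
      ext k l
      fin_cases k <;> fin_cases l <;> simp [Matrix.mul_apply, Fin.sum_univ_two] <;> field_simp <;> ring
    · show (i⁻¹ • !![-1, 2 * (x / z); 0, 1]).map σ = i⁻¹ • !![-1, 2 * (x / z); 0, 1] ∨
        (i⁻¹ • !![-1, 2 * (x / z); 0, 1]).map σ = -(i⁻¹ • !![-1, 2 * (x / z); 0, 1])
      have h5 : (i⁻¹ • !![-1, 2 * (x / z); 0, 1]).map σ = σ i⁻¹ • !![-1, 2 * (x / z); 0, 1] := by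
        ext k l
        fin_cases k <;> fin_cases l <;> simp [-map_inv₀, -map_div₀, hr, hσ2]
      rw [h5]
      rcases hσi' with h | h <;> rw [h]
      · exact Or.inl rfl
      · right; rw [neg_smul]
  push Not at hz
  by_cases hy : y ≠ 0
  · have hr : σ (x / y) = x / y := by
      rw [map_div₀]
      rcases hent with ⟨e1, e3, -⟩ | ⟨e1, e3, -⟩ <;> rw [e1, e3]
      rw [neg_div_neg_eq]
    refine ⟨⟨i⁻¹ • !![1, 0; -(2 * (x / y)), -1], ?_⟩, ?_, ?_, ?_⟩
    · rw [Matrix.det_smul, Fintype.card_fin, Matrix.det_fin_two_of]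
      linear_combination (-1 : K) * hii
    · show (i⁻¹ • !![1, 0; -(2 * (x / y)), -1]) * (i⁻¹ • !![1, 0; -(2 * (x / y)), -1]) = (-1 : Matrix (Fin 2) (Fin 2) K)
      rw [smul_mul_smul_comm, hii]
      ext k l
      fin_cases k <;> fin_cases l <;> simp [Matrix.mul_apply, Fin.sum_univ_two]
    · show a.1 * (i⁻¹ • !![1, 0; -(2 * (x / y)), -1]) = -((i⁻¹ • !![1, 0; -(2 * (x / y)), -1]) * a.1)
      rw [h1, Matrix.mul_smul, Matrix.smul_mul, ← smul_neg]
      congr 1
      ext k l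
      fin_cases k <;> fin_cases l <;> simp [Matrix.mul_apply, Fin.sum_univ_two] <;> field_simp <;> ring
    · show (i⁻¹ • !![1, 0; -(2 * (x / y)), -1]).map σ = i⁻¹ • !![1, 0; -(2 * (x / y)), -1] ∨
        (i⁻¹ • !![1, 0; -(2 * (x / y)), -1]).map σ = -(i⁻¹ • !![1, 0; -(2 * (x / y)), -1])
      have h5 : (i⁻¹ • !![1, 0; -(2 * (x / y)), -1]).map σ = σ i⁻¹ • !![1, 0; -(2 * (x / y)), -1] := by
        ext k l
        fin_cases k <;> fin_cases l <;> simp [-map_inv₀, -map_div₀, hr, hσ2]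
      rw [h5]
      rcases hσi' with h | h <;> rw [h]
      · exact Or.inl rfl
      · right; rw [neg_smul]
  push Not at hy
  subst hz hy
  refine ⟨⟨!![0, 1; -1, 0], ?_⟩, ?_, ?_, ?_⟩
  · rw [Matrix.det_fin_two_of]
    ring
  · show !![0, 1; -1, 0] * !![0, 1; -1, 0] = (-1 : Matrix (Fin 2) (Fin 2) K)
    ext k l
    fin_cases k <;> fin_cases l <;> simp [Matrix.mul_apply, Fin.sum_univ_two]
  · show a.1 * !![0, 1; -1, 0] = -(!![0, 1; -1, 0] * a.1)
    rw [h1]
    ext k l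
    fin_cases k <;> fin_cases l <;> simp [Matrix.mul_apply, Fin.sum_univ_two]
  · left
    show (!![0, 1; -1, 0] : Matrix (Fin 2) (Fin 2) K).map σ = !![0, 1; -1, 0]
    ext k l
    fin_cases k <;> fin_cases l <;> simp

/-- the products `(u + v a) b₀` -/
def Bm (a b : Matrix (Fin 2) (Fin 2) K) (u v : K) : Matrix (Fin 2) (Fin 2) K :=
  (u • (1 : Matrix (Fin 2) (Fin 2) K) + v • a) * b

lemma det_Bm {a b : S2 K} (ha : a.1 * a.1 = -1) {u v : K} (h : u * u + v * v = 1) :
    (Bm a.1 b.1 u v).det = 1 := by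
  obtain ⟨x, y, z, h1, h3⟩ := sq_form ha
  unfold Bm
  rw [det_mul, b.2, mul_one, h1, Matrix.det_fin_two]
  simp
  linear_combination h - v ^ 2 * h3

lemma Bm_anti {a b : Matrix (Fin 2) (Fin 2) K} (hab : a * b = -(b * a)) (u v : K) :
    a * Bm a b u v = -(Bm a b u v * a) := by
  unfold Bm
  have h1 : a * (u • (1 : Matrix (Fin 2) (Fin 2) K) + v • a) =
      (u • (1 : Matrix (Fin 2) (Fin 2) K) + v • a) * a := by
    rw [Matrix.mul_add, Matrix.add_mul]
    simp
  rw [← Matrix.mul_assoc, h1, Matrix.mul_assoc, hab, Matrix.mul_neg, Matrix.mul_assoc]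

lemma Bm_sq {a b : Matrix (Fin 2) (Fin 2) K} (ha : a * a = -1) (hb : b * b = -1)
    (hab : a * b = -(b * a)) {u v : K} (h : u * u + v * v = 1) :
    Bm a b u v * Bm a b u v = -1 := by
  unfold Bm
  have h1 : b * (u • (1 : Matrix (Fin 2) (Fin 2) K) + v • a) =
      (u • (1 : Matrix (Fin 2) (Fin 2) K) - v • a) * b := by
    rw [Matrix.mul_add, Matrix.sub_mul, Matrix.mul_smul, Matrix.mul_smul, Matrix.smul_mul,
      Matrix.smul_mul, hab, Matrix.mul_one, Matrix.one_mul, smul_neg]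
    abel
  have h2 : (u • (1 : Matrix (Fin 2) (Fin 2) K) + v • a) * (u • (1 : Matrix (Fin 2) (Fin 2) K) - v • a)
      = 1 := by
    have h3 : (u • (1 : Matrix (Fin 2) (Fin 2) K) + v • a) * (u • (1 : Matrix (Fin 2) (Fin 2) K) - v • a)
        = (u * u) • (1 : Matrix (Fin 2) (Fin 2) K) - (v * v) • (a * a) := by
      rw [Matrix.add_mul, Matrix.mul_sub, Matrix.mul_sub]
      simp only [Matrix.smul_mul, Matrix.mul_smul, Matrix.one_mul, Matrix.mul_one, smul_smul]
      module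
    rw [h3, ha, smul_neg, sub_neg_eq_add, ← add_smul, h, one_smul]
  rw [Matrix.mul_assoc, ← Matrix.mul_assoc b, h1, Matrix.mul_assoc _ b b, hb, ← Matrix.mul_assoc, h2,
    Matrix.one_mul]

lemma Bm_inj (h2 : (2 : K) ≠ 0) {a b : S2 K} (ha : a.1 * a.1 = -1) (hb : b.1 * b.1 = -1) {u v u' v' : K}
    (h : Bm a.1 b.1 u v = Bm a.1 b.1 u' v') : u = u' ∧ v = v' := by
  have h0 : u • (1 : Matrix (Fin 2) (Fin 2) K) + v • a.1 = u' • (1 : Matrix (Fin 2) (Fin 2) K) + v' • a.1 := by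
    have h1 := congrArg (fun M => M * b.1) h
    unfold Bm at h1
    simp only [Matrix.mul_assoc, hb] at h1
    rw [Matrix.mul_neg, Matrix.mul_neg, neg_inj, Matrix.mul_one, Matrix.mul_one] at h1
    exact h1
  obtain ⟨x, y, z, h1, h3⟩ := sq_form ha
  rw [h1] at h0
  have e00 := congrFun (congrFun h0 0) 0
  have e01 := congrFun (congrFun h0 0) 1
  have e10 := congrFun (congrFun h0 1) 0
  have e11 := congrFun (congrFun h0 1) 1
  simp at e00 e01 e10 e11
  have hv : v = v' := by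
    by_contra hne
    have hy : y = 0 := by
      rcases e01 with h | h
      · exact absurd h hne
      · exact h
    have hz : z = 0 := by
      rcases e10 with h | h
      · exact absurd h hne
      · exact h
    rw [hz, mul_zero, add_zero] at h3
    have hx : x ≠ 0 := by
      rintro rfl
      rw [zero_mul] at h3
      exact one_ne_zero (neg_eq_zero.1 h3.symm)
    apply hne
    have h4 : (2 * x) * (v - v') = 0 := by linear_combination e00 - e11
    exact sub_eq_zero.1 ((mul_eq_zero.1 h4).resolve_left (mul_ne_zero h2 hx))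
  refine ⟨?_, hv⟩
  rw [hv] at e00
  exact add_right_cancel e00

lemma Bm_neg (a b : Matrix (Fin 2) (Fin 2) K) (u v : K) : Bm a b (-u) (-v) = -Bm a b u v := by
  unfold Bm
  rw [neg_smul, neg_smul, ← neg_add, Matrix.neg_mul]

lemma Bm_smul (a b : Matrix (Fin 2) (Fin 2) K) (e u v : K) :
    Bm a b (e * u) (e * v) = e • Bm a b u v := by
  unfold Bm
  rw [← Matrix.smul_mul, smul_add, smul_smul, smul_smul]

lemma Bm_map {a b : Matrix (Fin 2) (Fin 2) K} (σ : K ≃+* K) {e : K} (he : a.map σ = e • a)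
    {e' : K} (he' : b.map σ = e' • b) (u v : K) :
    (Bm a b u v).map σ = e' • Bm a b (σ u) (σ v * e) := by
  unfold Bm
  have h1 : (u • (1 : Matrix (Fin 2) (Fin 2) K) + v • a).map σ = σ u • 1 + (σ v * e) • a := by
    have : (u • (1 : Matrix (Fin 2) (Fin 2) K) + v • a).map σ = σ u • 1 + σ v • a.map σ := by
      ext k l
      simp [Matrix.one_apply, apply_ite σ]
    rw [this, he, smul_smul]
  rw [Matrix.map_mul, h1, he', Matrix.mul_smul]

end mats

section count
variable {K : Type u} [Field K] [Fintype K] {G : Type v} [Group G]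

lemma exists_i {q₀ : ℕ} (h2 : (2 : K) ≠ 0) (hK : Nat.card K = q₀ ^ 2) (hodd : Odd q₀) :
    ∃ i : K, i * i = -1 := by
  have h1 : IsSquare (-1 : K) := by
    rw [FiniteField.isSquare_neg_one_iff, ← Nat.card_eq_fintype_card, hK]
    obtain ⟨k, rfl⟩ := hodd
    have : (2 * k + 1) ^ 2 = 4 * (k * k + k) + 1 := by ring
    omega
  obtain ⟨i, hi⟩ := h1
  exact ⟨i, hi.symm⟩

lemma odd_q {q₀ : ℕ} (h2 : (2 : K) ≠ 0) (hK : Nat.card K = q₀ ^ 2) : Odd q₀ := by
  have h1 := FiniteField.odd_card_of_char_ne_two (F := K) (by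
    intro h
    apply h2
    have := ringChar.Nat.cast_ringChar (R := K)
    rw [h] at this
    exact_mod_cast this)
  rw [← Nat.card_eq_fintype_card, hK] at h1
  by_contra hcon
  rw [Nat.not_odd_iff_even] at hcon
  obtain ⟨k, rfl⟩ := hcon
  have : (k + k) ^ 2 = 2 * (2 * k * k) := by ring
  omega

lemma exists_order {q₀ d : ℕ} (hK : Nat.card K = q₀ ^ 2) (hd : d ∣ q₀ ^ 2 - 1) (hd0 : 0 < q₀ ^ 2 - 1) :
    ∃ h : Kˣ, orderOf h = d := by
  obtain ⟨g, hg⟩ := IsCyclic.exists_generator (α := Kˣ)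
  have ho : orderOf g = q₀ ^ 2 - 1 := by
    rw [orderOf_eq_card_of_forall_mem_zpowers hg, Nat.card_units, hK]
  refine ⟨g ^ (orderOf g / d), ?_⟩
  apply orderOf_pow_orderOf_div
  · rw [ho]; omega
  · rw [ho]; exact hd

/-- the elements `s`: `σ(s) = ± s`, or `σ(s) = ± s⁻¹` -/
lemma exists_s {q₀ : ℕ} (hq : 5 ≤ q₀) (h2 : (2 : K) ≠ 0) (hK : Nat.card K = q₀ ^ 2)
    {σ : K ≃+* K} (hσ : ∀ y, σ y = y ^ q₀) (c : Prop) :
    ∃ s : Fin 4 → K, (∀ k, s k ≠ 0) ∧ (∀ k l, s k * s k = s l * s l → k = l) ∧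
      (c → ∀ k, σ (s k) = s k ∨ σ (s k) = -s k) ∧
      (¬ c → ∀ k, σ (s k) = (s k)⁻¹ ∨ σ (s k) = -(s k)⁻¹) := by
  have hodd := odd_q h2 hK
  obtain ⟨r, hr⟩ := hodd
  have hf : q₀ ^ 2 - 1 = (q₀ - 1) * (q₀ + 1) := by
    rw [hr]
    have : (2 * r + 1) ^ 2 = (2 * r + 1 - 1) * (2 * r + 1 + 1) + 1 := by
      rw [Nat.add_sub_cancel]; ring
    omega
  have key : ∀ m : ℕ, 4 ≤ m → 2 * m ∣ q₀ ^ 2 - 1 → ∃ h : Kˣ, orderOf h = 2 * m ∧
      ∀ k l : Fin 4, (h ^ (k : ℕ)) * (h ^ (k : ℕ)) = (h ^ (l : ℕ)) * (h ^ (l : ℕ)) → k = l := by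
    intro m hm hd
    have h0 : 0 < q₀ ^ 2 - 1 := by
      rw [hf]
      exact Nat.mul_pos (by omega) (by omega)
    obtain ⟨h, hh⟩ := exists_order hK hd h0
    refine ⟨h, hh, fun k l hkl => ?_⟩
    rw [← pow_add, ← pow_add] at hkl
    have h3 := pow_injOn_Iio_orderOf (x := h) (x₁ := (k : ℕ) + k) (x₂ := (l : ℕ) + l)
      (by rw [Set.mem_Iio, hh]; have := k.2; omega) (by rw [Set.mem_Iio, hh]; have := l.2; omega) hkl
    apply Fin.ext
    omega
  by_cases hc : c
  · obtain ⟨h, hh, hinj⟩ := key (q₀ - 1) (by omega) (by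
      rw [hf]
      have : q₀ + 1 = 2 * (r + 1) := by omega
      rw [this]
      exact ⟨r + 1, by ring⟩)
    refine ⟨fun k => ((h ^ (k : ℕ) : Kˣ) : K), fun k => (h ^ (k : ℕ)).ne_zero, fun k l hkl => ?_,
      fun _ k => ?_, fun hn => absurd hc hn⟩
    · apply hinj
      apply Units.ext
      simpa using hkl
    · have h3 : (h ^ (k : ℕ)) ^ (2 * (q₀ - 1)) = 1 := by
        rw [← pow_mul, mul_comm, pow_mul, ← hh, pow_orderOf_eq_one, one_pow]
      have h4 : ((h ^ (k : ℕ)) ^ (q₀ - 1)) * ((h ^ (k : ℕ)) ^ (q₀ - 1)) = 1 := by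
        rw [← pow_add, ← two_mul, h3]
      have h5 : (((h ^ (k : ℕ) : Kˣ) : K) ^ (q₀ - 1)) * (((h ^ (k : ℕ) : Kˣ) : K) ^ (q₀ - 1)) = 1 := by
        have := congrArg (fun y : Kˣ => (y : K)) h4
        simpa using this
      have h6 : σ ((h ^ (k : ℕ) : Kˣ) : K) = ((h ^ (k : ℕ) : Kˣ) : K) ^ (q₀ - 1) * ((h ^ (k : ℕ) : Kˣ) : K) := by
        rw [hσ, ← pow_succ]
        congr 1
        omega
      rw [h6]
      rcases mul_self_eq_one_iff.1 h5 with h7 | h7 <;> rw [h7]
      · left; rw [one_mul]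
      · right; rw [neg_one_mul]
  · obtain ⟨h, hh, hinj⟩ := key (q₀ + 1) (by omega) (by
      rw [hf]
      have : q₀ - 1 = 2 * r := by omega
      rw [this]
      exact ⟨r, by ring⟩)
    refine ⟨fun k => ((h ^ (k : ℕ) : Kˣ) : K), fun k => (h ^ (k : ℕ)).ne_zero, fun k l hkl => ?_,
      fun hn => absurd hn hc, fun _ k => ?_⟩
    · apply hinj
      apply Units.ext
      simpa using hkl
    · have h3 : (h ^ (k : ℕ)) ^ (2 * (q₀ + 1)) = 1 := by
        rw [← pow_mul, mul_comm, pow_mul, ← hh, pow_orderOf_eq_one, one_pow]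
      have h4 : ((h ^ (k : ℕ)) ^ (q₀ + 1)) * ((h ^ (k : ℕ)) ^ (q₀ + 1)) = 1 := by
        rw [← pow_add, ← two_mul, h3]
      have h5 : (((h ^ (k : ℕ) : Kˣ) : K) ^ (q₀ + 1)) * (((h ^ (k : ℕ) : Kˣ) : K) ^ (q₀ + 1)) = 1 := by
        have := congrArg (fun y : Kˣ => (y : K)) h4
        simpa using this
      have h0 : ((h ^ (k : ℕ) : Kˣ) : K) ≠ 0 := (h ^ (k : ℕ)).ne_zero
      have h6 : σ ((h ^ (k : ℕ) : Kˣ) : K) = ((h ^ (k : ℕ) : Kˣ) : K) ^ (q₀ + 1) * ((h ^ (k : ℕ) : Kˣ) : K)⁻¹ := by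
        rw [hσ, pow_succ, mul_assoc, mul_inv_cancel₀ h0, mul_one]
      rw [h6]
      rcases mul_self_eq_one_iff.1 h5 with h7 | h7 <;> rw [h7]
      · left; rw [one_mul]
      · right; rw [neg_one_mul]

variable {j : S2 K →* G} (hj : ∀ h, j h = 1 ↔ h.1 = 1 ∨ h.1 = -1)

include hj in
lemma j_neg {b b' : S2 K} (h : b'.1 = b.1 ∨ b'.1 = -b.1) : j b' = j b := by
  have h1 : j (b⁻¹ * b') = 1 := by
    rw [hj]
    have h3 : (b⁻¹ * b').1 = (b⁻¹).1 * b'.1 := rfl
    have h4 : (b⁻¹).1 * b.1 = 1 := by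
      have : (b⁻¹ * b).1 = (1 : S2 K).1 := by rw [inv_mul_cancel]
      exact this
    rcases h with h | h
    · left; rw [h3, h, h4]
    · right; rw [h3, h, Matrix.mul_neg, h4]
  rw [map_mul, map_inv, inv_mul_eq_one] at h1
  exact h1.symm

include hj in
lemma j_inj {b b' : S2 K} (h : j b' = j b) : b'.1 = b.1 ∨ b'.1 = -b.1 := by
  have h1 : j (b⁻¹ * b') = 1 := by rw [map_mul, map_inv, h, inv_mul_cancel]
  have h3 : b.1 * (b⁻¹ * b').1 = b'.1 := by
    have : (b * (b⁻¹ * b')).1 = b'.1 := by rw [mul_inv_cancel_left]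
    exact this
  rcases (hj _).1 h1 with h4 | h4
  · left; rw [← h3, h4, Matrix.mul_one]
  · right; rw [← h3, h4, Matrix.mul_neg, Matrix.mul_one]

include hj in
lemma inv_sq (h2 : (2 : K) ≠ 0) {a : S2 K} (h1 : j a ≠ 1) (hs : j a * j a = 1) : a.1 * a.1 = -1 := by
  rw [← map_mul] at hs
  have hs' : (a * a).1 = a.1 * a.1 := rfl
  rcases (hj _).1 hs with h | h
  · exact absurd ((hj a).2 (sq_one h2 (hs' ▸ h))) h1
  · exact hs' ▸ h

lemma ne_pm (h2 : (2 : K) ≠ 0) {a : S2 K} (ha : a.1 * a.1 = -1) : ¬ (a.1 = 1 ∨ a.1 = -1) := by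
  intro h
  have h1 : (1 : Matrix (Fin 2) (Fin 2) K) = -1 := by
    rcases h with h | h
    · rw [h, Matrix.one_mul] at ha; exact ha
    · rw [h, Matrix.neg_mul, Matrix.mul_neg, Matrix.one_mul, neg_neg] at ha; exact ha
  have h3 := congrFun (congrFun h1 0) 0
  simp at h3
  apply h2
  linear_combination h3

include hj in
lemma anti_of (h2 : (2 : K) ≠ 0) {a b : S2 K} (ha : a.1 * a.1 = -1) (hb : b.1 * b.1 = -1)
    (hne : j a ≠ j b) (hc : j a * j b = j b * j a) : a.1 * b.1 = -(b.1 * a.1) := by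
  rw [← map_mul, ← map_mul] at hc
  have e1 : (a * b).1 = a.1 * b.1 := rfl
  have e2 : (b * a).1 = b.1 * a.1 := rfl
  rcases j_inj hj hc with h | h
  · rw [e1, e2] at h
    exfalso
    have h3 : (a * b).1 * (a * b).1 = 1 := by
      rw [e1]
      calc a.1 * b.1 * (a.1 * b.1) = a.1 * (b.1 * a.1) * b.1 := by simp only [Matrix.mul_assoc]
        _ = a.1 * (a.1 * b.1) * b.1 := by rw [h]
        _ = (a.1 * a.1) * (b.1 * b.1) := by simp only [Matrix.mul_assoc]
        _ = 1 := by rw [ha, hb]; simp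
    have h4 := sq_one h2 h3
    apply hne
    apply j_neg hj
    have h5 : a.1 * (b.1 * b.1) = (a * b).1 * b.1 := by rw [e1, Matrix.mul_assoc]
    rw [hb, Matrix.mul_neg, Matrix.mul_one] at h5
    rcases h4 with h4 | h4 <;> rw [h4] at h5
    · right; rw [← neg_neg a.1, h5, Matrix.one_mul]
    · left; rw [← neg_neg a.1, h5]; simp
  · rw [e1, e2] at h
    exact h

include hj in
/-- every involution of `PGL_2(q₀)` commutes with at least four others -/
lemma four_le [Finite G] {q₀ : ℕ} (hq : 5 ≤ q₀) (h2 : (2 : K) ≠ 0) (hK : Nat.card K = q₀ ^ 2)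
    {σ : K ≃+* K} (hσ : ∀ y, σ y = y ^ q₀) {x : G}
    (hx : ∀ h h' : S2 K, h'.1 = h.1.map σ → x * j h * x⁻¹ = j h') {y : G}
    (hy : y ∈ iv (j.range ⊓ centralizer {x})) :
    4 ≤ ((cp (j.range ⊓ centralizer {x})).filter (fun z => z.1 = y)).card := by
  obtain ⟨hyH, hy1, hys⟩ := mem_iv.1 hy
  obtain ⟨⟨a, rfl⟩, hyc⟩ := mem_inf.1 hyH
  have ha := inv_sq hj h2 hy1 hys
  obtain ⟨i, hi⟩ := exists_i h2 hK (odd_q h2 hK)
  have hi0 : i ≠ 0 := by
    rintro rfl
    rw [zero_mul] at hi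
    exact one_ne_zero (neg_eq_zero.1 hi.symm)
  have hσi : σ i = i ∨ σ i = -i := by
    have h3 : σ i * σ i = i * i := by rw [← map_mul, hi, map_neg, map_one]
    exact mul_self_eq_mul_self_iff.1 h3
  -- the action of `x` on `SL_2`
  let mp : S2 K → S2 K := fun h => Matrix.SpecialLinearGroup.map σ.toRingHom h
  have hmp : ∀ h, (mp h).1 = h.1.map σ := fun h => rfl
  have hcx : ∀ b : S2 K, j b ∈ centralizer ({x} : Set G) ↔ (b.1.map σ = b.1 ∨ b.1.map σ = -b.1) := by
    intro b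
    rw [mem_centralizer_singleton_iff]
    constructor
    · intro h
      have h3 := hx b (mp b) (hmp b)
      rw [← h, mul_inv_cancel_right] at h3
      rw [← hmp]
      exact j_inj hj h3.symm
    · intro h
      have h3 := hx b (mp b) (hmp b)
      rw [j_neg hj (b := b) (b' := mp b) (by rw [hmp]; exact h)] at h3
      rw [mul_inv_eq_iff_eq_mul] at h3
      exact h3.symm
  have hσa := (hcx a).1 hyc
  obtain ⟨b, hb, hab, hσb⟩ := exists_b0 h2 hi σ hσi ha hσa
  obtain ⟨e1, he1, he1'⟩ : ∃ e : K, (e = 1 ∨ e = -1) ∧ σ i = e * i := by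
    rcases hσi with h | h
    · exact ⟨1, Or.inl rfl, by rw [h, one_mul]⟩
    · exact ⟨-1, Or.inr rfl, by rw [h, neg_one_mul]⟩
  obtain ⟨e2, he2, he2'⟩ : ∃ e : K, (e = 1 ∨ e = -1) ∧ a.1.map σ = e • a.1 := by
    rcases hσa with h | h
    · exact ⟨1, Or.inl rfl, by rw [h, one_smul]⟩
    · exact ⟨-1, Or.inr rfl, by rw [h, neg_one_smul]⟩
  obtain ⟨e3, he3, he3'⟩ : ∃ e : K, (e = 1 ∨ e = -1) ∧ b.1.map σ = e • b.1 := by
    rcases hσb with h | h
    · exact ⟨1, Or.inl rfl, by rw [h, one_smul]⟩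
    · exact ⟨-1, Or.inr rfl, by rw [h, neg_one_smul]⟩
  obtain ⟨s, hs0, hsinj, hsA, hsB⟩ := exists_s hq h2 hK hσ (e1 = e2)
  let U : Fin 4 → K := fun k => (s k + (s k)⁻¹) / 2
  let V : Fin 4 → K := fun k => (s k - (s k)⁻¹) / (2 * i)
  have hUV : ∀ k, U k * U k + V k * V k = 1 := by
    intro k
    have := hs0 k
    simp only [U, V]
    field_simp
    have hi2 : i ^ 2 = -1 := by rw [pow_two, hi]
    rw [hi2]
    ring
  have hsUV : ∀ k, U k + i * V k = s k := by
    intro k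
    have := hs0 k
    simp only [U, V]
    field_simp
    ring
  -- behaviour under `σ`
  have hσUV : ∀ k, ∃ e : K, (e = 1 ∨ e = -1) ∧ σ (U k) = e * U k ∧ σ (V k) * e2 = e * V k := by
    intro k
    have hsk := hs0 k
    have hσU : σ (U k) = (σ (s k) + (σ (s k))⁻¹) / 2 := by
      simp only [U]
      rw [map_div₀, map_add, map_inv₀, map_ofNat]
    have hσV : σ (V k) = (σ (s k) - (σ (s k))⁻¹) / (2 * (e1 * i)) := by
      simp only [V]
      rw [map_div₀, map_sub, map_inv₀, map_mul, map_ofNat, he1']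
    have he10 : e1 ≠ 0 := by rcases he1 with h | h <;> rw [h] <;> norm_num
    by_cases hc : e1 = e2
    · rcases hsA hc k with h | h
      · refine ⟨1, Or.inl rfl, ?_, ?_⟩
        · rw [hσU, h, one_mul]
        · rw [hσV, h, ← hc, one_mul]
          simp only [V]
          field_simp
      · refine ⟨-1, Or.inr rfl, ?_, ?_⟩
        · rw [hσU, h]
          simp only [U]
          rw [inv_neg]
          ring
        · rw [hσV, h, ← hc]
          simp only [V]
          rw [inv_neg]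
          field_simp
          ring
    · have he12 : e2 = -e1 := by
        rcases he1 with h | h <;> rcases he2 with h' | h' <;> rw [h, h'] at hc ⊢
        · exact absurd rfl hc
        · rw [neg_neg]
        · exact absurd rfl hc
      rcases hsB hc k with h | h
      · refine ⟨1, Or.inl rfl, ?_, ?_⟩
        · rw [hσU, h, one_mul, inv_inv]
          simp only [U]
          rw [add_comm]
        · rw [hσV, h, he12, one_mul, inv_inv]
          simp only [V]
          field_simp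
          ring
      · refine ⟨-1, Or.inr rfl, ?_, ?_⟩
        · rw [hσU, h, inv_neg, inv_inv]
          simp only [U]
          ring
        · rw [hσV, h, he12, inv_neg, inv_inv]
          simp only [V]
          field_simp
          ring
  let B : Fin 4 → S2 K := fun k => ⟨Bm a.1 b.1 (U k) (V k), det_Bm ha (hUV k)⟩
  have hB : ∀ k, (B k).1 = Bm a.1 b.1 (U k) (V k) := fun k => rfl
  have hBσ : ∀ k, (B k).1.map σ = (B k).1 ∨ (B k).1.map σ = -(B k).1 := by
    intro k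
    obtain ⟨e, he, h3, h4⟩ := hσUV k
    have h5 : (B k).1.map σ = (e3 * e) • (B k).1 := by
      rw [hB, Bm_map σ he2' he3', h3, h4, Bm_smul, smul_smul]
    rw [h5]
    rcases he3 with h | h <;> rcases he with h' | h' <;> rw [h, h'] <;> simp
  have hBs : ∀ k, (B k).1 * (B k).1 = -1 := fun k => Bm_sq ha hb hab (hUV k)
  have hBa : ∀ k, a.1 * (B k).1 = -((B k).1 * a.1) := fun k => Bm_anti hab _ _
  have hneg1 : j (-1 : S2 K) = 1 := (hj _).2 (Or.inr rfl)
  have hBiv : ∀ k, (j a, j (B k)) ∈ cp (j.range ⊓ centralizer {x}) := by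
    intro k
    refine mem_cp.2 ⟨hy, mem_iv.2 ⟨mem_inf.2 ⟨⟨_, rfl⟩, (hcx _).2 (hBσ k)⟩, ?_, ?_⟩, ?_, ?_⟩
    · intro h
      exact ne_pm h2 (hBs k) ((hj _).1 h)
    · rw [← map_mul]
      exact (hj _).2 (Or.inr (hBs k))
    · intro h
      have h3 : a.1 * (B k).1 = (B k).1 * a.1 := by
        rcases j_inj hj h with h4 | h4
        · rw [h4]
        · rw [h4, Matrix.neg_mul, Matrix.mul_neg]
      have h4 := hBa k
      rw [h3] at h4
      have h5 : (2 : K) • ((B k).1 * a.1) = 0 := by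
        rw [two_smul]
        nth_rewrite 1 [h4]
        rw [neg_add_cancel]
      have h6 : (B k).1 * a.1 = 0 := (smul_eq_zero.1 h5).resolve_left h2
      have h7 := congrArg Matrix.det h6
      rw [Matrix.det_mul, (B k).2, a.2] at h7
      simp at h7
    · show j a * j (B k) = j (B k) * j a
      rw [← map_mul, ← map_mul]
      exact j_neg hj (Or.inr (hBa k))
  have hinj : Function.Injective (fun k => (j a, j (B k))) := by
    intro k l hkl
    have h3 : j (B k) = j (B l) := (Prod.mk.inj hkl).2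
    apply hsinj
    rcases j_inj hj h3 with h4 | h4
    · rw [hB, hB] at h4
      obtain ⟨h5, h6⟩ := Bm_inj h2 ha hb h4
      rw [← hsUV, ← hsUV, h5, h6]
    · rw [hB, hB, ← Bm_neg] at h4
      obtain ⟨h5, h6⟩ := Bm_inj h2 ha hb h4
      rw [← hsUV, ← hsUV, h5, h6]
      ring
  calc 4 = (Finset.univ.image (fun k : Fin 4 => (j a, j (B k)))).card := by
        rw [Finset.card_image_of_injective _ hinj]
        simp
    _ ≤ _ := Finset.card_le_card (by
        intro z hz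
        obtain ⟨k, -, rfl⟩ := Finset.mem_image.1 hz
        exact Finset.mem_filter.2 ⟨hBiv k, rfl⟩)

end count

/-- **TY2** -/
theorem stmtTY2 : StmtTY2.{u, v, w} := by
  intro K _ _ h2 q₀ hq hK σ hσ G _ _ j hj x hx 𝕜 _
  set H : Subgroup G := j.range ⊓ centralizer {x} with hH
  have hcard : 4 * (iv H).card ≤ (cp H).card := by
    rw [Finset.card_eq_sum_card_fiberwise (f := Prod.fst) (s := cp H) (t := iv H)
      (fun z hz => (mem_cp.1 hz).1)]
    calc 4 * (iv H).card = ∑ _y ∈ iv H, 4 := by rw [Finset.sum_const, smul_eq_mul, mul_comm]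
      _ ≤ _ := Finset.sum_le_sum fun y hy => four_le hj hq h2 hK hσ hx hy
  -- an involution
  have hne : 0 < (iv H).card := by
    rw [Finset.card_pos]
    let a : S2 K := ⟨!![0, 1; -1, 0], by rw [Matrix.det_fin_two_of]; ring⟩
    have ha : a.1 * a.1 = -1 := by
      show !![0, 1; -1, 0] * !![0, 1; -1, 0] = (-1 : Matrix (Fin 2) (Fin 2) K)
      ext k l
      fin_cases k <;> fin_cases l <;> simp [Matrix.mul_apply, Fin.sum_univ_two]
    have hσa : a.1 = a.1.map σ := by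
      show (!![0, 1; -1, 0] : Matrix (Fin 2) (Fin 2) K) = (!![0, 1; -1, 0] : Matrix (Fin 2) (Fin 2) K).map σ
      ext k l
      fin_cases k <;> fin_cases l <;> simp
    refine ⟨j a, mem_iv.2 ⟨mem_inf.2 ⟨⟨a, rfl⟩, ?_⟩, ?_, ?_⟩⟩
    · rw [mem_centralizer_singleton_iff]
      have := hx a a hσa
      rw [mul_inv_eq_iff_eq_mul] at this
      exact this.symm
    · intro h
      exact ne_pm h2 ha ((hj _).1 h)
    · rw [← map_mul]
      exact (hj _).2 (Or.inr ha)
  obtain ⟨z, hz, α, φ, hT⟩ := graph_top 𝕜 H (by omega)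
  obtain ⟨h1, h3, h4, h5⟩ := mem_cp.1 hz
  obtain ⟨m1, n1, s1⟩ := mem_iv.1 h1
  obtain ⟨m2, n2, s2⟩ := mem_iv.1 h3
  obtain ⟨⟨a, ha⟩, -⟩ := mem_inf.1 m1
  obtain ⟨⟨b, hb⟩, -⟩ := mem_inf.1 m2
  rw [← ha] at n1 s1
  rw [← hb] at n2 s2
  have ha' := inv_sq hj h2 n1 s1
  have hb' := inv_sq hj h2 n2 s2
  refine ⟨a, b, ⟨ha', hb', anti_of hj h2 ha' hb' ?_ ?_⟩, α, φ, ?_⟩
  · rw [ha, hb]; exact h4
  · rw [ha, hb]; exact h5
  · have : QG j a b = V4 z := by
      unfold QG V4
      rw [ha, hb]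
    rw [this]
    exact hT

end Vale.Agent.P240.R2.H986.TY
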