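import Vale.Agent.P240.R2.H164.B7
import Vale.Agent.P240.R2.H164.B8
import Vale.Agent.P240.R2.H945.SemiG
import Vale.Agent.P240.R2.H387.M2a

/-!
`StmtB7` and `StmtB8` without the exception `n = 3`, `q = 11`: reversed words count once.
-/

set_option autoImplicit false

namespace Vale.Agent.P240.R2.H986.B7

open Matrix Vale.Agent.P240 Vale.Agent.P240.K Vale.Agent.P240.R2.AS Vale.Agent.P240.R2.H687
open Vale.Agent.P240.R2.H986.St Vale.Agent.P240.R2.H164 Vale.Agent.P240.R2.H945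
open Vale.Agent.P240.R2.H275 (QuillenDim)
open scoped Classical

universe u v w

noncomputable section

/-- B7 without exception -/
def StmtB7r : Prop :=
  ∀ (K : Type u) [Field K] [Fintype K] [StarRing K] (q : ℕ), Odd q → 11 ≤ q →
    Nat.card K = q ^ 2 → (∀ x : K, star x = x ^ q) → ∀ n : ℕ, Odd n → 3 ≤ n →
    ∀ σ : SA K, (∀ y : K, σ.1 y = star y) →
    ∀ H : Subgroup (PGamU K n), PSU' K n ≤ H → SemidirectProduct.inr σ ∈ H →
    ∃ c : List (Ap 2 H) →₀ ℚ, IsChain n c ∧ bd c = 0 ∧ c ≠ 0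

/-- B8 without exception -/
def StmtB8r : Prop :=
  ∀ (K : Type u) [Field K] [Fintype K] [StarRing K] (q : ℕ), Odd q → 11 ≤ q →
    Nat.card K = q ^ 2 → (∀ x : K, star x = x ^ q) → ∀ n : ℕ, Odd n → 3 ≤ n →
    ∀ E : Subgroup (PGamU K n), (∀ x ∈ E, ∀ y ∈ E, x * y = y * x) → (∀ x ∈ E, x ^ 2 = 1) →
    ∀ (𝕜 : Type v) [Field 𝕜], QuillenDim 𝕜 2 ↥(PSU' K n ⊔ E)

/-- the numbers with reversal -/
lemma num_r {n q : ℕ} (hn : Odd n) (hn3 : 3 ≤ n) (hq : 11 ≤ q) :
    (q + 1) * Nat.gcd n (q + 1) * (3 * 4 ^ n) ≤ 2 * (2 * (q + 1) ^ n) := by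
  have hn0 : 0 < n := by omega
  have h1 : Nat.gcd n (q + 1) ≤ n := Nat.gcd_le_left _ hn0
  have h3 : (q + 1) ^ n = (q + 1) ^ (n - 1) * (q + 1) := by
    rw [← pow_succ]
    congr 1
    omega
  have h2 : n * (3 * 4 ^ n) ≤ 2 * (2 * (q + 1) ^ (n - 1)) := by
    rcases Nat.lt_or_ge n 5 with h | h
    · have h4 : n = 3 := by
        rcases hn with ⟨k, hk⟩
        omega
      subst h4
      have h5 : 12 ^ 2 ≤ (q + 1) ^ 2 := Nat.pow_le_pow_left (by omega) 2
      have h6 : (3 - 1 : ℕ) = 2 := rfl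
      rw [h6]
      omega
    · have := num_S5 h hq
      omega
  calc (q + 1) * Nat.gcd n (q + 1) * (3 * 4 ^ n) ≤ (q + 1) * n * (3 * 4 ^ n) :=
        Nat.mul_le_mul_right _ (Nat.mul_le_mul_left _ h1)
    _ = (q + 1) * (n * (3 * 4 ^ n)) := by ring
    _ ≤ (q + 1) * (2 * (2 * (q + 1) ^ (n - 1))) := Nat.mul_le_mul_left _ h2
    _ = 2 * (2 * (q + 1) ^ n) := by rw [h3]; ring

section fam
variable {K : Type u} {K₀ : Type v} {Γ : Type w} [Field K] [StarRing K] [Fintype K] [Field K₀]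
  [StarRing K₀] [Fintype K₀] [Group Γ] {n : ℕ}

/-- `family_abs` with the sum computed -/
theorem family_sum (f : K₀ →+* K) (hf : ∀ x, f (star x) = star (f x))
    (e : GU K n →* Γ) (x : Γ) (S : Subgroup (GU K n)) (ew : List (Ln K n) → Γ)
    (hcomm : ∀ g ∈ S, ∀ u v : List (Ln K₀ n), u ++ v ∈ Fr K₀ n →
      ew (u.map (lam f hf g)) * (e g * x * (e g)⁻¹) = (e g * x * (e g)⁻¹) * ew (u.map (lam f hf g))) :
    ∃ (Y : Finset Γ) (Fy : Γ → Finset (List (Ln K n))),
      (∀ y, y ∈ Y ↔ y ∈ conjs e S x) ∧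
      (∀ y ∈ Y, Fy y ⊆ Fr K n ∧ (∀ w ∈ Fy y, ∀ w', w.Perm w' → w' ∈ Fy y) ∧
        ∀ u v, u ++ v ∈ Fy y → ew u * y = y * ew u) ∧
      ∑ y ∈ Y, t (Fy y) = Nat.card (conjs e S x) * t (Fr K₀ n) := by
  classical
  set Y : Finset Γ := (conjs_finite e S x).toFinset with hY
  have hmem : ∀ y, y ∈ Y ↔ y ∈ conjs e S x := fun y => Set.Finite.mem_toFinset _
  have hr : ∀ y : Γ, ∃ g : GU K n, y ∈ Y → g ∈ S ∧ e g * x * (e g)⁻¹ = y := by
    intro y
    by_cases h : y ∈ Y
    · obtain ⟨g, hg', hg⟩ := (hmem y).1 h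
      exact ⟨g, fun _ => ⟨hg', hg⟩⟩
    · exact ⟨1, fun h' => absurd h' h⟩
  choose r hr using hr
  refine ⟨Y, fun y => Fg f hf (r y), hmem, fun y hy => ⟨Fg_sub f hf _, Fg_perm f hf _,
    fun u v huv => ?_⟩, ?_⟩
  · obtain ⟨w₀, h₀, h1⟩ := mem_mapW.1 huv
    obtain ⟨u₀, v₀, rfl, rfl, rfl⟩ := List.map_eq_append_iff.1 h1
    have h := hcomm (r y) (hr y hy).1 u₀ v₀ h₀
    rwa [(hr y hy).2] at h
  · simp only [t_Fg]
    rw [Finset.sum_const, smul_eq_mul]
    have hc : Nat.card (conjs e S x) = Y.card := by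
      rw [hY, Nat.card_coe_set_eq, Set.ncard_eq_toFinset_card _ (conjs_finite e S x)]
    rw [hc]

/-- the common assembly with reversal -/
theorem semi_chain₂ [Finite Γ] {p : ℕ} [Fact p.Prime] (hn : 2 ≤ n) (f : K₀ →+* K)
    (hf : ∀ x, f (star x) = star (f x))
    (e : GU K n →* Γ) (x : Γ) (S : Subgroup (GU K n)) (ew : List (Ln K n) → Γ)
    (hC : Comb p n (Fr K n) ew)
    (hrev : ∀ u v : List (Ln K n), u ++ v ∈ Fr K n →
      Subgroup.zpowers (ew v.reverse) = Subgroup.zpowers (ew u)) (N X : Subgroup Γ)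
    (hN : ∀ w, Orth w → ew w ∈ N) (hX : ∀ w, Orth w → ew w ∈ X)
    (heN : ∀ g ∈ S, e g ∈ N) (heX : ∀ g ∈ S, e g ∈ X) (hxX : x ∈ X) (hxN : x ∉ N)
    (hNx' : ∀ y ∈ N, x⁻¹ * y * x ∈ N) (hxp : x ^ p = 1)
    (hcomm : ∀ g ∈ S, ∀ u v : List (Ln K₀ n), u ++ v ∈ Fr K₀ n →
      ew (u.map (lam f hf g)) * (e g * x * (e g)⁻¹) = (e g * x * (e g)⁻¹) * ew (u.map (lam f hf g)))
    (hcount : (Fr K n).card < 2 * (Nat.card (conjs e S x) * t (Fr K₀ n))) :
    ∃ c : List (Ap p X) →₀ ℚ, IsChain n c ∧ bd c = 0 ∧ c ≠ 0 := by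
  obtain ⟨Y, Fy, h1, h2, h3⟩ := family_sum f hf e x S ew hcomm
  have hpre : ∀ u v : List (Ln K n), u ++ v ∈ Fr K n → Orth u := by
    intro u v h
    exact (List.pairwise_append.1 ((mem_Fr K).1 h).2).1
  have hYX : ∀ y ∈ Y, y ∈ X := by
    intro y hy
    obtain ⟨g, hg, rfl⟩ := (h1 y).1 hy
    exact X.mul_mem (X.mul_mem (heX g hg) hxX) (X.inv_mem (heX g hg))
  have hd : SemiData p (Fr K n) ew (N ⊓ X) X Y Fy := by
    refine ⟨fun u v h => ⟨hN u (hpre u v h), hX u (hpre u v h)⟩, inf_le_right, ?_, hYX, ?_, ?_,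
      fun y hy => (h2 y hy).1, fun y hy => (h2 y hy).2.1, fun y hy => (h2 y hy).2.2⟩
    · intro y hy
      obtain ⟨g, hg, rfl⟩ := (h1 y).1 hy
      rw [conj_pow, hxp, mul_one, mul_inv_cancel]
    · intro y hy h
      obtain ⟨g, hg, rfl⟩ := (h1 y).1 hy
      apply hxN
      have := N.mul_mem (N.mul_mem (N.inv_mem (heN g hg)) h.1) (heN g hg)
      have h4 : (e g)⁻¹ * (e g * x * (e g)⁻¹) * e g = x := by group
      rwa [h4] at this
    · intro y hy y' hy'
      refine ⟨?_, X.mul_mem (X.inv_mem (hYX y hy)) (hYX y' hy')⟩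
      obtain ⟨g, hg, rfl⟩ := (h1 y).1 hy
      obtain ⟨g', hg', rfl⟩ := (h1 y').1 hy'
      have h4 : (e g * x * (e g)⁻¹)⁻¹ * (e g' * x * (e g')⁻¹) =
          e g * (x⁻¹ * ((e g)⁻¹ * e g') * x) * (e g')⁻¹ := by group
      rw [h4]
      exact N.mul_mem (N.mul_mem (heN g hg)
        (hNx' _ (N.mul_mem (N.inv_mem (heN g hg)) (heN g' hg')))) (N.inv_mem (heN g' hg'))
  exact semi_Ap₂ hn hC hrev hd (by rw [h3]; exact hcount)

end fam

theorem stmtB7r_of (hrev : ∀ (K : Type u) [Field K] [Fintype K] [StarRing K] (n : ℕ)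
      (u v : List (Ln K n)), u ++ v ∈ Fr K n → eW (-1 : K) v.reverse = eW (-1 : K) u)
    (h4c : StmtM4c.{u}) (hB1 : StmtB1.{u}) (hB6 : StmtB6.{u}) : StmtB7r.{u} := by
  intro K _ _ _ q hq hq11 hK hs n hn hn3 σ hσ H hH hσH
  have : Fact (Nat.Prime 2) := ⟨Nat.prime_two⟩
  have h2K : (2 : F0 K) ≠ 0 := two_ne hq hK hs
  have h2K' : (2 : K) ≠ 0 := by
    intro h
    apply h2K
    apply (toK K).injective
    rw [map_ofNat, map_zero, h]
  have hm1 : (-1 : K) ≠ 1 := by
    intro h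
    apply h2K'
    have : (1 : K) + 1 = 0 := by
      nth_rewrite 1 [← h]
      ring
    rw [← one_add_one_eq_two]
    exact this
  have hnorm : (-1 : K) * star (-1 : K) = 1 := by
    rw [star_neg, star_one]
    ring
  have hσ1 : σ ≠ 1 := by
    intro h
    have h1 : ∀ y : K, star y = y := by
      intro y
      rw [← hσ, h]
      rfl
    -- all elements satisfy `x ^ q = x`
    have hc := card_F0 hK hs
    have h2 : Function.Surjective (toK K) := fun x => exists_toK (h1 x)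
    have h3 : Nat.card (F0 K) = Nat.card K :=
      Nat.card_congr (Equiv.ofBijective _ ⟨(toK K).injective, h2⟩)
    rw [hc, hK] at h3
    have : q * 1 < q * q := Nat.mul_lt_mul_of_pos_left (by omega) (by omega)
    rw [pow_two] at h3
    omega
  have hσ2 : σ ^ 2 = 1 := by
    apply Subtype.ext
    ext y
    change σ.1 (σ.1 y) = y
    rw [hσ, hσ, star_star]
  have hCo := h4c K q (by omega) hK hs 2 (-1) (by norm_num) hm1 hnorm n (by omega)
  have hn2 : ¬ 2 ∣ n := by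
    exact fun h => (Nat.not_even_iff_odd.2 hn) (even_iff_two_dvd.2 h)
  have hmemL : ∀ w : List (Ln K n), Orth w → SemidirectProduct.inl (eW (-1 : K) w) ∈ H := by
    intro w hw
    exact hH ⟨_, hB6 K 2 (-1) (by norm_num) hnorm n hn2 w hw, rfl⟩
  have hx : ∀ g, (SemidirectProduct.inr σ : PGamU K n) * e1 K n g *
      (SemidirectProduct.inr σ)⁻¹ = e1 K n (uMap n (starRingEnd K) star_comm g) := by
    intro g
    rw [e1_apply, inr_conj, e1_apply]
    congr 2
    apply Subtype.ext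
    rw [uMap_coe]
    ext i j
    exact hσ _
  have hker : ∀ g, e1 K n g = 1 → ∃ c : K, (g : Matrix (Fin n) (Fin n) K) = c • 1 := by
    intro g hg
    exact (H727.center_iff (by omega) hK hs (by omega) g).1 (e1_eq_one.1 hg)
  have ht : (Fr (F0 K) n).card < 3 * 2 ^ n * t (Fr (F0 K) n) := by
    refine hB1 (F0 K) (star_F0 K) ?_ ?_ n (by omega)
    · rw [card_F0 hK hs]; exact hq
    · rw [card_F0 hK hs]; exact hq11
  have hcount := star_count_S (n := n) (r := 2) (by omega) hK h2K hs (by omega) (e1 K n) hker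
    (SemidirectProduct.inr σ) hx ht (num_r hn hn3 hq11)
  have hneg : toK K (-1) = -1 := by rw [map_neg, map_one]
  have hew : ∀ w : List (Ln K n), (SemidirectProduct.inl (eW (-1 : K) w) : PGamU K n) =
      e1 K n (eU (toK K (-1)) (sm w)) := by
    intro w
    rw [hneg]
    rfl
  have hcomm : ∀ g ∈ SUg K n, ∀ u v : List (Ln (F0 K) n), u ++ v ∈ Fr (F0 K) n →
      (SemidirectProduct.inl (eW (-1 : K) (u.map (lam (toK K) (toK_star K) g))) : PGamU K n) *
        (e1 K n g * SemidirectProduct.inr σ * (e1 K n g)⁻¹) =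
      (e1 K n g * SemidirectProduct.inr σ * (e1 K n g)⁻¹) *
        SemidirectProduct.inl (eW (-1 : K) (u.map (lam (toK K) (toK_star K) g))) := by
    intro g _ u v huv
    rw [hew]
    have hφf : ∀ y, (starRingEnd K) (toK K y) = toK K y := by
      intro y
      have := toK_star K y
      rw [star_F0] at this
      exact this.symm
    refine Fg_comm (starRingEnd K) star_comm (toK K) (toK_star K) hφf (e1 K n)
      (SemidirectProduct.inr σ) hx (ζ₀ := -1) (by rw [star_F0]; ring) g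
      (v := v.map (lam (toK K) (toK_star K) g)) ?_
    rw [← List.map_append]
    exact map_mem_mapW.2 huv
  have hmemN : ∀ y : PGamU K n, y ∈ (SemidirectProduct.inl : PGU K n →* PGamU K n).range ↔
      y.right = 1 := fun y => mem_N
  refine semi_chain₂ (by omega) (toK K) (toK_star K) (e1 K n) (SemidirectProduct.inr σ) (SUg K n)
    (fun w => SemidirectProduct.inl (eW (-1 : K) w))
    (H164.Comb.map hCo SemidirectProduct.inl SemidirectProduct.inl_injective)
    (fun u v huv => by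
      show Subgroup.zpowers (SemidirectProduct.inl (eW (-1 : K) v.reverse)) = _
      rw [hrev K n u v huv])
    (SemidirectProduct.inl : PGU K n →* PGamU K n).range H (fun w _ => ⟨_, rfl⟩) hmemL
    (fun g _ => ⟨_, rfl⟩) (fun g hg => hH (mk_mem_PSU (mem_SUg.1 hg))) hσH (fun h => hσ1 ?_)
    (fun y hy => ?_) (inr_pow hσ2) hcomm hcount
  · exact (hmemN _).1 h
  · rw [hmemN] at hy ⊢
    simp [hy]

/-- words of a frame: `e` of the complement -/
lemma eW_rev {K : Type u} [Field K] [Fintype K] [StarRing K] (n : ℕ)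
    (u v : List (Ln K n)) (h : u ++ v ∈ Fr K n) : eW (-1 : K) v.reverse = eW (-1 : K) u := by
  have h1 : sm (u ++ v) = 1 := H387.sm_eq_one h
  have hO := ((mem_Fr K).1 h).2
  have hu : Orth u := (List.pairwise_append.1 hO).1
  have h2 : sm v.reverse = 1 - sm u := by
    have h3 : sm v.reverse = sm v := by
      unfold sm
      rw [List.map_reverse, List.sum_reverse]
    have h4 : sm (u ++ v) = sm u + sm v := by simp [sm]
    rw [h3, ← h1, h4]
    abel
  have hP := isPr_sm hu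
  have hnorm : (-1 : K) * star (-1 : K) = 1 := by
    rw [star_neg, star_one]
    ring
  have hP' : IsPr (1 - sm u) := by
    refine ⟨by rw [star_sub, star_one, hP.1], ?_⟩
    rw [Matrix.sub_mul, Matrix.mul_sub, Matrix.mul_sub, hP.2]
    simp
  unfold eW
  rw [h2]
  have hz : (-1 : K) • (1 : Matrix (Fin n) (Fin n) K) ∈ Matrix.unitaryGroup (Fin n) K := by
    rw [Matrix.mem_unitaryGroup_iff, star_smul, star_one, smul_mul_smul_comm, hnorm, one_mul,
      one_smul]
  have hcen : (⟨_, hz⟩ : GU K n) ∈ Subgroup.center (GU K n) := by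
    rw [Subgroup.mem_center_iff]
    intro y
    apply Subtype.ext
    change (y : Matrix (Fin n) (Fin n) K) * ((-1 : K) • 1) = ((-1 : K) • 1) * y
    rw [smul_mul_assoc, mul_smul_comm, one_mul, mul_one]
  have h5 : (eU (-1) (1 - sm u) : GU K n) = eU (-1) (sm u) * ⟨_, hz⟩ := by
    apply Subtype.ext
    rw [coe_mul', eU_val hP' hnorm, eU_val hP hnorm]
    show _ = _ * ((-1 : K) • (1 : Matrix (Fin n) (Fin n) K))
    rw [mul_smul_comm, mul_one]
    module
  rw [h5, QuotientGroup.mk_mul, (QuotientGroup.eq_one_iff _).2 hcen, mul_one]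

theorem stmtB7r (h4c : StmtM4c.{u}) (hB1 : StmtB1.{u}) (hB6 : StmtB6.{u}) : StmtB7r.{u} :=
  stmtB7r_of (fun _ _ _ _ n u v h => eW_rev n u v h) h4c hB1 hB6

end

end Vale.Agent.P240.R2.H986.B7
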