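import Vale.Agent.P240.R2.H687.Cnt
import Vale.Agent.P240.R2.H472.Nrm
import Vale.Agent.P240.R2.AS.Defs

/-!
P240, module S4 (helper986): the automorphism `star` of the unitary group, its fixed field
`F0 K` (with the trivial involution), the number of its conjugates and the count for `p = 2`.
-/

set_option autoImplicit false
set_option linter.all false

namespace Vale.Agent.P240.R2.H986.St

open Matrix Vale.Agent.P240.R2.H687 Vale.Agent.P240.R2.AS

universe u

section F0

variable (K : Type u) [Field K] [StarRing K]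

/-- the fixed field of `star`, as a subfield -/
def fixS : Subfield K where
  carrier := {x | star x = x}
  mul_mem' := by
    intro a b ha hb
    simp only [Set.mem_setOf_eq] at ha hb ⊢
    rw [star_mul, ha, hb, mul_comm]
  one_mem' := star_one K
  add_mem' := by
    intro a b ha hb
    simp only [Set.mem_setOf_eq] at ha hb ⊢
    rw [star_add, ha, hb]
  zero_mem' := star_zero K
  neg_mem' := by
    intro a ha
    simp only [Set.mem_setOf_eq] at ha ⊢
    rw [star_neg, ha]
  inv_mem' := by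
    intro a ha
    simp only [Set.mem_setOf_eq] at ha ⊢
    rw [star_inv₀, ha]

/-- the fixed field of `star` -/
def F0 : Type u := fixS K

noncomputable instance : Field (F0 K) := inferInstanceAs (Field (fixS K))

instance [Finite K] : Finite (F0 K) := inferInstanceAs (Finite (fixS K))

noncomputable instance [Fintype K] : Fintype (F0 K) := Fintype.ofFinite _

/-- the involution of the fixed field is trivial -/
noncomputable instance : StarRing (F0 K) := starRingOfComm

lemma star_F0 (x : F0 K) : star x = x := rfl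

/-- the inclusion -/
noncomputable def toK : F0 K →+* K := (fixS K).subtype

lemma toK_star (x : F0 K) : toK K (star x) = star (toK K x) := by
  rw [star_F0]
  exact (x : fixS K).2.symm

variable {K}

lemma exists_toK {x : K} (h : star x = x) : ∃ y, toK K y = x := ⟨⟨x, h⟩, rfl⟩

/-- the order of the fixed field -/
theorem card_F0 [Fintype K] {q : ℕ} (hK : Nat.card K = q ^ 2) (hs : ∀ x : K, star x = x ^ q) :
    Nat.card (F0 K) = q := by
  classical
  have hK' : Fintype.card K = q ^ 2 := by rwa [Nat.card_eq_fintype_card] at hK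
  have hq := H472.one_lt hK'
  set T := Finset.univ.filter (fun c : K => c ≠ 0 ∧ c ^ q = c) with hT
  have hmaps : ∀ x ∈ (Finset.univ.filter (fun x : K => x ≠ 0)), x ^ (q + 1) ∈ T := by
    intro x hx
    rw [Finset.mem_filter] at hx
    simp only [hT, Finset.mem_filter, Finset.mem_univ, true_and]
    refine ⟨pow_ne_zero _ hx.2, ?_⟩
    have h1 : x ^ (q ^ 2) = x := by
      rw [← hK']; exact FiniteField.pow_card x
    calc (x ^ (q + 1)) ^ q = x ^ (q ^ 2) * x ^ q := by rw [← pow_mul, ← pow_add]; ring_nf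
      _ = x * x ^ q := by rw [h1]
      _ = x ^ (q + 1) := by rw [pow_succ]; ring
  have hcard := Finset.card_eq_sum_card_fiberwise hmaps
  have htot : (Finset.univ.filter (fun x : K => x ≠ 0)).card = q ^ 2 - 1 := by
    rw [Finset.filter_ne', Finset.card_erase_of_mem (Finset.mem_univ _), Finset.card_univ, hK']
  have hfib : ∀ b ∈ T, ((Finset.univ.filter (fun x : K => x ≠ 0)).filter
      (fun x => x ^ (q + 1) = b)).card = q + 1 := by
    intro b hb
    simp only [hT, Finset.mem_filter, Finset.mem_univ, true_and] at hb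
    refine Eq.trans (congrArg Finset.card ?_) (H472.card_pow hK' hb.1 hb.2)
    ext x
    simp only [Finset.mem_filter, Finset.mem_univ, true_and, and_iff_right_iff_imp]
    rintro h rfl
    rw [zero_pow (by omega)] at h
    exact hb.1 h.symm
  rw [Finset.sum_congr rfl hfib, Finset.sum_const, smul_eq_mul, htot] at hcard
  have hfac : q ^ 2 - 1 = (q - 1) * (q + 1) := by
    have := Nat.sq_sub_sq q 1
    rw [one_pow] at this
    rw [this, mul_comm]
  rw [hfac] at hcard
  have hTc : T.card = q - 1 := (Nat.eq_of_mul_eq_mul_right (by omega) hcard).symm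
  -- the fixed field is `T ∪ {0}`
  have h1 : Nat.card (F0 K) = (Finset.univ.filter (fun x : K => star x = x)).card := by
    have : Nat.card (F0 K) = Nat.card {x : K // star x = x} := rfl
    rw [this, Nat.card_eq_fintype_card, Fintype.card_subtype]
  have h2 : Finset.univ.filter (fun x : K => star x = x) = insert 0 T := by
    ext x
    simp only [hT, Finset.mem_filter, Finset.mem_univ, true_and, Finset.mem_insert, hs]
    constructor
    · intro h
      by_cases hx : x = 0
      · exact Or.inl hx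
      · exact Or.inr ⟨hx, h⟩
    · rintro (rfl | h)
      · rw [zero_pow (by omega)]
      · exact h.2
  rw [h1, h2, Finset.card_insert_of_notMem (by simp [hT]), hTc]
  omega

end F0

section count

variable {K : Type u} [Field K] [StarRing K] {n : ℕ}

lemma star_comm (x : K) : (starRingEnd K) (star x) = star ((starRingEnd K) x) := rfl

/-- if `star g = c g` and `n` is odd then `c ^ ((q+1)/2) = 1` -/
lemma scal_half [Fintype K] {q : ℕ} (hq : Odd q) (hn : Odd n) (hs : ∀ x : K, star x = x ^ q)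
    {g : unitaryGroup (Fin n) K} {c : K}
    (h : (g : Matrix (Fin n) (Fin n) K).map (starRingEnd K) = c • (g : Matrix (Fin n) (Fin n) K)) :
    c ^ ((q + 1) / 2) = 1 := by
  have hn0 : 0 < n := hn.pos
  have hc : c * star c = 1 := scal_norm hn0 (starRingEnd K) star_comm h
  set d := (g : Matrix (Fin n) (Fin n) K).det with hd
  -- determinants
  have h1 : star d = c ^ n * d := by
    have h2 := congrArg Matrix.det h
    rw [Matrix.det_smul, Fintype.card_fin] at h2
    rw [← h2]
    have h3 : (g : Matrix (Fin n) (Fin n) K).map (starRingEnd K) =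
      (starRingEnd K).mapMatrix (g : Matrix (Fin n) (Fin n) K) := rfl
    rw [h3, ← RingHom.map_det]
    rfl
  have h2 : d * star d = 1 := by
    have h3 := congrArg Matrix.det (mem_unitaryGroup_iff.1 g.2)
    rw [Matrix.det_mul, Matrix.det_one, star_eq_conjTranspose, Matrix.det_conjTranspose] at h3
    exact h3
  obtain ⟨m, hm⟩ := hn
  -- `c = (c^(m+1) d)^2`
  have h3 : c = (c ^ (m + 1) * d) ^ 2 := by
    have h4 : c ^ n * (d * d) = 1 := by
      rw [← h2, h1]; ring
    calc c = c * (c ^ n * (d * d)) := by rw [h4, mul_one]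
      _ = (c ^ (m + 1) * d) ^ 2 := by
        rw [hm]; ring
  have h5 : (c ^ (m + 1) * d) ^ (q + 1) = 1 := by
    have e1 : c ^ (q + 1) = 1 := by
      rw [pow_succ, ← hs, mul_comm]; exact hc
    have e2 : d ^ (q + 1) = 1 := by
      rw [pow_succ, ← hs, mul_comm]; exact h2
    rw [mul_pow, e2, mul_one, ← pow_mul, mul_comm, pow_mul, e1, one_pow]
  obtain ⟨r, hr⟩ := hq
  have h6 : (q + 1) / 2 = r + 1 := by omega
  rw [h6, h3, ← pow_mul, show 2 * (r + 1) = q + 1 by omega, h5]

/-- **number of conjugates of `star`** under the unitary group, `n` odd -/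
theorem card_conjs_star [Fintype K] {Γ : Type*} [Group Γ] {q : ℕ} (hq : Odd q) (hn : Odd n)
    (hs : ∀ x : K, star x = x ^ q) (e : unitaryGroup (Fin n) K →* Γ)
    (he : ∀ g, e g = 1 → ∃ c : K, (g : Matrix (Fin n) (Fin n) K) = c • (1 : Matrix (Fin n) (Fin n) K))
    (x : Γ) (hx : ∀ g, x * e g * x⁻¹ = e (uMap n (starRingEnd K) star_comm g)) :
    Nat.card (unitaryGroup (Fin n) K) ≤
      Nat.card (conjs e ⊤ x) * ((q + 1) / 2 * Nat.card (unitaryGroup (Fin n) (F0 K))) := by
  have h1 := card_conjs_gen (K₀ := F0 K) (starRingEnd K) star_comm (toK K) (toK_star K)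
    (fun x hx => exists_toK hx) (⊤ : Subgroup (unitaryGroup (Fin n) K))
    ({c : K | c ^ ((q + 1) / 2) = 1}) (fun g _ c hc => scal_half hq hn hs hc) e he x hx
  have h2 : Nat.card (⊤ : Subgroup (unitaryGroup (Fin n) K)) = Nat.card (unitaryGroup (Fin n) K) :=
    Subgroup.card_top
  have h3 : Nat.card ((⊤ : Subgroup (unitaryGroup (Fin n) K)).comap
      (uMap n (toK K) (toK_star K))) = Nat.card (unitaryGroup (Fin n) (F0 K)) := by
    rw [Subgroup.comap_top]
    exact Subgroup.card_top
  rw [h2, h3] at h1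
  refine h1.trans (Nat.mul_le_mul_left _ (Nat.mul_le_mul_right _ ?_))
  refine card_roots_le ?_
  have := hq.pos
  omega

/-- the same for the special unitary group (determinant `1`): `c ^ n = 1` and `c ^ (q+1) = 1` -/
theorem card_conjs_star_S [Fintype K] {Γ : Type*} [Group Γ] {q : ℕ} (hn : 0 < n)
    (hs : ∀ x : K, star x = x ^ q) (S : Subgroup (unitaryGroup (Fin n) K))
    (hS : ∀ g ∈ S, (g : Matrix (Fin n) (Fin n) K).det = 1) (e : unitaryGroup (Fin n) K →* Γ)
    (he : ∀ g, e g = 1 → ∃ c : K, (g : Matrix (Fin n) (Fin n) K) = c • (1 : Matrix (Fin n) (Fin n) K))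
    (x : Γ) (hx : ∀ g, x * e g * x⁻¹ = e (uMap n (starRingEnd K) star_comm g)) :
    Nat.card S ≤
      Nat.card (conjs e S x) *
        (Nat.gcd n (q + 1) * Nat.card (S.comap (uMap n (toK K) (toK_star K)))) := by
  have h1 := card_conjs_gen (K₀ := F0 K) (starRingEnd K) star_comm (toK K) (toK_star K)
    (fun x hx => exists_toK hx) S
    ({c : K | c ^ (Nat.gcd n (q + 1)) = 1}) (fun g hg c hc => ?_) e he x hx
  · refine h1.trans (Nat.mul_le_mul_left _ (Nat.mul_le_mul_right _ ?_))
    exact card_roots_le (Nat.gcd_pos_of_pos_left _ hn)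
  · have e1 : c ^ n = 1 := scal_det _ (hS g hg) hc
    have e2 : c * star c = 1 := scal_norm hn (starRingEnd K) star_comm hc
    have e3 : c ^ (q + 1) = 1 := by
      rw [pow_succ, ← hs, mul_comm]; exact e2
    show c ^ (Nat.gcd n (q + 1)) = 1
    exact pow_gcd_eq_one.2 ⟨e1, e3⟩

end count

/-! ### the numbers -/

lemma num_pow {n q : ℕ} (hn : 3 ≤ n) (hq : 11 ≤ q) : 3 * 4 ^ n ≤ 2 * (q + 1) ^ (n - 1) := by
  obtain ⟨m, rfl⟩ : ∃ m, n = m + 3 := ⟨n - 3, by omega⟩
  have e : m + 3 - 1 = m + 2 := by omega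
  rw [e]
  induction m with
  | zero =>
    have h1 : 12 * 12 ≤ (q + 1) * (q + 1) := Nat.mul_le_mul (by omega) (by omega)
    have h2 : (q + 1) ^ 2 = (q + 1) * (q + 1) := by ring
    norm_num
    omega
  | succ m ih =>
    have h1 := ih (by omega) (by omega)
    calc 3 * 4 ^ (m + 1 + 3) = (3 * 4 ^ (m + 3)) * 4 := by ring
      _ ≤ (2 * (q + 1) ^ (m + 2)) * (q + 1) := Nat.mul_le_mul h1 (by omega)
      _ = 2 * (q + 1) ^ (m + 1 + 2) := by ring

/-- general count: `U ≤ P (Z U₀)`, `U = F₁ A^n`, `U₀ = F₀ 2^n`, `F₀ < 3 2^n t`,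
`Z 3 4^n ≤ A^n` imply `F₁ < P t` -/
theorem count_gen {n A Z U U₀ F₁ F₀ P t : ℕ} (hA : 0 < A) (hU : U = F₁ * A ^ n)
    (hU₀ : U₀ = F₀ * 2 ^ n) (hP : U ≤ P * (Z * U₀)) (h0 : 0 < U) (ht : F₀ < 3 * 2 ^ n * t)
    (hZ : Z * (3 * 4 ^ n) ≤ A ^ n) : F₁ < P * t := by
  have hPZ : 0 < P * Z := by
    rcases Nat.eq_zero_or_pos (P * Z) with h | h
    · rw [← mul_assoc, h, zero_mul] at hP
      omega
    · exact h
  have hAn : 0 < A ^ n := Nat.pow_pos hA
  refine lt_of_mul_lt_mul_right (a := A ^ n) ?_ (Nat.zero_le _)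
  have e4 : (4 : ℕ) ^ n = 2 ^ n * 2 ^ n := by rw [← mul_pow]; norm_num
  calc F₁ * A ^ n ≤ P * (Z * (F₀ * 2 ^ n)) := by rw [← hU, ← hU₀]; exact hP
    _ = (P * Z) * (F₀ * 2 ^ n) := by ring
    _ < (P * Z) * ((3 * 2 ^ n * t) * 2 ^ n) :=
        Nat.mul_lt_mul_of_pos_left (Nat.mul_lt_mul_of_pos_right ht (Nat.pow_pos (by norm_num))) hPZ
    _ = (P * t) * (Z * (3 * 4 ^ n)) := by rw [e4]; ring
    _ ≤ (P * t) * A ^ n := Nat.mul_le_mul_left _ hZ

/-- **the count for `p = 2`, `φ = star`, the whole unitary group**, `n ≥ 3` odd, `q ≥ 11` odd: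
`|Fr(K^n)| < |Φ| t(Fr(K₀^n))` -/
theorem star_count {K : Type u} [Field K] [Fintype K] [StarRing K] {q n : ℕ} (hq : Odd q)
    (hq11 : 11 ≤ q) (hs : ∀ x : K, star x = x ^ q) (hn : 3 ≤ n) (hodd : Odd n)
    {Γ : Type*} [Group Γ] (e : unitaryGroup (Fin n) K →* Γ)
    (he : ∀ g, e g = 1 → ∃ c : K, (g : Matrix (Fin n) (Fin n) K) = c • (1 : Matrix (Fin n) (Fin n) K))
    (x : Γ) (hx : ∀ g, x * e g * x⁻¹ = e (uMap n (starRingEnd K) star_comm g))
    (hU : Nat.card (unitaryGroup (Fin n) K) = (Fr K n).card * (q + 1) ^ n)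
    (hU₀ : Nat.card (unitaryGroup (Fin n) (F0 K)) = (Fr (F0 K) n).card * 2 ^ n)
    (ht : (Fr (F0 K) n).card < 3 * 2 ^ n * t (Fr (F0 K) n)) :
    (Fr K n).card < Nat.card (conjs e ⊤ x) * t (Fr (F0 K) n) := by
  have h1 := card_conjs_star hq hodd hs e he x hx
  have : Finite (Matrix (Fin n) (Fin n) K) := inferInstanceAs (Finite (Fin n → Fin n → K))
  have : Finite (unitaryGroup (Fin n) K) := Subtype.finite
  refine count_gen (A := q + 1) (by omega) hU hU₀ h1 Nat.card_pos ht ?_
  obtain ⟨r, hr⟩ := hq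
  have h6 : (q + 1) / 2 = r + 1 := by omega
  have h7 := num_pow hn hq11
  have h8 : (q + 1) ^ n = (q + 1) ^ (n - 1) * (2 * (r + 1)) := by
    rw [show 2 * (r + 1) = q + 1 by omega, ← pow_succ]
    congr 1
    omega
  rw [h6, h8]
  calc (r + 1) * (3 * 4 ^ n) ≤ (r + 1) * (2 * (q + 1) ^ (n - 1)) := Nat.mul_le_mul_left _ h7
    _ = (q + 1) ^ (n - 1) * (2 * (r + 1)) := by ring

end Vale.Agent.P240.R2.H986.St
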