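import Vale.Agent.P240.R2.H38.W2
import Vale.Agent.P240.R2.H401.Lin4

/-!
EVEN UNITARY LINE (`PSU_n(q)`, `n` even, `p = 2`): definitions and literal statements.
-/

set_option autoImplicit false
set_option linter.all false

namespace Vale.Agent.P240.R2.H986.E

open Matrix Vale.Agent.P240.R2.AS Vale.Agent.P240.R2.H38 Vale.Agent.P240.R2.H487
open scoped Classical

universe u v w

noncomputable section

section
variable {K : Type u} [Field K] [Fintype K] [StarRing K] {n : ℕ}

/-- `diag (1, ..., 1, α)` -/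
def Da (n : ℕ) (α : K) : Matrix (Fin n) (Fin n) K := diagonal (fun i => if i.1 + 1 = n then α else 1)

/-- a norm one element that is not the square of a norm one element -/
def NSq (α : K) : Prop := α * star α = 1 ∧ ∀ x : K, x * star x = 1 → x * x ≠ α

/-- the count for `h ↦ d σ(h) d⁻¹` (factor `n`, as in helper38's `SCntN`) -/
def SCntd (S : Subgroup (GU K n)) (d : Matrix (Fin n) (Fin n) K) (σ : K ≃+* K) : Prop :=
  ∃ F : Finset (List (Ln K n)), F ⊆ Fr K n ∧ (∀ w ∈ F, ∀ w', w.Perm w' → w' ∈ F) ∧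
    (∀ w ∈ F, ∀ P ∈ w, d * P.1.map σ * star d = P.1) ∧
    (Fr K n).card * Nat.card {h : S // ∃ a : K, d * (mx h).map σ * star d = a • mx h} <
      n * (Nat.card S * AS.t F)

/-- the line `P` is fixed by `x ↦ Da α (star x)` and spanned by a fixed vector of value `1` -/
def L1 (α : K) (P : Ln K n) : Prop :=
  ∃ x : Fin n → K, Da n α *ᵥ (star x) = x ∧ star x ⬝ᵥ x = 1 ∧ P.1 = vecMulVec x (star x)

/-- the line `P` is fixed by `x ↦ Da α (star x)` -/
def Lf (α : K) (P : Ln K n) : Prop := Da n α * P.1.map star * star (Da n α) = P.1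

/-- the frames of fixed lines whose last line is not of class `1`, all others are -/
def FM (K : Type u) [Field K] [Fintype K] [StarRing K] (n : ℕ) (α : K) : Finset (List (Ln K n)) :=
  (Fr K n).filter fun w => ∃ (v : List (Ln K n)) (P : Ln K n), w = v ++ [P] ∧ (∀ Q ∈ v, L1 α Q) ∧
    Lf α P ∧ ¬ L1 α P

/-- the frames of fixed lines with exactly one line that is not of class `1` -/
def F1 (K : Type u) [Field K] [Fintype K] [StarRing K] (n : ℕ) (α : K) : Finset (List (Ln K n)) :=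
  (Fr K n).filter fun w => ∃ (u v : List (Ln K n)) (P : Ln K n), w = u ++ P :: v ∧
    (∀ Q ∈ u, L1 α Q) ∧ (∀ Q ∈ v, L1 α Q) ∧ Lf α P ∧ ¬ L1 α P

end

/-- the field -/
def Fld (K : Type u) [Field K] [Fintype K] [StarRing K] (q : ℕ) : Prop :=
  Odd q ∧ Nat.card K = q ^ 2 ∧ ∀ x : K, star x = x ^ q

/-- **EH** (normal form): `diag(a)` is a coboundary if `∏ a_i` is a square, a coboundary times
`Da α` if `∏ a_i` is `α` times a square (any `n ≥ 1`). -/
def StmtEH : Prop := ∀ (K : Type u) [Field K] [Fintype K] [StarRing K] (q : ℕ), Fld K q →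
  ∀ (n : ℕ), 0 < n → ∀ a : Fin n → K, (∀ i, a i * star (a i) = 1) →
    ((∃ x : K, x * star x = 1 ∧ ∏ i, a i = x * x) →
      ∃ u : GU K n, diagonal a * u.1.map star = u.1) ∧
    (∀ α : K, α * star α = 1 → (∃ x : K, x * star x = 1 ∧ ∏ i, a i = x * x * α) →
      ∃ u : GU K n, diagonal a * u.1.map star = u.1 * Da n α)

/-- **EL** (planes): `FM` has many pairs at every place -/
def StmtEL : Prop := ∀ (K : Type u) [Field K] [Fintype K] [StarRing K] (q : ℕ), Fld K q →
  q % 4 = 3 → 7 ≤ q → ∀ (n : ℕ), 2 ≤ n → ∀ α : K, NSq α →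
    H401.LGb (FM K n α) n 4 2 ∧ (FM K n α).Nonempty

/-- **EO** (orders): -/
def StmtEO : Prop := ∀ (K : Type u) [Field K] [Fintype K] [StarRing K] (q : ℕ), Fld K q →
  ∀ (n : ℕ), 2 ≤ n → ∀ α : K, NSq α →
    Nat.card {h : H38.SU K n // ∃ a : K, Da n α * (mx h).map star * star (Da n α) = a • mx h} ≤
      n.gcd (q + 1) * (2 ^ n * (FM K n α).card) ∧
    (Fr K n).card * (q + 1) ^ (n - 1) = Nat.card (H38.SU K n)

/-- **EC** (the count): -/
def StmtEC : Prop := ∀ (K : Type u) [Field K] [Fintype K] [StarRing K] (q : ℕ), Fld K q →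
  q % 4 = 3 → 7 ≤ q → ∀ (n : ℕ), 4 ≤ n → Even n → ∀ α : K, NSq α → ∀ σ : K ≃+* K,
    (∀ x, σ x = star x) → SCntd (H38.SU K n) (Da n α) σ

end

end Vale.Agent.P240.R2.H986.E
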