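import Vale.Agent.P240.R2.AS.Defs2
import Vale.Agent.P240.R2.H387.Six

/-!
Hilbert 90 for unitary groups over finite fields: a unitary matrix whose norm for a field automorphism
of odd prime order is `1` has the form `B * σ(B)⁻¹` (P240, module A5).
-/

set_option autoImplicit false

namespace Vale.Agent.P240.R2.H986.A5

open Matrix Finset
open Vale.Agent.P240.R2.AS

universe u

section ded

variable {K : Type u} [Field K]

lemma dedekind {ι : Type*} [Fintype ι] (φ : ι → (K →* K)) (hφ : Function.Injective φ) (x : ι → K)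
    (h : ∀ a, ∑ i, φ i a * x i = 0) : ∀ i, x i = 0 := by
  have h1 := (linearIndependent_monoidHom K K).comp φ hφ
  rw [Fintype.linearIndependent_iff] at h1
  apply h1
  funext a
  rw [Finset.sum_apply, Pi.zero_apply]
  rw [← h a]
  apply Finset.sum_congr rfl
  intro i _
  simp [mul_comm]

/-- the powers of an automorphism as monoid homomorphisms -/
def pw (σ : RingAut K) (i : ℕ) : K →* K := ((σ ^ i : RingAut K) : K ≃+* K).toRingHom.toMonoidHom

lemma pw_apply (σ : RingAut K) (i : ℕ) (a : K) : pw σ i a = (σ ^ i : RingAut K) a := rfl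

lemma pw_inj (σ : RingAut K) {p : ℕ} (hp : orderOf σ = p) :
    Function.Injective (fun i : Fin p => pw σ (i : ℕ)) := by
  intro i j hij
  apply Fin.ext
  have h1 : (σ ^ (i : ℕ)) = σ ^ (j : ℕ) := by
    apply RingEquiv.ext
    intro x
    exact DFunLike.congr_fun hij x
  exact pow_injOn_Iio_orderOf (by rw [Set.mem_Iio, hp]; exact i.2) (by rw [Set.mem_Iio, hp]; exact j.2) h1

end ded

section sl

variable {K : Type u} [Field K] [StarRing K] {n : ℕ}

/-- the hermitian form -/
def hm (u v : Fin n → K) : K := star u ⬝ᵥ v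

lemma hm_add_left (u u' v : Fin n → K) : hm (u + u') v = hm u v + hm u' v := by
  unfold hm; rw [star_add, add_dotProduct]

lemma hm_add_right (u v v' : Fin n → K) : hm u (v + v') = hm u v + hm u v' := by
  unfold hm; rw [dotProduct_add]

lemma hm_smul_right (a : K) (u v : Fin n → K) : hm u (a • v) = a * hm u v := by
  unfold hm; rw [dotProduct_smul, smul_eq_mul]

lemma hm_smul_left (a : K) (u v : Fin n → K) : hm (a • u) v = star a * hm u v := by
  unfold hm; rw [star_smul, smul_dotProduct, smul_eq_mul]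

lemma hm_star (u v : Fin n → K) : star (hm u v) = hm v u := by
  unfold hm
  exact (star_dotProduct v u).symm

lemma hm_zero_right (u : Fin n → K) : hm u 0 = 0 := by unfold hm; simp

lemma hm_sum_right {ι : Type*} (s : Finset ι) (u : Fin n → K) (f : ι → Fin n → K) :
    hm u (∑ i ∈ s, f i) = ∑ i ∈ s, hm u (f i) := by
  unfold hm; exact dotProduct_sum _ _ _

lemma hm_sum_left {ι : Type*} (s : Finset ι) (f : ι → Fin n → K) (v : Fin n → K) :
    hm (∑ i ∈ s, f i) v = ∑ i ∈ s, hm (f i) v := by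
  unfold hm; rw [star_sum]; exact sum_dotProduct _ _ _

/-- the semilinear map `v ↦ g σ(v)` -/
def sl (σ : SA K) (g : GU K n) (v : Fin n → K) : Fin n → K := g.1 *ᵥ (fun i => σ.1 (v i))

lemma sl_add (σ : SA K) (g : GU K n) (u v : Fin n → K) : sl σ g (u + v) = sl σ g u + sl σ g v := by
  unfold sl
  rw [← mulVec_add]
  congr 1
  ext i
  simp

lemma sl_smul (σ : SA K) (g : GU K n) (a : K) (v : Fin n → K) :
    sl σ g (a • v) = σ.1 a • sl σ g v := by
  unfold sl
  rw [← mulVec_smul]
  congr 1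
  ext i
  simp

lemma sl_zero (σ : SA K) (g : GU K n) : sl σ g 0 = 0 := by
  unfold sl
  have : (fun i : Fin n => σ.1 ((0 : Fin n → K) i)) = 0 := by ext i; simp
  rw [this, mulVec_zero]

lemma sl_sum (σ : SA K) (g : GU K n) {ι : Type*} (s : Finset ι) (f : ι → Fin n → K) :
    sl σ g (∑ i ∈ s, f i) = ∑ i ∈ s, sl σ g (f i) := by
  classical
  induction s using Finset.induction_on with
  | empty => simp [sl_zero]
  | insert a s ha ih => rw [Finset.sum_insert ha, Finset.sum_insert ha, sl_add, ih]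

lemma hm_sl (σ : SA K) (g : GU K n) (u v : Fin n → K) :
    hm (sl σ g u) (sl σ g v) = σ.1 (hm u v) := by
  unfold hm sl
  rw [star_mulVec, dotProduct_mulVec, vecMul_vecMul]
  have h1 : (g.1)ᴴ * g.1 = 1 := mem_unitaryGroup_iff'.1 g.2
  rw [h1, vecMul_one]
  unfold dotProduct
  rw [map_sum]
  apply Finset.sum_congr rfl
  intro i _
  rw [map_mul, Pi.star_apply, Pi.star_apply, SA_star]

/-- iterates -/
def it (σ : SA K) (g : GU K n) : ℕ → (Fin n → K) → (Fin n → K)
  | 0, v => v
  | k + 1, v => sl σ g (it σ g k v)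

lemma it_zero (σ : SA K) (g : GU K n) (v : Fin n → K) : it σ g 0 v = v := rfl

lemma it_succ (σ : SA K) (g : GU K n) (k : ℕ) (v : Fin n → K) :
    it σ g (k + 1) v = sl σ g (it σ g k v) := rfl

lemma it_smul (σ : SA K) (g : GU K n) (k : ℕ) (a : K) (v : Fin n → K) :
    it σ g k (a • v) = ((σ.1 ^ k : RingAut K) a) • it σ g k v := by
  induction k with
  | zero => simp [it_zero]
  | succ k ih =>
    rw [it_succ, it_succ, ih, sl_smul, pow_succ']
    rfl

/-- the trace vector -/
def T (p : ℕ) (σ : SA K) (g : GU K n) (v : Fin n → K) : Fin n → K := ∑ i ∈ range p, it σ g i v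

lemma sl_T {p : ℕ} {σ : SA K} {g : GU K n} (h : ∀ v, it σ g p v = v) (v : Fin n → K) :
    sl σ g (T p σ g v) = T p σ g v := by
  unfold T
  rw [sl_sum]
  have h1 : ∑ i ∈ range p, sl σ g (it σ g i v) = ∑ i ∈ range p, it σ g (i + 1) v := rfl
  rw [h1]
  have h2 := Finset.sum_range_succ (fun i => it σ g i v) p
  rw [Finset.sum_range_succ'] at h2
  rw [h v, it_zero] at h2
  exact add_right_cancel h2

lemma exists_T_right {p : ℕ} {σ : SA K} {g : GU K n} (hp : orderOf σ.1 = p) (hp0 : 0 < p)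
    {w v : Fin n → K} (h : hm w v ≠ 0) : ∃ a : K, hm w (T p σ g (a • v)) ≠ 0 := by
  by_contra hcon
  push Not at hcon
  have h1 : ∀ a, ∑ i : Fin p, pw σ.1 (i : ℕ) a * hm w (it σ g (i : ℕ) v) = 0 := by
    intro a
    have h2 := hcon a
    unfold T at h2
    rw [hm_sum_right, Finset.sum_range] at h2
    rw [← h2]
    apply Finset.sum_congr rfl
    intro i _
    rw [it_smul, hm_smul_right, pw_apply]
  have h3 := dedekind (fun i : Fin p => pw σ.1 (i : ℕ)) (pw_inj σ.1 hp) _ h1 ⟨0, hp0⟩
  exact h h3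

lemma exists_T_left {p : ℕ} {σ : SA K} {g : GU K n} (hp : orderOf σ.1 = p) (hp0 : 0 < p)
    {w v : Fin n → K} (h : hm w v ≠ 0) : ∃ a : K, hm (T p σ g (a • w)) v ≠ 0 := by
  have h1 : hm v w ≠ 0 := by
    rw [← hm_star]
    exact star_ne_zero.2 h
  obtain ⟨a, ha⟩ := exists_T_right (g := g) hp hp0 h1
  refine ⟨a, ?_⟩
  rw [← hm_star]
  exact star_ne_zero.2 ha

/-- the trace vector stays orthogonal to fixed vectors -/
lemma hm_it {σ : SA K} {g : GU K n} {b : Fin n → K} (hb : sl σ g b = b) {v : Fin n → K}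
    (h : hm b v = 0) (k : ℕ) : hm b (it σ g k v) = 0 := by
  induction k with
  | zero => exact h
  | succ k ih =>
    rw [it_succ, ← hb, hm_sl, ih, map_zero]

lemma hm_T {p : ℕ} {σ : SA K} {g : GU K n} {b : Fin n → K} (hb : sl σ g b = b) {v : Fin n → K}
    (h : hm b v = 0) : hm b (T p σ g v) = 0 := by
  unfold T
  rw [hm_sum_right]
  exact Finset.sum_eq_zero fun i _ => hm_it hb h i

/-- a fixed anisotropic vector orthogonal to given fixed orthonormal vectors -/
lemma exists_fixed {p : ℕ} {σ : SA K} {g : GU K n} (hp : orderOf σ.1 = p) (hp0 : 0 < p)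
    (hit : ∀ v, it σ g p v = v) {θ : K} (hθ : σ.1 θ = θ) (hθ' : star θ ≠ θ)
    {k : ℕ} (hk : k < n) (b : Fin k → Fin n → K) (hb : ∀ i, sl σ g (b i) = b i)
    (ho : ∀ i j, hm (b i) (b j) = if i = j then 1 else 0) :
    ∃ z : Fin n → K, sl σ g z = z ∧ (∀ i, hm (b i) z = 0) ∧ hm z z ≠ 0 := by
  classical
  -- a nonzero vector in the orthogonal complement
  let f : (Fin n → K) →ₗ[K] (Fin k → K) :=
    { toFun := fun v i => hm (b i) v
      map_add' := by intro u v; ext i; exact hm_add_right _ _ _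
      map_smul' := by intro a v; ext i; exact hm_smul_right _ _ _ }
  have hf : LinearMap.ker f ≠ ⊥ := by
    apply LinearMap.ker_ne_bot_of_finrank_lt
    simpa using hk
  obtain ⟨v, hv, hv0⟩ := (Submodule.ne_bot_iff _).1 hf
  have hv1 : ∀ i, hm (b i) v = 0 := by
    intro i
    exact congrFun (LinearMap.mem_ker.1 hv) i
  obtain ⟨j, hj⟩ := Function.ne_iff.1 hv0
  have hw0 : hm (Pi.single j 1) v = v j := by
    unfold hm
    rw [← Pi.single_star, star_one, single_one_dotProduct]
  set w0 : Fin n → K := Pi.single j 1 with hw0def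
  let w : Fin n → K := w0 + (-1 : K) • ∑ i, hm (b i) w0 • b i
  have hw1 : ∀ i, hm (b i) w = 0 := by
    intro i
    show hm (b i) (w0 + (-1 : K) • ∑ i, hm (b i) w0 • b i) = 0
    rw [hm_add_right, hm_smul_right, hm_sum_right]
    have : ∑ x, hm (b i) (hm (b x) w0 • b x) = hm (b i) w0 := by
      rw [Finset.sum_eq_single i]
      · rw [hm_smul_right, ho, if_pos rfl, mul_one]
      · intro x _ hx
        rw [hm_smul_right, ho, if_neg (Ne.symm hx), mul_zero]
      · intro h; exact absurd (Finset.mem_univ _) h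
    rw [this]; ring
  have hwv : hm w v ≠ 0 := by
    have : hm w v = v j := by
      show hm (w0 + (-1 : K) • ∑ i, hm (b i) w0 • b i) v = v j
      rw [hm_add_left, hm_smul_left, hm_sum_left, hw0]
      have : ∑ i, hm (hm (b i) w0 • b i) v = 0 := by
        apply Finset.sum_eq_zero
        intro i _
        rw [hm_smul_left, hv1, mul_zero]
      rw [this, mul_zero, add_zero]
    rw [this]; exact hj
  obtain ⟨a, ha⟩ := exists_T_right (g := g) hp hp0 hwv
  obtain ⟨c, hc⟩ := exists_T_left (g := g) hp hp0 ha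
  set u := T p σ g (c • w) with hu
  set u' := T p σ g (a • v) with hu'
  have hus : sl σ g u = u := sl_T hit _
  have hus' : sl σ g u' = u' := sl_T hit _
  have hub : ∀ i, hm (b i) u = 0 := fun i => hm_T (hb i) (by rw [hm_smul_right, hw1, mul_zero])
  have hub' : ∀ i, hm (b i) u' = 0 := fun i => hm_T (hb i) (by rw [hm_smul_right, hv1, mul_zero])
  by_cases h1 : hm u u ≠ 0
  · exact ⟨u, hus, hub, h1⟩
  by_cases h2 : hm u' u' ≠ 0
  · exact ⟨u', hus', hub', h2⟩
  push Not at h1 h2
  have key : ∀ d : K, σ.1 d = d → (sl σ g (u + d • u') = u + d • u' ∧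
      (∀ i, hm (b i) (u + d • u') = 0) ∧
      hm (u + d • u') (u + d • u') = d * hm u u' + star d * hm u' u) := by
    intro d hd
    refine ⟨by rw [sl_add, sl_smul, hus, hus', hd], fun i => by
      rw [hm_add_right, hm_smul_right, hub, hub', mul_zero, add_zero], ?_⟩
    rw [hm_add_left, hm_add_right, hm_add_right, hm_smul_left, hm_smul_right, hm_smul_left,
      hm_smul_right, h1, h2]
    ring
  by_cases h3 : hm u u' + hm u' u ≠ 0
  · obtain ⟨k1, k2, k3⟩ := key 1 (map_one _)
    refine ⟨_, k1, k2, ?_⟩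
    rw [k3, star_one, one_mul, one_mul]
    exact h3
  push Not at h3
  obtain ⟨k1, k2, k3⟩ := key θ hθ
  refine ⟨_, k1, k2, ?_⟩
  rw [k3]
  have h4 : hm u' u = - hm u u' := by linear_combination h3
  rw [h4]
  have h5 : θ * hm u u' + star θ * -hm u u' = (θ - star θ) * hm u u' := by ring
  rw [h5]
  exact mul_ne_zero (sub_ne_zero.2 (Ne.symm hθ')) hc

/-- orthonormal fixed vectors -/
lemma exists_basis {p : ℕ} {σ : SA K} {g : GU K n} (hp : orderOf σ.1 = p) (hp0 : 0 < p)
    (hit : ∀ v, it σ g p v = v) {θ : K} (hθ : σ.1 θ = θ) (hθ' : star θ ≠ θ)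
    (hN : ∀ c : K, c ≠ 0 → star c = c → σ.1 c = c → ∃ a, σ.1 a = a ∧ a * star a = c)
    (k : ℕ) (hk : k ≤ n) :
    ∃ b : Fin k → Fin n → K, (∀ i, sl σ g (b i) = b i) ∧
      (∀ i j, hm (b i) (b j) = if i = j then 1 else 0) := by
  induction k with
  | zero => exact ⟨Fin.elim0, fun i => i.elim0, fun i => i.elim0⟩
  | succ k ih =>
    obtain ⟨b, hb, ho⟩ := ih (by omega)
    obtain ⟨z, hz, hbz, hzz⟩ := exists_fixed hp hp0 hit hθ hθ' (by omega) b hb ho
    have h1 : star (hm z z)⁻¹ = (hm z z)⁻¹ := by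
      rw [star_inv₀, hm_star]
    have h2 : σ.1 (hm z z)⁻¹ = (hm z z)⁻¹ := by
      rw [map_inv₀, ← hm_sl σ g, hz]
    obtain ⟨a, ha, ha'⟩ := hN _ (inv_ne_zero hzz) h1 h2
    refine ⟨Fin.snoc b (a • z), ?_, ?_⟩
    · intro i
      refine Fin.lastCases ?_ (fun i => ?_) i
      · rw [Fin.snoc_last, sl_smul, ha, hz]
      · rw [Fin.snoc_castSucc, hb]
    · intro i j
      refine Fin.lastCases ?_ (fun i => ?_) i
      · refine Fin.lastCases ?_ (fun j => ?_) j
        · rw [Fin.snoc_last, hm_smul_left, hm_smul_right, if_pos rfl, ← mul_assoc, mul_comm (star a),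
            ha', inv_mul_cancel₀ hzz]
        · rw [Fin.snoc_last, Fin.snoc_castSucc, if_neg (Fin.castSucc_lt_last j).ne']
          rw [← hm_star, hm_smul_right, hbz, mul_zero, star_zero]
      · refine Fin.lastCases ?_ (fun j => ?_) j
        · rw [Fin.snoc_last, Fin.snoc_castSucc, if_neg (Fin.castSucc_lt_last i).ne]
          rw [hm_smul_right, hbz, mul_zero]
        · rw [Fin.snoc_castSucc, Fin.snoc_castSucc, ho]
          congr 1
          simp

/-- Hilbert 90 for unitary groups -/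
theorem h90 {p : ℕ} {σ : SA K} {g : GU K n} (hp : orderOf σ.1 = p) (hp0 : 0 < p)
    (hit : ∀ v, it σ g p v = v) {θ : K} (hθ : σ.1 θ = θ) (hθ' : star θ ≠ θ)
    (hN : ∀ c : K, c ≠ 0 → star c = c → σ.1 c = c → ∃ a, σ.1 a = a ∧ a * star a = c) :
    ∃ B : GU K n, g * mapGU σ B = B := by
  obtain ⟨b, hb, ho⟩ := exists_basis hp hp0 hit hθ hθ' hN n le_rfl
  let M : Matrix (Fin n) (Fin n) K := Matrix.of fun i j => b j i
  have hM : M ∈ Matrix.unitaryGroup (Fin n) K := by
    rw [mem_unitaryGroup_iff']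
    ext i j
    have h1 : (star M * M) i j = hm (b i) (b j) := by
      rw [Matrix.mul_apply]
      rfl
    rw [h1, ho, Matrix.one_apply]
  refine ⟨⟨M, hM⟩, ?_⟩
  apply Subtype.ext
  ext i j
  have h2 := congrFun (hb j) i
  exact h2

end sl

end Vale.Agent.P240.R2.H986.A5
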