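import Vale.Agent.P240.R2.H986.A5a
import Vale.Agent.P240.R2.H296.Cen
import Mathlib.FieldTheory.Finite.GaloisField

/-!
Norm maps for a field automorphism of odd prime order commuting with the involution (P240, module A5).
-/

set_option autoImplicit false

namespace Vale.Agent.P240.R2.H986.A5

open Matrix Finset
open Vale.Agent.P240.R2.AS

universe u

section nrm

variable {K : Type u} [Field K]

lemma prod_range_zpowers {G M : Type*} [Group G] [Finite G] [CommMonoid M] (σ : G) {p : ℕ}
    (hp : orderOf σ = p) (f : G → M) [Fintype (Subgroup.zpowers σ)] :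
    ∏ g : Subgroup.zpowers σ, f (g : G) = ∏ i ∈ range p, f (σ ^ i) := by
  have hfin : IsOfFinOrder σ := isOfFinOrder_of_finite σ
  rw [Finset.prod_range]
  subst hp
  rw [← (finEquivZPowers hfin).prod_comp]
  rfl

/-- the norm map of a cyclic group of field automorphisms of a finite field is onto -/
theorem exists_norm_eq [Finite K] (σ : RingAut K) {p : ℕ} (hp : orderOf σ = p)
    {c : K} (hc : σ c = c) : ∃ b : K, ∏ i ∈ range p, (σ ^ i : RingAut K) b = c := by
  classical
  have : Fintype K := Fintype.ofFinite K
  have : Finite (RingAut K) := Finite.of_injective (fun s : RingAut K => (s : K → K))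
    (fun a b h => RingEquiv.ext (fun x => congrFun h x))
  let G := Subgroup.zpowers σ
  have : Fintype G := Fintype.ofFinite G
  have hcF : c ∈ FixedPoints.subfield G K := by
    rintro ⟨g, hg⟩
    obtain ⟨k, rfl⟩ := Subgroup.mem_zpowers_iff.1 hg
    show (σ ^ k : RingAut K) c = c
    have h1 : σ ∈ MulAction.stabilizer (RingAut K) c := hc
    exact (MulAction.stabilizer (RingAut K) c).zpow_mem h1 k
  obtain ⟨b, hb⟩ := FiniteField.norm_surjective (FixedPoints.subfield G K) K ⟨c, hcF⟩
  refine ⟨b, ?_⟩
  have h2 := Algebra.norm_eq_prod_automorphisms (FixedPoints.subfield G K) b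
  rw [hb] at h2
  have h3 : algebraMap (FixedPoints.subfield G K) K ⟨c, hcF⟩ = c := rfl
  rw [h3] at h2
  rw [h2]
  rw [← (Equiv.ofBijective _ (FixedPoints.toAlgAut_bijective G K)).prod_comp]
  rw [← prod_range_zpowers σ hp (fun g => g b)]
  rfl

end nrm

end Vale.Agent.P240.R2.H986.A5
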