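import Vale.Agent.P240.R2.H986.B8r
import Vale.Agent.P240.R2.H195.A1

/-!
`StmtB6`: for `p ∤ n` all the elements `e W` lie in `PSU_n(q)`.
-/

set_option autoImplicit false

namespace Vale.Agent.P240.R2.H986.B7

open Matrix Vale.Agent.P240 Vale.Agent.P240.K Vale.Agent.P240.R2.AS
open scoped Classical

universe u

theorem stmtB6 : StmtB6.{u} := by
  intro K _ _ _ p hp ζ hζ _ n hn w _
  have h1 : (eW ζ w : PGU K n) ^ p = 1 := by
    unfold eW
    rw [← QuotientGroup.mk_pow, H195.eU_pow hζ]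
    rfl
  have h2 := H164.pow_mem_PSU (eW ζ w)
  have hco : Nat.Coprime n p := ((Nat.Prime.coprime_iff_not_dvd hp.out).2 hn).symm
  have h3 : (eW ζ w : PGU K n) ∈ Subgroup.zpowers ((eW ζ w : PGU K n) ^ n) := by
    rw [Subgroup.mem_zpowers_iff]
    refine ⟨Nat.gcdA n p, ?_⟩
    have h4 := Nat.gcd_eq_gcd_ab n p
    rw [hco] at h4
    have h5 : (n : ℤ) * Nat.gcdA n p = 1 - p * Nat.gcdB n p := by
      push_cast at h4
      linarith
    rw [← _root_.zpow_natCast, ← _root_.zpow_mul, h5, _root_.zpow_sub, _root_.zpow_one, _root_.zpow_mul, _root_.zpow_natCast, h1, _root_.one_zpow,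
      inv_one, mul_one]
  exact (Subgroup.zpowers_le.2 h2) h3

end Vale.Agent.P240.R2.H986.B7
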