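import Vale.Agent.P240.R2.H986.EFin
import Vale.Agent.P240.R2.H986.E7Inst

/-!
**`LocTopF` for `PSU_n(q)`, `n` even, `p = 2`**, with the count for the trivial discriminant as a
hypothesis.
-/

set_option autoImplicit false
set_option linter.all false

namespace Vale.Agent.P240.R2.H986.E

open Matrix Vale.Agent.P240.R2.AS Vale.Agent.P240.R2.H38 Vale.Agent.P240.R2.H487
open scoped Classical

universe u v w

noncomputable section

section
variable {K : Type u} [Field K] [Fintype K] [StarRing K] {n m q : ℕ}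

/-- **`LocTopF` for `PSU_n(q)`**, `p = 2`, `n` even, `2 gcd(n, q+1) ∣ q + 1` -/
theorem locTopF_PSU_even17 {G : Type v} [Group G] [Finite G] (𝕜 : Type w) [Field 𝕜]
    (hEH : StmtEH.{u}) (hEC : StmtEC.{u}) (hcn' : EvCnt K)
    (hn : 4 ≤ n) (hne : Even n) (hF : Fld K q) (hq : 7 ≤ q) (hpn : 2 * n.gcd (q + 1) ∣ q + 1)
    {L : Subgroup G} (e : Nonempty (L ≃* AS.PSU K n)) : LocTopF 𝕜 2 L := by
  haveI : Fact (Nat.Prime 2) := ⟨Nat.prime_two⟩
  have hK := hF.2.1
  have hs := hF.2.2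
  obtain ⟨ζ, c, hζ, h1, hz, hc, hcn⟩ := exists_nums (by omega) hK hs Nat.prime_two hpn
  obtain ⟨e⟩ := e
  let ε : H38.SU K n →* G := L.subtype.comp (e.symm.toMonoidHom.comp (toP K n))
  have hr : ε.range = L := by
    ext y
    constructor
    · rintro ⟨g, rfl⟩
      exact (e.symm (toP K n g)).2
    · intro hy
      obtain ⟨g, hg⟩ := toP_surj (e ⟨y, hy⟩)
      refine ⟨g, ?_⟩
      show ((e.symm (toP K n g) : L) : G) = y
      rw [hg, MulEquiv.symm_apply_apply]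
  have hker : ∀ g : H38.SU K n, ε g = 1 ↔ ∃ a : K, mx g = a • (1 : Matrix (Fin n) (Fin n) K) := by
    intro g
    rw [← toP_ker h1 hz g]
    show ((e.symm (toP K n g) : L) : G) = 1 ↔ _
    rw [OneMemClass.coe_eq_one, EmbeddingLike.map_eq_one_iff]
  have hG := sgood_SU (p := 2) (by omega) (by omega) hK hs hζ h1 hz hc hcn
  have hP := phom_SU (p := 2) (by omega) (by omega) hK hs h1 hz hc hcn hr hker
  have hq4 : q % 4 = 3 := by
    have h2 : 2 ∣ n.gcd (q + 1) := Nat.dvd_gcd hne.two_dvd (by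
      obtain ⟨m, hm⟩ := hF.1
      exact ⟨m + 1, by omega⟩)
    obtain ⟨m, hm⟩ := h2
    obtain ⟨r, hr⟩ := hpn
    have h3 : q + 1 = 4 * (m * r) := by rw [hr, hm]; ring
    omega
  refine locTopF_of_PHomD 𝕜 hG ?_ hP (t_pos (by omega) (by omega) hK hs)
  intro σ s1 s2 s3 s4 a ha _
  obtain ⟨u, d, h5, -, h6⟩ := lit_three7 hEH hEC hcn' hF hq4 hq hn hne (le_refl (H38.SU K n)) s2 s3
    a ha
  exact ⟨u, d, 1, by rw [one_smul]; exact h5, h6⟩

/-- `HII` -/
theorem hII7 (hcn : EvCnt K) (h : Fld K q) (hq : 7 ≤ q) (hm : 3 ≤ m) (hmo : Odd m) :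
    H938.HII m 2 K (-1) := by
  intro σ hσ hσ2 hσ1 _ a ha hprod ζ' hζ' hζ2
  have hz : ζ' = -1 := by
    have h1 : (ζ' - 1) * (ζ' + 1) = 0 := by linear_combination hζ2
    rcases mul_eq_zero.1 h1 with h2 | h2
    · exact absurd (sub_eq_zero.1 h2) hζ'
    · exact eq_neg_of_add_eq_zero_left h2
  subst hz
  have hlast : ∀ (i : Fin (m + 1)) (x y : K), (if i = Fin.last m then x else y) =
      if i.1 + 1 = m + 1 then x else y := by
    intro i x y
    by_cases h1 : i = Fin.last m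
    · rw [if_pos h1, if_pos (by rw [h1]; rfl)]
    · rw [if_neg h1, if_neg]
      intro h2
      apply h1
      apply Fin.ext
      show i.1 = m
      omega
  have hne : Even (m + 1) := hmo.add_one
  have hEH : StmtEH.{u} := H945.EH.stmtEH
  have hEC : StmtEC.{u} := H727.EC.stmtEC
  have hq4 : q % 4 = 1 ∨ q % 4 = 3 := by
    obtain ⟨k, hk⟩ := h.1
    omega
  rcases hq4 with h4 | h4
  · obtain ⟨k, u, hu, hc⟩ := lit_one7 hEH hcn h h4 (n := m + 1) (by omega) hne (SU_le_SZ 2) hσ2 hσ1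
      a ha
    refine ⟨k, u, 1, 1, ?_, SCntd_iff.2 (SCntd_one.2 hc)⟩
    simp only [hlast]
    rw [hu, one_smul]
    exact (mul_one _).symm
  · obtain ⟨u, d, h5, -, h6⟩ := lit_three7 hEH hEC hcn h h4 hq (n := m + 1) (by omega) hne
      (SU_le_SZ 2) hσ2 hσ1 a ha
    refine ⟨0, u, d, 1, ?_, h6⟩
    simp only [pow_zero, ite_self, mul_one]
    rw [h5, one_smul]

end

/-- **`PSU_n(q)`, `n` even, `q ≥ 7` odd**: `n ≥ 6`, or `n = 4` and `8 ∣ q + 1`. -/
theorem locTopF_PSU_even7 {K : Type} [Field K] [Fintype K] [StarRing K] {n q : ℕ} (hcn : EvCnt K)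
    {G : Type v} [Group G] [Finite G] (𝕜 : Type w) [Field 𝕜] (hn : Even n)
    (hn4 : 6 ≤ n ∨ (n = 4 ∧ 8 ∣ q + 1)) (hqo : Odd q) (hq : 7 ≤ q) (hK : Nat.card K = q ^ 2)
    (hs : ∀ x : K, star x = x ^ q) {L : Subgroup G} (e : L ≃* AS.PSU K n) : LocTopF 𝕜 2 L := by
  haveI : Fact (Nat.Prime 2) := ⟨Nat.prime_two⟩
  have hF : Fld K q := ⟨hqo, hK, hs⟩
  by_cases hpn : 2 * n.gcd (q + 1) ∣ q + 1
  · exact locTopF_PSU_even17 𝕜 H945.EH.stmtEH H727.EC.stmtEC hcn (by omega) hn hF hq hpn ⟨e⟩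
  · have hn6 : 6 ≤ n := by
      rcases hn4 with h | ⟨h, h8⟩
      · exact h
      · exfalso
        apply hpn
        subst h
        have h1 : Nat.gcd 4 (q + 1) ∣ 4 := Nat.gcd_dvd_left _ _
        exact (Nat.mul_dvd_mul_left 2 h1).trans h8
    obtain ⟨m, rfl⟩ : ∃ m, n = m + 1 := ⟨n - 1, by omega⟩
    have hmo : Odd m := by
      rcases Nat.even_or_odd m with h | h
      · exact absurd hn (Nat.not_even_iff_odd.2 h.add_one)
      · exact h
    have hN := H613.EI.numD_two (K := K) (n := m + 1) (by omega) hn hqo (by omega) hK hs hpn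
    obtain ⟨ε, hε⟩ := H613.EI.sHom_of (by omega) hK hs hF.two_ne (by omega) L e.symm 2
    exact H938.locTopF_of_C 𝕜 H38.stmtC1 H38.stmtC2 H38.stmtC3 (H275.stmtC4_of H38.stmtC1) hN
      (hI hF (by omega) (by omega) hmo) (hII7 hcn hF (by omega) (by omega) hmo)
      (t_pos (by omega) (by omega) hK hs) (t_pos (by omega) (by omega) hK hs) hε

end

end Vale.Agent.P240.R2.H986.E
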