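import Vale.Agent.P240.R2.H986.EFin2
import Vale.Agent.P240.R2.H938.W10
import Vale.Agent.P240.R2.H275.C45
import Vale.Agent.P240.R2.H38.C2
import Vale.Agent.P240.R2.H487.TF

/-!
**`LocTopF` for `PSU_n(q)`, `n` even, `p = 2`.**
-/

set_option autoImplicit false
set_option linter.all false

namespace Vale.Agent.P240.R2.H986.E

open Matrix Vale.Agent.P240.R2.AS Vale.Agent.P240.R2.H38 Vale.Agent.P240.R2.H487
open scoped Classical

universe u v w

noncomputable section

/-- **`PSU_n(q)`, `n` even, `q ≥ 11` odd**: `n ≥ 6`, or `n = 4` and `8 ∣ q + 1`. -/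
theorem locTopF_PSU_even {K : Type} [Field K] [Fintype K] [StarRing K] {n q : ℕ}
    {G : Type v} [Group G] [Finite G] (𝕜 : Type w) [Field 𝕜] (hn : Even n)
    (hn4 : 6 ≤ n ∨ (n = 4 ∧ 8 ∣ q + 1)) (hqo : Odd q) (hq : 11 ≤ q) (hK : Nat.card K = q ^ 2)
    (hs : ∀ x : K, star x = x ^ q) {L : Subgroup G} (e : L ≃* AS.PSU K n) : LocTopF 𝕜 2 L := by
  haveI : Fact (Nat.Prime 2) := ⟨Nat.prime_two⟩
  have hF : Fld K q := ⟨hqo, hK, hs⟩
  by_cases hpn : 2 * n.gcd (q + 1) ∣ q + 1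
  · exact locTopF_PSU_even1 𝕜 H945.EH.stmtEH H727.EC.stmtEC (by omega) hn hF hq hpn ⟨e⟩
  · have hn6 : 6 ≤ n := by
      rcases hn4 with h | ⟨h, h8⟩
      · exact h
      · exfalso
        apply hpn
        subst h
        have h1 : Nat.gcd 4 (q + 1) ∣ 4 := Nat.gcd_dvd_left _ _
        exact (Nat.mul_dvd_mul_left 2 h1).trans h8
    obtain ⟨m, rfl⟩ : ∃ m, n = m + 1 := ⟨n - 1, by omega⟩
    have hmo : Odd m := by
      rcases Nat.even_or_odd m with h | h
      · exact absurd hn (Nat.not_even_iff_odd.2 h.add_one)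
      · exact h
    have hN := H613.EI.numD_two (K := K) (n := m + 1) (by omega) hn hqo (by omega) hK hs hpn
    obtain ⟨ε, hε⟩ := H613.EI.sHom_of (by omega) hK hs hF.two_ne (by omega) L e.symm 2
    exact H938.locTopF_of_C 𝕜 H38.stmtC1 H38.stmtC2 H38.stmtC3 (H275.stmtC4_of H38.stmtC1) hN
      (hI hF (by omega) (by omega) hmo) (hII hF hq (by omega) hmo)
      (t_pos (by omega) (by omega) hK hs) (t_pos (by omega) (by omega) hK hs) hε

end

end Vale.Agent.P240.R2.H986.E
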