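import Vale.Agent.P240.R2.H986.ES
import Vale.Agent.P240.R2.H986.EInst

/-!
`LocTopF` for `PSU_n(q)`, `n` even, `p = 2`, when the diagonal involutions are inner.
-/

set_option autoImplicit false
set_option linter.all false

namespace Vale.Agent.P240.R2.H986.E

open Matrix Vale.Agent.P240.R2.AS Vale.Agent.P240.R2.H38 Vale.Agent.P240.R2.H487
open scoped Classical

universe u v w

noncomputable section

variable {K : Type u} [Field K] [Fintype K] [StarRing K] {n q : ℕ}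
variable {G : Type v} [Group G]

/-- **`LocTopF` for `PSU_n(q)`**, `p = 2`, `n` even, `2 gcd(n, q+1) ∣ q + 1` -/
theorem locTopF_PSU_even1 [Finite G] (𝕜 : Type w) [Field 𝕜] (hEH : StmtEH.{u}) (hEC : StmtEC.{u})
    (hn : 4 ≤ n) (hne : Even n) (hF : Fld K q) (hq : 11 ≤ q) (hpn : 2 * n.gcd (q + 1) ∣ q + 1)
    {L : Subgroup G} (e : Nonempty (L ≃* AS.PSU K n)) : LocTopF 𝕜 2 L := by
  haveI : Fact (Nat.Prime 2) := ⟨Nat.prime_two⟩
  have hK := hF.2.1
  have hs := hF.2.2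
  obtain ⟨ζ, c, hζ, h1, hz, hc, hcn⟩ := exists_nums (by omega) hK hs Nat.prime_two hpn
  obtain ⟨e⟩ := e
  let ε : H38.SU K n →* G := L.subtype.comp (e.symm.toMonoidHom.comp (toP K n))
  have hr : ε.range = L := by
    ext y
    constructor
    · rintro ⟨g, rfl⟩
      exact (e.symm (toP K n g)).2
    · intro hy
      obtain ⟨g, hg⟩ := toP_surj (e ⟨y, hy⟩)
      refine ⟨g, ?_⟩
      show ((e.symm (toP K n g) : L) : G) = y
      rw [hg, MulEquiv.symm_apply_apply]
  have hker : ∀ g : H38.SU K n, ε g = 1 ↔ ∃ a : K, mx g = a • (1 : Matrix (Fin n) (Fin n) K) := by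
    intro g
    rw [← toP_ker h1 hz g]
    show ((e.symm (toP K n g) : L) : G) = 1 ↔ _
    rw [OneMemClass.coe_eq_one, EmbeddingLike.map_eq_one_iff]
  have hG := sgood_SU (p := 2) (by omega) (by omega) hK hs hζ h1 hz hc hcn
  have hP := phom_SU (p := 2) (by omega) (by omega) hK hs h1 hz hc hcn hr hker
  have hq4 : q % 4 = 3 := by
    have h2 : 2 ∣ n.gcd (q + 1) := Nat.dvd_gcd hne.two_dvd (by
      obtain ⟨m, hm⟩ := hF.1
      exact ⟨m + 1, by omega⟩)
    obtain ⟨m, hm⟩ := h2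
    obtain ⟨r, hr⟩ := hpn
    have h3 : q + 1 = 4 * (m * r) := by rw [hr, hm]; ring
    omega
  refine locTopF_of_PHomD 𝕜 hG ?_ hP (t_pos (by omega) (by omega) hK hs)
  intro σ s1 s2 s3 s4 a ha _
  obtain ⟨u, d, h5, -, h6⟩ := lit_three hEH hEC hF hq4 hq hn hne (le_refl (H38.SU K n)) s2 s3 a ha
  exact ⟨u, d, 1, by rw [one_smul]; exact h5, h6⟩

end

end Vale.Agent.P240.R2.H986.E
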