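import Vale.Agent.P240.R2.H986.EFin1
import Vale.Agent.P240.R2.H938.W9
import Vale.Agent.P240.R2.H727.EC2
import Vale.Agent.P240.R2.H945.EH
import Vale.Agent.P240.R2.H613.EI

/-!
The instances of the hypotheses `HI`, `HII` of helper938's theorem for `p = 2`, `n` even.
-/

set_option autoImplicit false
set_option linter.all false

namespace Vale.Agent.P240.R2.H986.E

open Matrix Vale.Agent.P240.R2.AS Vale.Agent.P240.R2.H38 Vale.Agent.P240.R2.H487
open scoped Classical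

universe u v w

noncomputable section

variable {K : Type u} [Field K] [Fintype K] [StarRing K] {n m q : ℕ}

lemma SCntd_iff {S : Subgroup (GU K n)} {d : GU K n} {σ : K ≃+* K} :
    H938.SCntG S d σ ↔ SCntd S d.1 σ := Iff.rfl

lemma SU_le_SZ (p : ℕ) : H38.SU K n ≤ H938.SZ K n p := by
  intro g hg
  show g.1.det ^ p = 1
  have h : g.1.det = 1 := hg
  rw [h, one_pow]

/-- `HI` -/
theorem hI (h : Fld K q) (hq : 7 ≤ q) (hm : 3 ≤ m) (hmo : Odd m) : H938.HI m 2 K (-1) := by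
  intro σ hσ hσ2 hσ1 _ a ha hprod
  refine ⟨H38.h90_two h.2.1 h.2.2 h.1 hmo σ hσ hσ2 hσ1 a ha hprod, ?_⟩
  exact SCntd_iff.2 (SCntd_one.2 (scnt_odd_dim h hq hm hmo le_top (h.aut hσ2 hσ1)))

/-- `HII` -/
theorem hII (h : Fld K q) (hq : 11 ≤ q) (hm : 3 ≤ m) (hmo : Odd m) : H938.HII m 2 K (-1) := by
  intro σ hσ hσ2 hσ1 _ a ha hprod ζ' hζ' hζ2
  have hz : ζ' = -1 := by
    have h1 : (ζ' - 1) * (ζ' + 1) = 0 := by linear_combination hζ2
    rcases mul_eq_zero.1 h1 with h2 | h2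
    · exact absurd (sub_eq_zero.1 h2) hζ'
    · exact eq_neg_of_add_eq_zero_left h2
  subst hz
  have hlast : ∀ (i : Fin (m + 1)) (x y : K), (if i = Fin.last m then x else y) =
      if i.1 + 1 = m + 1 then x else y := by
    intro i x y
    by_cases h1 : i = Fin.last m
    · rw [if_pos h1, if_pos (by rw [h1]; rfl)]
    · rw [if_neg h1, if_neg]
      intro h2
      apply h1
      apply Fin.ext
      show i.1 = m
      omega
  have hne : Even (m + 1) := hmo.add_one
  have hEH : StmtEH.{u} := H945.EH.stmtEH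
  have hEC : StmtEC.{u} := H727.EC.stmtEC
  have hq4 : q % 4 = 1 ∨ q % 4 = 3 := by
    obtain ⟨k, hk⟩ := h.1
    omega
  rcases hq4 with h4 | h4
  · obtain ⟨k, u, hu, hc⟩ := lit_one hEH h h4 hq (n := m + 1) (by omega) (SU_le_SZ 2) hσ2 hσ1 a ha
    refine ⟨k, u, 1, 1, ?_, SCntd_iff.2 (SCntd_one.2 hc)⟩
    simp only [hlast]
    rw [hu, one_smul]
    exact (mul_one _).symm
  · obtain ⟨u, d, h5, -, h6⟩ := lit_three hEH hEC h h4 hq (n := m + 1) (by omega) hne (SU_le_SZ 2)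
      hσ2 hσ1 a ha
    refine ⟨0, u, d, 1, ?_, h6⟩
    simp only [pow_zero, ite_self, mul_one]
    rw [h5, one_smul]

end

end Vale.Agent.P240.R2.H986.E
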