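import Vale.Agent.P240.R2.H986.EDefs
import Vale.Agent.P240.R2.H38.V7

/-!
The count for a subgroup gives the count for the larger ones.
-/

set_option autoImplicit false
set_option linter.all false

namespace Vale.Agent.P240.R2.H986.E

open Matrix Vale.Agent.P240.R2.AS Vale.Agent.P240.R2.H38 Vale.Agent.P240.R2.H487
open scoped Classical

universe u v w

noncomputable section

variable {K : Type u} [Field K] [Fintype K] [StarRing K] {n : ℕ}

/-- the elements that commute with `h ↦ d σ(h) d⁻¹` modulo scalars -/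
def Cd (d : GU K n) (σ : K ≃+* K) (hσ : ∀ a, σ (star a) = star (σ a)) : Subgroup (GU K n) where
  carrier := {h | ∃ a : K, d.1 * h.1.map σ * star d.1 = a • h.1}
  mul_mem' := by
    rintro g h ⟨a, ha⟩ ⟨b, hb⟩
    refine ⟨a * b, ?_⟩
    calc d.1 * (g * h : GU K n).1.map σ * star d.1
        = d.1 * (g.1.map σ * h.1.map σ) * star d.1 := by rw [gu_mul, map_mul_mat]
      _ = (d.1 * g.1.map σ * star d.1) * (d.1 * h.1.map σ * star d.1) := by
          rw [conj_mul_conj]
      _ = _ := by rw [ha, hb, smul_mul_smul_comm, gu_mul]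
  one_mem' := ⟨1, by
    have e1 : ((1 : GU K n) : Matrix (Fin n) (Fin n) K) = 1 := rfl
    show d.1 * ((1 : GU K n) : Matrix (Fin n) (Fin n) K).map σ * star d.1 = _
    rw [e1, map_one_mat, mul_one, gu_star, one_smul]⟩
  inv_mem' := by
    rintro g ⟨a, ha⟩
    refine ⟨star a, ?_⟩
    have h1 := congrArg star ha
    rw [star_mul, star_mul, star_star, star_smul, ← map_star_mat hσ, ← mul_assoc] at h1
    exact h1

lemma card_Cd (d : GU K n) (σ : K ≃+* K) (hσ : ∀ a, σ (star a) = star (σ a))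
    (S : Subgroup (GU K n)) :
    Nat.card {h : S // ∃ a : K, d.1 * (mx h).map σ * star d.1 = a • mx h} =
      Nat.card (Cd d σ hσ ⊓ S : Subgroup (GU K n)) := by
  refine Nat.card_congr ⟨fun h => ⟨h.1.1, h.2, h.1.2⟩, fun h => ⟨⟨h.1, h.2.2⟩, h.2.1⟩, ?_, ?_⟩
  · intro h; rfl
  · intro h; rfl

/-- the count for larger groups -/
theorem SCntd.mono {T S : Subgroup (GU K n)} (hTS : T ≤ S) (hT : S ≤ Subgroup.normalizer (T : Set (GU K n)))
    {d : GU K n} {σ : K ≃+* K} (hσ : ∀ a, σ (star a) = star (σ a)) (h : SCntd T d.1 σ) :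
    SCntd S d.1 σ := by
  haveI : Finite (Matrix (Fin n) (Fin n) K) := inferInstanceAs (Finite (Fin n → Fin n → K))
  haveI : Finite (GU K n) := Subtype.finite
  obtain ⟨F, h1, h2, h3, h4⟩ := h
  refine ⟨F, h1, h2, h3, ?_⟩
  rw [card_Cd d σ hσ] at h4 ⊢
  have h5 := H275.card_sup_mul (A := (Cd d σ hσ ⊓ S : Subgroup (GU K n))) (N := T) (inf_le_right.trans hT)
  have h6 : Nat.card ((Cd d σ hσ ⊓ S) ⊔ T : Subgroup (GU K n)) ≤ Nat.card S :=
    Nat.card_le_card_of_injective (Subgroup.inclusion (sup_le inf_le_right hTS))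
      (Subgroup.inclusion_injective _)
  have h7 : (Cd d σ hσ ⊓ S) ⊓ T = Cd d σ hσ ⊓ T := by
    rw [inf_assoc, inf_eq_right.2 hTS]
  rw [h7] at h5
  have hT0 : 0 < Nat.card T := Nat.card_pos
  have hS0 : 0 < Nat.card S := Nat.card_pos
  refine lt_of_mul_lt_mul_right (a := Nat.card T) ?_ (Nat.zero_le _)
  calc (Fr K n).card * Nat.card (Cd d σ hσ ⊓ S : Subgroup (GU K n)) * Nat.card T
      = (Fr K n).card * (Nat.card ((Cd d σ hσ ⊓ S) ⊔ T : Subgroup (GU K n)) *
          Nat.card (Cd d σ hσ ⊓ T : Subgroup (GU K n))) := by rw [mul_assoc, h5]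
    _ ≤ (Fr K n).card * (Nat.card S * Nat.card (Cd d σ hσ ⊓ T : Subgroup (GU K n))) :=
        Nat.mul_le_mul_left _ (Nat.mul_le_mul_right _ h6)
    _ = ((Fr K n).card * Nat.card (Cd d σ hσ ⊓ T : Subgroup (GU K n))) * Nat.card S := by ring
    _ < (n * (Nat.card T * AS.t F)) * Nat.card S := Nat.mul_lt_mul_of_pos_right h4 hS0
    _ = n * (Nat.card S * AS.t F) * Nat.card T := by ring

omit [Fintype K] in
lemma SU_normal : (H38.SU K n).Normal := by
  refine ⟨fun g hg u => ?_⟩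
  show (u * g * u⁻¹ : GU K n).1.det = 1
  have hg' : g.1.det = 1 := hg
  rw [gu_mul, gu_mul, gu_inv, det_mul, det_mul, hg', mul_one, ← det_mul, gu_star, det_one]

/-- from `SU` to larger groups -/
theorem SCntd.of_SU {S : Subgroup (GU K n)} (hS : H38.SU K n ≤ S)
    {d : GU K n} {σ : K ≃+* K} (hσ : ∀ a, σ (star a) = star (σ a)) (h : SCntd (H38.SU K n) d.1 σ) :
    SCntd S d.1 σ := by
  haveI := SU_normal (K := K) (n := n)
  refine h.mono hS ?_ hσ
  rw [Subgroup.normalizer_eq_top]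
  exact le_top

lemma SCntd_one {S : Subgroup (GU K n)} {σ : K ≃+* K} :
    SCntd S ((1 : GU K n) : Matrix (Fin n) (Fin n) K) σ ↔ SCntN S σ := by
  have e1 : ((1 : GU K n) : Matrix (Fin n) (Fin n) K) = 1 := rfl
  unfold SCntd SCntN
  simp only [e1, one_mul, mul_one, star_one]

/-- from `SU` to larger groups -/
theorem SCntN.of_SU {S : Subgroup (GU K n)} (hS : H38.SU K n ≤ S) {σ : K ≃+* K}
    (hσ : ∀ a, σ (star a) = star (σ a)) (h : SCntN (H38.SU K n) σ) : SCntN S σ :=
  SCntd_one.1 (SCntd.of_SU hS hσ (SCntd_one.2 h))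

end

end Vale.Agent.P240.R2.H986.E
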