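import Vale.Agent.P240.R2.H986.EMono

/-!
The group of norm one elements and its squares.
-/

set_option autoImplicit false
set_option linter.all false

namespace Vale.Agent.P240.R2.H986.E

open Matrix Vale.Agent.P240.R2.AS Vale.Agent.P240.R2.H38 Vale.Agent.P240.R2.H487
open scoped Classical

universe u v w

noncomputable section

variable {K : Type u} [Field K] [Fintype K] [StarRing K] {n q : ℕ}

/-- the norm one elements -/
def N1 (K : Type u) [Field K] [Fintype K] [StarRing K] : Finset K :=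
  Finset.univ.filter fun x => x * star x = 1

lemma mem_N1 {x : K} : x ∈ N1 K ↔ x * star x = 1 := by simp [N1]

lemma N1_mul {x y : K} (hx : x ∈ N1 K) (hy : y ∈ N1 K) : x * y ∈ N1 K := by
  rw [mem_N1] at *
  rw [star_mul', mul_mul_mul_comm, hx, hy, one_mul]

lemma N1_star {x : K} (hx : x ∈ N1 K) : star x ∈ N1 K := by
  rw [mem_N1] at *
  rw [star_star, mul_comm, hx]

lemma card_sq_le (c : K) (hc : c ∈ N1 K) :
    (N1 K).card ≤ 2 * ((N1 K).image fun x => x * x * c).card := by
  refine Finset.card_le_mul_card_image _ 2 fun a ha => ?_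
  obtain ⟨y, hy, rfl⟩ := Finset.mem_image.1 ha
  refine (Finset.card_le_card (t := {y, -y}) ?_).trans Finset.card_le_two
  intro x hx
  obtain ⟨hx1, hx2⟩ := Finset.mem_filter.1 hx
  have hc0 : c ≠ 0 := left_ne_zero_of_mul_eq_one (mem_N1.1 hc)
  have h1 : x * x = y * y := mul_right_cancel₀ hc0 hx2
  have h2 : (x - y) * (x + y) = 0 := by linear_combination h1
  rw [Finset.mem_insert, Finset.mem_singleton]
  rcases mul_eq_zero.1 h2 with h3 | h3
  · exact Or.inl (sub_eq_zero.1 h3)
  · exact Or.inr (eq_neg_of_add_eq_zero_left h3)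

/-- the two classes -/
theorem NSq.cases {α : K} (hα : NSq α) {P : K} (hP : P * star P = 1) :
    (∃ x : K, x * star x = 1 ∧ P = x * x) ∨ (∃ x : K, x * star x = 1 ∧ P = x * x * α) := by
  have hα1 : α ∈ N1 K := mem_N1.2 hα.1
  have h1 := card_sq_le (K := K) 1 (mem_N1.2 (by rw [star_one, one_mul]))
  have h2 := card_sq_le (K := K) α hα1
  set A := (N1 K).image fun x => x * x * 1 with hA
  set B := (N1 K).image fun x => x * x * α with hB
  have hd : Disjoint A B := by
    rw [Finset.disjoint_left]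
    intro z hz hz'
    obtain ⟨x, hx, rfl⟩ := Finset.mem_image.1 hz
    obtain ⟨y, hy, h3⟩ := Finset.mem_image.1 hz'
    have hy1 := mem_N1.1 hy
    refine hα.2 (x * star y) (mem_N1.1 (N1_mul hx (N1_star hy))) ?_
    have h3' : y * y * α = x * x * 1 := h3
    calc x * star y * (x * star y) = (x * x * 1) * (star y * star y) := by ring
      _ = (y * y * α) * (star y * star y) := by rw [h3']
      _ = (y * star y) * (y * star y) * α := by ring
      _ = α := by rw [hy1, one_mul, one_mul]
  have hsub : A ∪ B ⊆ N1 K := by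
    intro z hz
    rcases Finset.mem_union.1 hz with h | h
    · obtain ⟨x, hx, rfl⟩ := Finset.mem_image.1 h
      show x * x * 1 ∈ N1 K
      rw [mul_one]
      exact N1_mul hx hx
    · obtain ⟨x, hx, rfl⟩ := Finset.mem_image.1 h
      exact N1_mul (N1_mul hx hx) hα1
  have hcard : (A ∪ B).card = A.card + B.card := Finset.card_union_of_disjoint hd
  have heq : A ∪ B = N1 K := Finset.eq_of_subset_of_card_le hsub (by omega)
  have hP' : P ∈ A ∪ B := by rw [heq]; exact mem_N1.2 hP
  rcases Finset.mem_union.1 hP' with h | h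
  · obtain ⟨x, hx, h3⟩ := Finset.mem_image.1 h
    exact Or.inl ⟨x, mem_N1.1 hx, by rw [← h3]; exact mul_one _⟩
  · obtain ⟨x, hx, h3⟩ := Finset.mem_image.1 h
    exact Or.inr ⟨x, mem_N1.1 hx, h3.symm⟩

/-- there is a nonsquare -/
theorem exists_NSq (h2 : (2 : K) ≠ 0) : ∃ α : K, NSq α := by
  by_contra hcon
  push Not at hcon
  have hsq : ∀ α ∈ N1 K, ∃ x ∈ N1 K, x * x = α := by
    intro α hα
    by_contra hc
    push Not at hc
    exact hcon α ⟨mem_N1.1 hα, fun x hx => hc x (mem_N1.2 hx)⟩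
  have h1 : (1 : K) ∈ N1 K := mem_N1.2 (by rw [star_one, one_mul])
  have h1' : (-1 : K) ∈ N1 K := mem_N1.2 (by rw [star_neg, star_one]; ring)
  have hinj : Set.InjOn (fun x : K => x * x) (N1 K : Set K) := by
    refine Finset.injOn_of_surjOn_of_card_le (t := N1 K) _ (fun x hx => N1_mul hx hx) ?_ le_rfl
    intro α hα
    obtain ⟨x, hx, h⟩ := hsq α hα
    exact ⟨x, hx, h⟩
  have h3 : (1 : K) = -1 := hinj h1 h1' (by ring)
  apply h2
  linear_combination h3

/-- `-1` is not a square if `4` does not divide `q + 1` -/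
theorem NSq_neg (h2 : (2 : K) ≠ 0) (hs : ∀ x : K, star x = x ^ q) (hq : q % 4 = 1) :
    NSq (-1 : K) := by
  refine ⟨by rw [star_neg, star_one]; ring, fun x hx h => ?_⟩
  have h3 : x ^ (q + 1) = 1 := by rw [pow_succ', ← hs, hx]
  obtain ⟨m, hm⟩ : ∃ m, q + 1 = 2 * (2 * m + 1) := ⟨q / 4, by omega⟩
  rw [hm, pow_mul, pow_two, h, Odd.neg_one_pow ⟨m, rfl⟩] at h3
  apply h2
  linear_combination -h3

lemma Fld.two_ne (h : Fld K q) : (2 : K) ≠ 0 := by
  intro h2
  apply H986.St.two_ne h.1 h.2.1 h.2.2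
  apply (H986.St.toK K).injective
  rw [map_ofNat, map_zero, h2]

end

end Vale.Agent.P240.R2.H986.E
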