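import Vale.Agent.P240.R2.H986.B6
import Vale.Agent.P240.R2.H195.RelCyc
import Vale.Agent.P240.R2.H275.M4c2
import Vale.Agent.P240.R2.H281.B1
import Vale.Agent.P240.R2.H387.M2
import Vale.Agent.P240.R2.H727.M4
import Vale.Agent.P240.R2.H938.M6

/-!
`p = 2`: everything except the conjugacy of the involutions (`StmtB5`).
-/

set_option autoImplicit false

namespace Vale.Agent.P240.R2.H986.B7

open Vale.Agent.P240.R2.AS

universe u v

theorem stmtM6 : StmtM6.{u, v} := H938.stmtM6 H387.stmtM2 H727.stmtM4 H275.stmtM4c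

theorem stmtB7r_thm : StmtB7r.{u} := stmtB7r H275.stmtM4c H281.stmtB1 stmtB6

theorem stmtB8r (hB5 : StmtB5.{u}) : StmtB8r.{u, v} :=
  stmtB8r_of H727.stmtM4 stmtM6 hB5 stmtB6 stmtB7r_thm H195.stmtCYC

end Vale.Agent.P240.R2.H986.B7
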