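import Mathlib

/-!
P240, Aschbacher-Smith unitary conjecture (helper63, progress row 2146), part (c):
UPPER BOUND for the space of functions on the orderings of a finite set which are killed by all
`u β(g) v`, `|g| = n` (`β` = iterated super commutator of letters).
-/

set_option autoImplicit false
set_option linter.all false

namespace Vale.Agent.P240.R2.H986

open Finset

universe w w'

variable {L : Type w} {K : Type w'} [Field K]

/-- `z(u β(g) v)`, where `β(l) = l`, `β(l, g) = l β(g) + (-1)^(|g|+1) β(g) l`;
the value at `g = []` is `0` -/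
def ev (z : List L → K) : List L → List L → List L → K
  | [], _, _ => 0
  | [l], u, v => z (u ++ l :: v)
  | l :: m :: M, u, v =>
      ev z (m :: M) (u ++ [l]) v + (-1) ^ ((m :: M).length + 1) * ev z (m :: M) u (l :: v)

lemma ev_nil (z : List L → K) (u v : List L) : ev z [] u v = 0 := by
  unfold ev; rfl

lemma ev_single (z : List L → K) (l : L) (u v : List L) : ev z [l] u v = z (u ++ l :: v) := by
  unfold ev; rfl

lemma ev_cons (z : List L → K) (l : L) {g : List L} (hg : g ≠ []) (u v : List L) :
    ev z (l :: g) u v = ev z g (u ++ [l]) v + (-1) ^ (g.length + 1) * ev z g u (l :: v) := by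
  obtain ⟨m, M, rfl⟩ := List.exists_cons_of_ne_nil hg
  conv_lhs => unfold ev

lemma ev_add (z z' : List L → K) (g : List L) : ∀ u v,
    ev (z + z') g u v = ev z g u v + ev z' g u v := by
  induction g with
  | nil => intro u v; simp [ev_nil]
  | cons l g ih =>
    intro u v
    rcases g.eq_nil_or_concat' with rfl | h
    · simp [ev_single]
    · have hg : g ≠ [] := by rcases h with ⟨a, b, rfl⟩; simp
      rw [ev_cons _ _ hg, ev_cons _ _ hg, ev_cons _ _ hg, ih, ih]
      ring

lemma ev_smul (c : K) (z : List L → K) (g : List L) : ∀ u v,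
    ev (c • z) g u v = c * ev z g u v := by
  induction g with
  | nil => intro u v; simp [ev_nil]
  | cons l g ih =>
    intro u v
    rcases g.eq_nil_or_concat' with rfl | h
    · simp [ev_single]
    · have hg : g ≠ [] := by rcases h with ⟨a, b, rfl⟩; simp
      rw [ev_cons _ _ hg, ev_cons _ _ hg, ih, ih]
      ring

lemma ev_zero (g u v : List L) : ev (0 : List L → K) g u v = 0 := by
  have := ev_smul (0 : K) (0 : List L → K) g u v
  simpa using this

/-- shift of the prefix -/
lemma ev_shift (z : List L → K) (l : L) (g : List L) : ∀ u v,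
    ev (fun w => z (l :: w)) g u v = ev z g (l :: u) v := by
  induction g with
  | nil => intro u v; simp [ev_nil]
  | cons a g ih =>
    intro u v
    rcases g.eq_nil_or_concat' with rfl | h
    · simp [ev_single]
    · have hg : g ≠ [] := by rcases h with ⟨a, b, rfl⟩; simp
      rw [ev_cons _ _ hg, ev_cons _ _ hg, ih, ih]
      simp

/-- only the words which are permutations of `u ++ g ++ v` matter -/
lemma ev_congr {z z' : List L → K} (g : List L) : ∀ u v,
    (∀ w : List L, w.Perm (u ++ (g ++ v)) → z w = z' w) → ev z g u v = ev z' g u v := by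
  induction g with
  | nil => intro u v _; simp [ev_nil]
  | cons a g ih =>
    intro u v h
    rcases g.eq_nil_or_concat' with rfl | hh
    · rw [ev_single, ev_single]
      exact h _ (by simp)
    · have hg : g ≠ [] := by rcases hh with ⟨a, b, rfl⟩; simp
      rw [ev_cons _ _ hg, ev_cons _ _ hg, ih, ih]
      · intro w hw
        refine h w (hw.trans (List.Perm.append_left _ ?_))
        rw [List.cons_append]
        exact List.perm_middle
      · intro w hw
        refine h w (hw.trans ?_)
        simp

/-- if `z` vanishes on all the permutations of the letters, so does `ev` -/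
lemma ev_eq_zero {z : List L → K} (g u v : List L)
    (h : ∀ w : List L, w.Perm (u ++ (g ++ v)) → z w = 0) : ev z g u v = 0 := by
  rw [ev_congr g u v (z' := 0) (by simpa using h), ev_zero]

/-- longer brackets -/
lemma ev_long {z : List L → K} {n : ℕ} (hn : 1 ≤ n)
    (h : ∀ g u v : List L, g.length = n → ev z g u v = 0) :
    ∀ (m : ℕ) (g u v : List L), g.length = n + m → ev z g u v = 0 := by
  intro m
  induction m with
  | zero => intro g u v hg; exact h g u v (by simpa using hg)
  | succ m ih =>
    intro g u v hg
    obtain ⟨a, g', rfl⟩ : ∃ a g', g = a :: g' := by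
      cases g with
      | nil => simp at hg
      | cons a g' => exact ⟨a, g', rfl⟩
    have hl : g'.length = n + m := by simp at hg; omega
    have hg' : g' ≠ [] := by
      rintro rfl
      simp at hl
      omega
    rw [ev_cons _ _ hg', ih _ _ _ hl, ih _ _ _ hl]
    simp

/-- `z` is determined by the brackets `β(b, s)` at the beginning, `|b| + 1 < n` -/
lemma ev_det {z : List L → K} {n : ℕ} (hn : 1 ≤ n) (s : L)
    (h : ∀ g u v : List L, g.length = n → ev z g u v = 0)
    (h0 : ∀ b w : List L, b.length + 1 < n → ev z (b ++ [s]) [] w = 0) :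
    ∀ p b w : List L, ev z (b ++ [s]) p w = 0 := by
  intro p
  induction p using List.reverseRecOn with
  | nil =>
    intro b w
    rcases lt_or_ge (b.length + 1) n with hb | hb
    · exact h0 b w hb
    · exact ev_long hn h (b.length + 1 - n) _ _ _ (by simp; omega)
  | append_singleton p a ih =>
    intro b w
    have h1 := ev_cons z a (g := b ++ [s]) (by simp) p w
    have h2 := ih (a :: b) w
    have h3 := ih b (a :: w)
    rw [List.cons_append] at h2
    rw [h2, h3] at h1
    simpa using h1.symm

/-- brackets of brackets -/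
lemma ev_ev {z : List L → K} {n : ℕ}
    (h : ∀ g u v : List L, g.length = n → ev z g u v = 0) (g v : List L) (hg : g.length = n)
    (b : List L) : ∀ p u : List L, ev (fun w => ev z b p w) g u v = 0 := by
  induction b with
  | nil =>
    intro p u
    have : (fun w => ev z [] p w) = 0 := by ext w; simp [ev_nil]
    rw [this, ev_zero]
  | cons l b ih =>
    intro p u
    rcases b.eq_nil_or_concat' with rfl | hh
    · have h1 : (fun w => ev z [l] p w) = fun w => z (p ++ l :: w) := by
        ext w; rw [ev_single]
      rw [h1]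
      clear h1 ih
      have h2 : ∀ (q : List L) (y : List L → K) (u' : List L),
          ev (fun w => y (q ++ w)) g u' v = ev y g (q ++ u') v := by
        intro q
        induction q with
        | nil => intro y u'; simp
        | cons a q ih =>
          intro y u'
          have h4 := ih (fun w => y (a :: w)) u'
          show ev (fun w => y (a :: (q ++ w))) g u' v = ev y g (a :: (q ++ u')) v
          rw [← ev_shift]
          exact h4
      have h3 := h2 (p ++ [l]) z u
      simp only [List.append_assoc, List.singleton_append] at h3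
      rw [h3]
      exact h _ _ _ hg
    · have hb : b ≠ [] := by rcases hh with ⟨a, b, rfl⟩; simp
      have h1 : (fun w => ev z (l :: b) p w) =
          (fun w => ev z b (p ++ [l]) w) +
            ((-1 : K) ^ (b.length + 1)) • (fun w => ev z b p (l :: w)) := by
        ext w
        rw [ev_cons _ _ hb]
        simp
      rw [h1, ev_add, ev_smul, ih]
      have h2 : ev (fun w => ev z b p (l :: w)) g u v = ev (fun w => ev z b p w) g (l :: u) v :=
        ev_shift (fun w => ev z b p w) l g u v
      rw [h2, ih]
      simp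

/-- the orderings of a finite set -/
def IsOrd (f : Finset L) (w : List L) : Prop := (w : Multiset L) = f.val

/-- functions on the orderings of `f` killed by all the brackets of length `n` -/
def R (n : ℕ) (f : Finset L) : Submodule K (List L → K) where
  carrier := {z | (∀ w, ¬ IsOrd f w → z w = 0) ∧
    ∀ g u v : List L, g.length = n → ev z g u v = 0}
  add_mem' := by
    rintro a b ⟨ha, ha'⟩ ⟨hb, hb'⟩
    refine ⟨fun w hw => ?_, fun g u v hg => ?_⟩
    · simp [ha w hw, hb w hw]
    · rw [ev_add, ha' g u v hg, hb' g u v hg, add_zero]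
  zero_mem' := ⟨fun w _ => rfl, fun g u v _ => ev_zero g u v⟩
  smul_mem' := by
    rintro c a ⟨ha, ha'⟩
    refine ⟨fun w hw => ?_, fun g u v hg => ?_⟩
    · simp [ha w hw]
    · rw [ev_smul, ha' g u v hg, mul_zero]

/-- `c_k`: `c_0 = 1`, `c_{k+1} = Σ_{j < n-1} k (k-1) .. (k-j+1) c_{k-j}` -/
def c (n : ℕ) : ℕ → ℕ
  | 0 => 1
  | k + 1 => ∑ j ∈ (Finset.range (n - 1)).attach, k.descFactorial j.1 * c n (k - j.1)

lemma c_zero (n : ℕ) : c n 0 = 1 := by unfold c; rfl

lemma c_succ (n k : ℕ) : c n (k + 1) = ∑ j ∈ Finset.range (n - 1), k.descFactorial j * c n (k - j) := by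
  conv_lhs => unfold c
  exact Finset.sum_attach (Finset.range (n - 1)) (fun j => k.descFactorial j * c n (k - j))


noncomputable section bound

open Classical

lemma isOrd_length {f : Finset L} {w : List L} (h : IsOrd f w) : w.length = f.card := by
  have := congrArg Multiset.card h
  simpa using this

lemma isOrd_nodup {f : Finset L} {w : List L} (h : IsOrd f w) : w.Nodup := by
  have := f.nodup
  rw [← h] at this
  simpa using this

lemma isOrd_mem {f : Finset L} {w : List L} (h : IsOrd f w) (a : L) : a ∈ w ↔ a ∈ f := by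
  have : a ∈ (w : Multiset L) ↔ a ∈ f.val := by rw [h]
  simpa using this

lemma isOrd_perm {f : Finset L} {w w' : List L} (h : w.Perm w') : IsOrd f w ↔ IsOrd f w' := by
  unfold IsOrd
  rw [Multiset.coe_eq_coe.2 h]

lemma finite_isOrd (f : Finset L) : {w : List L | IsOrd f w}.Finite := by
  have : {w : List L | IsOrd f w} = {w | w ∈ f.toList.permutations} := by
    ext w
    simp only [Set.mem_setOf_eq, List.mem_permutations]
    unfold IsOrd
    rw [← Multiset.coe_eq_coe, Finset.coe_toList]
  rw [this]
  exact List.finite_toSet _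

/-- functions supported in a finite set of lists are a finite-dimensional space -/
lemma finite_of_support {V : Submodule K (List L → K)} {s : Set (List L)} (hs : s.Finite)
    (h : ∀ z ∈ V, ∀ w, w ∉ s → z w = 0) : FiniteDimensional K V := by
  haveI : Fintype s := hs.fintype
  let φ : V →ₗ[K] (s → K) := (LinearMap.funLeft K K (Subtype.val : s → List L)).comp V.subtype
  refine FiniteDimensional.of_injective φ ?_
  rintro ⟨z, hz⟩ ⟨z', hz'⟩ h1
  ext w
  by_cases hw : w ∈ s
  · exact congrFun h1 ⟨w, hw⟩
  · simp [h z hz w hw, h z' hz' w hw]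

instance (n : ℕ) (f : Finset L) : FiniteDimensional K (R (K := K) n f) :=
  finite_of_support (finite_isOrd f) fun z hz w hw => hz.1 w hw

/-- the index set: ordered subsets `b` of `f - s` with `|b| + 1 < n` -/
abbrev Idx (n : ℕ) (f : Finset L) (s : L) : Type w :=
  Σ j : Fin (n - 1), (Fin j.1 ↪ {x // x ∈ f.erase s})

/-- the word `b` -/
def wd {n : ℕ} {f : Finset L} {s : L} (i : Idx n f s) : List L :=
  List.ofFn fun j => (i.2 j).1

/-- the rest `f - s - b` -/
def rest {n : ℕ} {f : Finset L} {s : L} (i : Idx n f s) : Finset L :=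
  (f.erase s) \ (wd i).toFinset

lemma wd_nodup {n : ℕ} {f : Finset L} {s : L} (i : Idx n f s) : (wd i).Nodup := by
  unfold wd
  rw [List.nodup_ofFn]
  intro a b h
  exact i.2.injective (Subtype.ext h)

lemma wd_sub {n : ℕ} {f : Finset L} {s : L} (i : Idx n f s) : (wd i).toFinset ⊆ f.erase s := by
  intro a ha
  unfold wd at ha
  rw [List.mem_toFinset, List.mem_ofFn] at ha
  obtain ⟨j, rfl⟩ := ha
  exact (i.2 j).2

lemma wd_length {n : ℕ} {f : Finset L} {s : L} (i : Idx n f s) : (wd i).length = i.1.1 := by
  unfold wd
  simp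

lemma card_rest {n : ℕ} {f : Finset L} {s : L} (hs : s ∈ f) (i : Idx n f s) :
    (rest i).card = f.card - 1 - i.1.1 := by
  unfold rest
  rw [Finset.card_sdiff_of_subset (wd_sub i), List.toFinset_card_of_nodup (wd_nodup i), wd_length,
    Finset.card_erase_of_mem hs]

/-- words `b s w` -/
lemma isOrd_rest {n : ℕ} {f : Finset L} {s : L} (hs : s ∈ f) (i : Idx n f s) (w : List L) :
    IsOrd f (wd i ++ s :: w) ↔ IsOrd (rest i) w := by
  unfold IsOrd rest
  rw [← Multiset.coe_add, ← Multiset.cons_coe]
  have h1 : f.val = s ::ₘ (f.erase s).val := by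
    rw [Finset.erase_val]
    exact (Multiset.cons_erase hs).symm
  have h2 : (f.erase s).val = (wd i : Multiset L) + ((f.erase s) \ (wd i).toFinset).val := by
    rw [Finset.sdiff_val, List.toFinset_val, List.dedup_eq_self.2 (wd_nodup i)]
    refine (add_tsub_cancel_of_le ?_).symm
    have := Finset.val_le_iff.2 (wd_sub i)
    rwa [List.toFinset_val, List.dedup_eq_self.2 (wd_nodup i)] at this
  rw [h1, h2]
  constructor
  · intro h
    have h3 : s ::ₘ ((wd i : Multiset L) + (w : Multiset L)) =
        s ::ₘ ((wd i : Multiset L) + ((f.erase s) \ (wd i).toFinset).val) := by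
      rw [← h]
      exact (Multiset.add_cons _ _ _).symm
    exact add_left_cancel (Multiset.cons_inj_right s |>.1 h3)
  · intro h
    rw [h, Multiset.add_cons]


/-- the restriction map to the beginning `β(b, s)` -/
def Phi {n : ℕ} {f : Finset L} {s : L} (hs : s ∈ f) (i : Idx n f s) :
    R (K := K) n f →ₗ[K] R (K := K) n (rest i) where
  toFun z := ⟨fun w => ev z.1 (wd i ++ [s]) [] w, by
    refine ⟨fun w hw => ?_, fun g u v hg => ?_⟩
    · apply ev_eq_zero
      intro w' hw'
      apply z.2.1
      intro h
      apply hw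
      rw [← isOrd_rest hs i w]
      have h1 : w'.Perm (wd i ++ s :: w) := by simpa using hw'
      exact (isOrd_perm h1).1 h
    · exact ev_ev z.2.2 g v hg (wd i ++ [s]) [] u⟩
  map_add' a b := by
    ext w
    exact ev_add _ _ _ _ _
  map_smul' c a := by
    ext w
    exact ev_smul _ _ _ _ _


/-- a word `b` (with `b s w` an ordering of `f`) is `wd i` for some index -/
lemma exists_idx {n : ℕ} {f : Finset L} {s : L} {b w : List L} (h : IsOrd f (b ++ s :: w))
    (hb : b.length + 1 < n) : ∃ i : Idx n f s, wd i = b := by
  have hnd := isOrd_nodup h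
  have hmem : ∀ j : Fin b.length, b.get j ∈ f.erase s := by
    intro j
    have h1 : b.get j ∈ b := List.get_mem b j
    rw [Finset.mem_erase]
    constructor
    · rintro h2
      rw [List.nodup_append] at hnd
      exact hnd.2.2 _ h1 s (by simp) h2
    · rw [← isOrd_mem h]
      simp [h1]
  have hnd' : b.Nodup := (List.nodup_append.1 hnd).1
  refine ⟨⟨⟨b.length, by omega⟩, ⟨fun j => ⟨b.get j, hmem j⟩, ?_⟩⟩, ?_⟩
  · intro j j' hj
    have := Subtype.ext_iff.1 hj
    exact (List.nodup_iff_injective_get.1 hnd') this
  · unfold wd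
    simp

lemma Phi_inj {n : ℕ} (hn : 1 ≤ n) {f : Finset L} {s : L} (hs : s ∈ f) :
    Function.Injective (LinearMap.pi fun i : Idx n f s => Phi (K := K) hs i) := by
  rw [injective_iff_map_eq_zero]
  intro z hz
  have h0 : ∀ b w : List L, b.length + 1 < n → ev z.1 (b ++ [s]) [] w = 0 := by
    intro b w hb
    by_cases h : IsOrd f (b ++ s :: w)
    · obtain ⟨i, rfl⟩ := exists_idx h hb
      have h1 := congrFun hz i
      have h2 := congrFun (Subtype.ext_iff.1 h1) w
      exact h2
    · apply ev_eq_zero
      intro w' hw'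
      apply z.2.1
      intro h'
      apply h
      have h1 : w'.Perm (b ++ s :: w) := by simpa using hw'
      exact (isOrd_perm h1).1 h'
  have h1 := ev_det hn s z.2.2 h0
  ext w
  show z.1 w = 0
  by_cases hw : IsOrd f w
  · have hsw : s ∈ w := (isOrd_mem hw s).2 hs
    obtain ⟨p, q, rfl⟩ := List.append_of_mem hsw
    have h2 := h1 p [] q
    simpa [ev_single] using h2
  · exact z.2.1 w hw

/-- **the upper bound** `dim R_f ≤ c_k`, `k = |f|` -/
theorem finrank_R_le {n : ℕ} (hn : 1 ≤ n) : ∀ (k : ℕ) (f : Finset L), f.card = k →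
    Module.finrank K (R (K := K) n f) ≤ c n k := by
  intro k
  induction k using Nat.strong_induction_on with
  | _ k ih =>
    intro f hf
    rcases Nat.eq_zero_or_pos k with rfl | hk
    · rw [c_zero]
      have h1 : f = ∅ := Finset.card_eq_zero.1 hf
      -- functions on one word
      let φ : R (K := K) n f →ₗ[K] K :=
        (LinearMap.proj (R := K) (φ := fun _ : List L => K) ([] : List L)).comp
          (R (K := K) n f).subtype
      have hφ : Function.Injective φ := by
        rw [injective_iff_map_eq_zero]
        intro z hz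
        ext w
        show z.1 w = 0
        by_cases hw : IsOrd f w
        · have h2 : w.length = 0 := by rw [isOrd_length hw, hf]
          rw [List.length_eq_zero_iff.1 h2]
          exact hz
        · exact z.2.1 w hw
      have := LinearMap.finrank_le_finrank_of_injective hφ
      simpa using this
    · obtain ⟨s, hs⟩ : f.Nonempty := Finset.card_pos.1 (by omega)
      obtain ⟨k, rfl⟩ : ∃ k', k = k' + 1 := ⟨k - 1, by omega⟩
      have h1 := LinearMap.finrank_le_finrank_of_injective (Phi_inj (K := K) hn hs)
      rw [Module.finrank_pi_fintype] at h1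
      refine h1.trans ?_
      have h2 : ∀ i : Idx n f s, Module.finrank K (R (K := K) n (rest i)) ≤ c n (k - i.1.1) := by
        intro i
        refine ih (k - i.1.1) (by omega) (rest i) ?_
        rw [card_rest hs, hf]
        omega
      refine (Finset.sum_le_sum fun i _ => h2 i).trans ?_
      rw [c_succ, Fintype.sum_sigma, ← Fin.sum_univ_eq_sum_range
        (fun j => k.descFactorial j * c n (k - j)) (n - 1)]
      apply le_of_eq
      refine Finset.sum_congr rfl fun j _ => ?_
      simp only [Finset.sum_const, smul_eq_mul, Finset.card_univ, Fintype.card_embedding_eq,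
        Fintype.card_fin, Fintype.card_coe]
      rw [Finset.card_erase_of_mem hs, hf]
      simp


/-- the part of `z` on the orderings of `f` -/
def Part {n : ℕ} {S : Submodule K (List L → K)}
    (hS2 : ∀ z ∈ S, ∀ g u v : List L, g.length = n → ev z g u v = 0) (f : Finset L) :
    S →ₗ[K] R (K := K) n f where
  toFun z := ⟨fun w => if IsOrd f w then z.1 w else 0, by
    refine ⟨fun w hw => by simp [hw], fun g u v hg => ?_⟩
    by_cases h : IsOrd f (u ++ (g ++ v))
    · rw [ev_congr g u v (z' := z.1), hS2 z.1 z.2 g u v hg]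
      intro w hw
      rw [if_pos ((isOrd_perm hw).2 h)]
    · apply ev_eq_zero
      intro w hw
      rw [if_neg (fun h' => h ((isOrd_perm hw).1 h'))]⟩
  map_add' a b := by
    ext w
    by_cases h : IsOrd f w <;> simp [h]
  map_smul' c a := by
    ext w
    by_cases h : IsOrd f w <;> simp [h]

/-- **upper bound** for a space of functions on the orderings of a family `F` of `k`-sets -/
theorem finrank_le_of_family {n : ℕ} (hn : 1 ≤ n) {k : ℕ} (F : Finset (Finset L))
    (hF : ∀ f ∈ F, f.card = k) (S : Submodule K (List L → K))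
    (hS1 : ∀ z ∈ S, ∀ w : List L, (∀ f ∈ F, ¬ IsOrd f w) → z w = 0)
    (hS2 : ∀ z ∈ S, ∀ g u v : List L, g.length = n → ev z g u v = 0) :
    Module.finrank K S ≤ F.card * c n k := by
  have hinj : Function.Injective
      (LinearMap.pi fun f : {f // f ∈ F} => Part (K := K) (n := n) hS2 f.1) := by
    rw [injective_iff_map_eq_zero]
    intro z hz
    ext w
    show z.1 w = 0
    by_cases h : ∃ f ∈ F, IsOrd f w
    · obtain ⟨f, hf, hw⟩ := h
      have h1 := congrFun (Subtype.ext_iff.1 (congrFun hz ⟨f, hf⟩)) w
      have h2 : (if IsOrd f w then z.1 w else 0) = 0 := h1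
      rwa [if_pos hw] at h2
    · push Not at h
      exact hS1 z.1 z.2 w h
  have h1 := LinearMap.finrank_le_finrank_of_injective hinj
  rw [Module.finrank_pi_fintype] at h1
  refine h1.trans ((Finset.sum_le_sum fun f _ => finrank_R_le hn k f.1 (hF f.1 f.2)).trans ?_)
  simp

end bound

section growth

/-- the recursion of `c_k / k!` -/
lemma a_rec (n k : ℕ) : ((k : ℝ) + 1) * ((c n (k + 1) : ℝ) / (k + 1).factorial) =
    ∑ j ∈ Finset.range (n - 1), if j ≤ k then (c n (k - j) : ℝ) / (k - j).factorial else 0 := by
  rw [c_succ, Nat.factorial_succ]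
  push_cast
  have h1 : ((k : ℝ) + 1) ≠ 0 := by positivity
  have h2 : ((k.factorial : ℕ) : ℝ) ≠ 0 := by exact_mod_cast Nat.factorial_ne_zero k
  rw [mul_div_assoc', mul_div_mul_left _ _ h1, Finset.sum_div]
  refine Finset.sum_congr rfl fun j _ => ?_
  by_cases hj : j ≤ k
  · rw [if_pos hj]
    have h3 : (((k - j).factorial : ℕ) : ℝ) ≠ 0 := by exact_mod_cast Nat.factorial_ne_zero _
    have h4 : ((k.factorial : ℕ) : ℝ) = ((k - j).factorial : ℝ) * (k.descFactorial j : ℝ) := by
      rw [← Nat.factorial_mul_descFactorial hj]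
      push_cast
      rfl
    have h5 : (k.descFactorial j : ℝ) ≠ 0 := by
      intro h
      rw [h, mul_zero] at h4
      exact h2 h4
    rw [h4]
    field_simp
  · rw [if_neg hj, Nat.descFactorial_of_lt (by omega)]
    simp

/-- `c_k / k!` decays faster than every exponential -/
lemma a_decay (n : ℕ) (B : ℝ) (hB : 0 < B) :
    ∃ C : ℝ, ∀ k : ℕ, (c n k : ℝ) / k.factorial ≤ C / B ^ k := by
  obtain ⟨K0, hK0⟩ := exists_nat_ge (∑ j ∈ Finset.range (n - 1), B ^ (j + 1))
  have ha : ∀ k, 0 ≤ (c n k : ℝ) / k.factorial := fun k => by positivity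
  refine ⟨∑ i ∈ Finset.range (K0 + 1), (c n i : ℝ) / i.factorial * B ^ i, ?_⟩
  set C := ∑ i ∈ Finset.range (K0 + 1), (c n i : ℝ) / i.factorial * B ^ i with hC
  have hC0 : 0 ≤ C := Finset.sum_nonneg fun i _ => mul_nonneg (ha i) (by positivity)
  intro k
  induction k using Nat.strong_induction_on with
  | _ k ih =>
    rcases Nat.lt_or_ge k (K0 + 1) with hk | hk
    · rw [le_div_iff₀ (by positivity)]
      exact Finset.single_le_sum (f := fun i => (c n i : ℝ) / i.factorial * B ^ i)
        (fun i _ => mul_nonneg (ha i) (by positivity)) (Finset.mem_range.2 hk)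
    · obtain ⟨k, rfl⟩ : ∃ k', k = k' + 1 := ⟨k - 1, by omega⟩
      have h1 := a_rec n k
      have h2 : ∑ j ∈ Finset.range (n - 1),
          (if j ≤ k then (c n (k - j) : ℝ) / (k - j).factorial else 0) ≤
          ∑ j ∈ Finset.range (n - 1), C / B ^ (k + 1) * B ^ (j + 1) := by
        refine Finset.sum_le_sum fun j _ => ?_
        by_cases hj : j ≤ k
        · rw [if_pos hj]
          refine (ih (k - j) (by omega)).trans (le_of_eq ?_)
          have h3 : B ^ (k + 1) = B ^ (k - j) * B ^ (j + 1) := by
            rw [← pow_add]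
            congr 1
            omega
          rw [h3]
          field_simp
        · rw [if_neg hj]
          positivity
      rw [← Finset.mul_sum] at h2
      have h4 : (K0 : ℝ) ≤ k := by exact_mod_cast (by omega : K0 ≤ k)
      have h5 : ((k : ℝ) + 1) * ((c n (k + 1) : ℝ) / (k + 1).factorial) ≤
          ((k : ℝ) + 1) * (C / B ^ (k + 1)) := by
        rw [h1]
        refine h2.trans ?_
        rw [mul_comm]
        exact mul_le_mul_of_nonneg_right (by linarith) (by positivity)
      exact le_of_mul_le_mul_left h5 (by positivity)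

/-- **numerics**: `2^k c_k < k!` for large `k` (any base instead of `2`) -/
theorem exists_small (n : ℕ) (B : ℕ) (hB : 0 < B) :
    ∃ K0 : ℕ, ∀ k, K0 ≤ k → B ^ k * c n k < k.factorial := by
  obtain ⟨C, hC⟩ := a_decay n (2 * B) (by positivity)
  have h1 : Filter.Tendsto (fun k : ℕ => C * (1 / 2 : ℝ) ^ k) Filter.atTop (nhds (C * 0)) :=
    (tendsto_pow_atTop_nhds_zero_of_lt_one (by norm_num) (by norm_num)).const_mul C
  rw [mul_zero] at h1
  obtain ⟨K0, hK0⟩ := Filter.eventually_atTop.1 (h1.eventually_lt_const (show (0 : ℝ) < 1 by norm_num))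
  refine ⟨K0, fun k hk => ?_⟩
  have h2 := hK0 k hk
  have h3 := hC k
  have h4 : (0 : ℝ) < (k.factorial : ℝ) := by exact_mod_cast Nat.factorial_pos k
  have hB' : (0 : ℝ) < (B : ℝ) ^ k := by positivity
  rw [mul_pow, div_le_iff₀ h4] at h3
  have h5 : (B : ℝ) ^ k * (c n k : ℝ) < k.factorial := by
    calc (B : ℝ) ^ k * (c n k : ℝ) ≤ (B : ℝ) ^ k * (C / (2 ^ k * (B : ℝ) ^ k) * k.factorial) :=
          mul_le_mul_of_nonneg_left h3 hB'.le
      _ = (C * (1 / 2) ^ k) * k.factorial := by
          rw [one_div, inv_pow]
          field_simp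
      _ < 1 * k.factorial := mul_lt_mul_of_pos_right h2 h4
      _ = k.factorial := one_mul _
  exact_mod_cast h5

end growth

end Vale.Agent.P240.R2.H986
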